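import Vale.Agent.P097.H128.Sector.Defs2

/-!
# P097 / case [c] (natural boundary): data and literal rows of block R0 (positions, first height)

Same style as `H531/CD/Defs.lean` (case [d]), with `univ` replaced by the strip `Str b`.
`F` = normal angle, `q` = support number of the tangent line, holomorphic on `Str b`, functions of
the affine parameter `x`; both lines `Im x = ± b` are natural boundaries.
-/

set_option linter.all false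

open Complex Metric Filter Topology Set
open scoped ComplexConjugate

namespace Vale.Agent.P097.CC

open Vale.Agent.P097 Vale.Agent.P097.TA Vale.Agent.P097.H202 Vale.Agent.P097.SC
open Vale.Agent.P097.H456.Fct

/-- a point of the top line `Im x = b` across which the curve extends (same text as `H6.TopPt`) -/
def TopM (b : ℝ) (F q : ℂ → ℂ) : Prop :=
  ∃ (a ρ : ℝ) (Z' q' : ℂ → ℂ), 0 < ρ ∧ MeromorphicOn Z' (ball ((a : ℂ) + b * I) ρ) ∧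
    MeromorphicOn q' (ball ((a : ℂ) + b * I) ρ) ∧
    ∀ z ∈ ball ((a : ℂ) + b * I) ρ, z.im < b → Z' z = exp (I * F z) ∧ q' z = q z

/-- the data of case [c] -/
structure En (κ Λ b : ℝ) (H Φ : ℂ → ℂ) (r e : ℝ) (α p : ℂ → ℂ → ℂ) (J : ℂ → ℂ) (F q : ℂ → ℂ) :
    Prop where
  ctx : Ctx κ Λ H Φ r e α p J
  na : ¬ HAlg κ H
  b0 : 0 < b
  dF : DifferentiableOn ℂ F (Str b)
  dq : DifferentiableOn ℂ q (Str b)
  re : ∀ x : ℝ, F x = Φ x ∧ q x = H (Φ x)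
  nat : ¬ TopM b F q

/-- basic facts on the curve -/
structure Bs (Λ b : ℝ) (F q Q : ℂ → ℂ) : Prop where
  Λ0 : 0 < Λ
  b0 : 0 < b
  dF : DifferentiableOn ℂ F (Str b)
  dq : DifferentiableOn ℂ q (Str b)
  dQ : DifferentiableOn ℂ Q (Str b)
  wr : ∀ z ∈ Str b, Wr F q z = (Λ : ℂ) ^ 3
  Fp : ∀ z ∈ Str b, F (z + 1) = F z + 2 * Real.pi
  qp : ∀ z ∈ Str b, q (z + 1) = q z
  Qp : ∀ z ∈ Str b, Q (z + 1) = Q z
  Fc : ∀ z ∈ Str b, F (conj z) = conj (F z)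
  qc : ∀ z ∈ Str b, q (conj z) = conj (q z)
  Qc : ∀ z ∈ Str b, Q (conj z) = conj (Q z)
  gpos : ∀ x : ℝ, 0 < (deriv F x).re
  gQ : ∀ z ∈ Str b, deriv (deriv (deriv F)) z = Q z * deriv F z
  nat : ¬ TopM b F q

/-- **Row B** (case [c]) : basic facts -/
def RowB : Prop := ∀ {κ Λ b : ℝ} {H Φ : ℂ → ℂ} {r e : ℝ} {α p : ℂ → ℂ → ℂ} {J F q : ℂ → ℂ},
  En κ Λ b H Φ r e α p J F q → ∃ Q, Bs Λ b F q Q

/-- **Row Lift** (case [c], one variable): lifting through the immersion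
`x ↦ (exp (2 i F), q exp (- i F))` of the strip; meromorphic data have no poles, positions do not
reach the natural boundary -/
def RowLift : Prop := ∀ {Λ b : ℝ} {F q Q : ℂ → ℂ}, Bs Λ b F q Q →
  ∀ {W : Set ℂ}, IsOpen W → Convex ℝ W → ∀ {f₁ f₂ : ℂ → ℂ}, MeromorphicOn f₁ W →
  MeromorphicOn f₂ W → ∀ {t₀ : ℂ} {θ : ℂ → ℂ}, t₀ ∈ W → AnalyticAt ℂ θ t₀ → θ t₀ ∈ Str b →
  (¬ ∀ᶠ t in 𝓝 t₀, θ t = θ t₀) →
  (∀ᶠ t in 𝓝 t₀, f₁ t = exp (2 * I * F (θ t)) ∧ f₂ t = q (θ t) * exp (-I * F (θ t))) →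
  ∃ θ' : ℂ → ℂ, DifferentiableOn ℂ θ' W ∧ MapsTo θ' W (Str b) ∧ θ' =ᶠ[𝓝 t₀] θ ∧
    ∀ t ∈ W, ∀ᶠ s in 𝓝[≠] t, f₁ s = exp (2 * I * F (θ' s)) ∧
      f₂ s = q (θ' s) * exp (-I * F (θ' s))

end Vale.Agent.P097.CC
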