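import Vale.Agent.P097.H286.C.Defs
import Vale.Agent.P097.H710.RowB

/-!
# P097 / case [c]: Row B (basic facts on the curve on the strip)
-/

set_option linter.all false

open Complex Metric Filter Topology Set
open scoped ComplexConjugate

namespace Vale.Agent.P097.CC

open Vale.Agent.P097 Vale.Agent.P097.TA Vale.Agent.P097.H202 Vale.Agent.P097.SC
open Vale.Agent.P097.H456.Fct Vale.Agent.P097.H710

/-- division by a function with simple zeros, on an open set -/
theorem exists_quotOn {S : Set ℂ} (hS : IsOpen S) {f g : ℂ → ℂ} (hf : DifferentiableOn ℂ f S)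
    (hg : DifferentiableOn ℂ g S) (h : ∀ z ∈ S, g z = 0 → f z = 0 ∧ deriv g z ≠ 0) :
    ∃ Q : ℂ → ℂ, DifferentiableOn ℂ Q S ∧ (∀ z ∈ S, f z = Q z * g z) ∧
      ∀ z, Q z = if g z = 0 then deriv f z / deriv g z else f z / g z := by
  refine ⟨fun z => if g z = 0 then deriv f z / deriv g z else f z / g z, ?_, ?_, fun z => rfl⟩
  · intro z hzS
    refine DifferentiableAt.differentiableWithinAt ?_
    have hSz : S ∈ 𝓝 z := hS.mem_nhds hzS
    by_cases hz : g z = 0
    · obtain ⟨h1, h2⟩ := h z hzS hz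
      have a1 : DifferentiableAt ℂ (dslope f z) z :=
        ((differentiableOn_dslope hSz).2 hf).differentiableAt hSz
      have a2 : DifferentiableAt ℂ (dslope g z) z :=
        ((differentiableOn_dslope hSz).2 hg).differentiableAt hSz
      have hd : DifferentiableAt ℂ (fun x => dslope f z x / dslope g z x) z :=
        a1.div a2 (by rw [dslope_same]; exact h2)
      refine hd.congr_of_eventuallyEq ?_
      have h3 : ∀ᶠ x in 𝓝 z, dslope g z x ≠ 0 :=
        a2.continuousAt.eventually_ne (by rw [dslope_same]; exact h2)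
      filter_upwards [h3] with x hx
      by_cases hxz : x = z
      · rw [hxz, if_pos hz, dslope_same, dslope_same]
      · have e1 := sub_smul_dslope g z x
        have e2 := sub_smul_dslope f z x
        rw [hz, sub_zero, smul_eq_mul] at e1
        rw [h1, sub_zero, smul_eq_mul] at e2
        have h4 : x - z ≠ 0 := sub_ne_zero.2 hxz
        have h5 : g x ≠ 0 := by
          rw [← e1]; exact mul_ne_zero h4 hx
        rw [if_neg h5, ← e1, ← e2]
        field_simp
    · have hgz : DifferentiableAt ℂ g z := hg.differentiableAt hSz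
      have hfz : DifferentiableAt ℂ f z := hf.differentiableAt hSz
      have h3 : ∀ᶠ x in 𝓝 z, g x ≠ 0 := hgz.continuousAt.eventually_ne hz
      refine (hfz.div hgz hz).congr_of_eventuallyEq ?_
      filter_upwards [h3] with x hx
      rw [if_neg hx]
      rfl
  · intro z hzS
    by_cases hz : g z = 0
    · simp only [hz, if_true, mul_zero]
      exact (h z hzS hz).1
    · simp only [hz, if_false]
      field_simp

theorem Str_add1 {b : ℝ} {z : ℂ} (hz : z ∈ Str b) : z + 1 ∈ Str b := by
  have h : |z.im| < b := hz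
  show |(z + 1).im| < b
  simpa using h

theorem Str_conj {b : ℝ} {z : ℂ} (hz : z ∈ Str b) : conj z ∈ Str b := by
  have h : |z.im| < b := hz
  show |(conj z).im| < b
  simpa using h

/-- the derivative of a function with `f (z + 1) = f z + k` on the strip is periodic -/
theorem deriv_per {b : ℝ} {f : ℂ → ℂ} {k : ℂ} (hf : DifferentiableOn ℂ f (Str b))
    (h : ∀ z ∈ Str b, f (z + 1) = f z + k) : ∀ z ∈ Str b, deriv f (z + 1) = deriv f z + 0 := by
  intro z hz
  rw [add_zero]
  have hop := isOpen_Str b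
  have a : HasDerivAt (fun x => f (x + 1)) (deriv f (z + 1)) z :=
    ((hf.differentiableAt (hop.mem_nhds (Str_add1 hz))).hasDerivAt).comp_add_const z 1
  have c : HasDerivAt (fun x => f (x + 1)) (deriv f z) z := by
    refine (((hf.differentiableAt (hop.mem_nhds hz)).hasDerivAt).add_const k).congr_of_eventuallyEq ?_
    filter_upwards [hop.mem_nhds hz] with x hx using h x hx
  exact a.unique c

/-- the derivative of a function which commutes with conjugation on the strip -/
theorem deriv_conj' {b : ℝ} {f : ℂ → ℂ} (hf : DifferentiableOn ℂ f (Str b))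
    (h : ∀ z ∈ Str b, f (conj z) = conj (f z)) :
    ∀ z ∈ Str b, deriv f (conj z) = conj (deriv f z) := by
  intro z hz
  have hop := isOpen_Str b
  have hz' : conj z ∈ Str b := Str_conj hz
  have a : HasDerivAt f (deriv f (conj z)) (conj z) :=
    (hf.differentiableAt (hop.mem_nhds hz')).hasDerivAt
  have c : HasDerivAt (fun x => conj (f (conj x))) (conj (deriv f z)) (conj z) := by
    have h1 : HasDerivAt f (deriv f z) (conj (conj z)) := by
      rw [Complex.conj_conj]
      exact (hf.differentiableAt (hop.mem_nhds hz)).hasDerivAt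
    have h2 := h1.conj_conj
    rw [Complex.conj_conj] at h2
    exact h2
  have d : HasDerivAt f (conj (deriv f z)) (conj z) := by
    refine c.congr_of_eventuallyEq ?_
    filter_upwards [hop.mem_nhds hz'] with x hx
    rw [h x hx, Complex.conj_conj]
  exact a.unique d

/-- **Row B** of case [c] -/
theorem rowB : RowB := by
  intro κ Λ b H Φ r e α p J F q E
  obtain ⟨h, ρ₀, L, HH, lam, l, φ, T⟩ := E.ctx.ld
  have hb := E.b0
  have hκ := T.κ0
  have hρ₀ := T.ρ0
  have hΛ := T.Λ0
  obtain ⟨ρ, hρ, hρ1, hρ2⟩ : ∃ ρ > 0, ρ ≤ ρ₀ ∧ ρ ≤ b :=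
    ⟨min ρ₀ b, lt_min hρ₀ hb, min_le_left _ _, min_le_right _ _⟩
  have dF := E.dF
  have dq := E.dq
  have hopb := isOpen_Str b
  have hop := isOpen_Str ρ
  have sρ : Str ρ ⊆ Str ρ₀ := Str_mono hρ1
  have sb : Str ρ ⊆ Str b := Str_mono hρ2
  have dF1 : DifferentiableOn ℂ (deriv F) (Str b) := dF.deriv hopb
  have dF2 : DifferentiableOn ℂ (deriv (deriv F)) (Str b) := dF1.deriv hopb
  have dF3 : DifferentiableOn ℂ (deriv (deriv (deriv F))) (Str b) := dF2.deriv hopb
  have dq1 : DifferentiableOn ℂ (deriv q) (Str b) := dq.deriv hopb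
  have dq2 : DifferentiableOn ℂ (deriv (deriv q)) (Str b) := dq1.deriv hopb
  -- on the small strip
  have dΦ : DifferentiableOn ℂ Φ (Str ρ) := fun z hz =>
    (T.dΦ z (sρ hz)).differentiableAt.differentiableWithinAt
  have hΦκ : ∀ z ∈ Str ρ, Φ z ∈ Str κ := fun z hz =>
    Str_mono (by linarith) (T.Φm z (sρ hz))
  have eF : ∀ z ∈ Str ρ, F z = Φ z := fun z hz =>
    str_eq hρ (dF.mono sb) dΦ (fun x => (E.re x).1) hz
  have dHΦ : DifferentiableOn ℂ (fun z => H (Φ z)) (Str ρ) := T.dH.comp dΦ (fun z hz => hΦκ z hz)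
  have eq' : ∀ z ∈ Str ρ, q z = H (Φ z) := fun z hz =>
    str_eq hρ (dq.mono sb) dHΦ (fun x => (E.re x).2) hz
  -- derivatives on the strip
  have hF1 : ∀ z ∈ Str ρ, HasDerivAt F (Λ / lam (Φ z)) z := fun z hz => by
    refine (T.dΦ z (sρ hz)).congr_of_eventuallyEq ?_
    filter_upwards [hop.mem_nhds hz] with x hx using eF x hx
  have hdF1 : ∀ z ∈ Str ρ, deriv F z = Λ / lam (Φ z) := fun z hz => (hF1 z hz).deriv
  have hF10 : ∀ z ∈ Str ρ, deriv F z ≠ 0 := fun z hz => by
    rw [hdF1 z hz]
    exact div_ne_zero (Complex.ofReal_ne_zero.2 hΛ.ne') (T.lam0 _ (hΦκ z hz))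
  have opκ := isOpen_Str κ
  have hH1 : ∀ z ∈ Str κ, HasDerivAt H (deriv H z) z := fun z hz =>
    (T.dH.differentiableAt (opκ.mem_nhds hz)).hasDerivAt
  have hH2 : ∀ z ∈ Str κ, HasDerivAt (deriv H) (deriv (deriv H) z) z := fun z hz =>
    ((T.dH.deriv opκ).differentiableAt (opκ.mem_nhds hz)).hasDerivAt
  have hΦd : ∀ z ∈ Str ρ, HasDerivAt Φ (deriv F z) z := fun z hz => by
    have := T.dΦ z (sρ hz)
    rwa [← hdF1 z hz] at this
  have hF1' : ∀ z ∈ Str ρ, HasDerivAt (deriv F) (deriv (deriv F) z) z := fun z hz =>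
    (dF1.differentiableAt (hopb.mem_nhds (sb hz))).hasDerivAt
  have hq1 : ∀ z ∈ Str ρ, HasDerivAt q (deriv H (Φ z) * deriv F z) z := fun z hz => by
    refine ((hH1 _ (hΦκ z hz)).comp z (hΦd z hz)).congr_of_eventuallyEq ?_
    filter_upwards [hop.mem_nhds hz] with x hx using eq' x hx
  have hq2 : ∀ z ∈ Str ρ, HasDerivAt (deriv q)
      (deriv (deriv H) (Φ z) * deriv F z * deriv F z + deriv H (Φ z) * deriv (deriv F) z) z :=
    fun z hz => by
    have a1 := ((hH2 _ (hΦκ z hz)).comp z (hΦd z hz)).mul (hF1' z hz)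
    refine a1.congr_of_eventuallyEq ?_
    filter_upwards [hop.mem_nhds hz] with x hx
    exact (hq1 x hx).deriv
  have wrs : ∀ z ∈ Str ρ, Wr F q z = (Λ : ℂ) ^ 3 := by
    intro z hz
    have h3 := T.lam3 _ (hΦκ z hz)
    have h0 := T.lam0 _ (hΦκ z hz)
    rw [Wr, (hq2 z hz).deriv, (hq1 z hz).deriv, eq' z hz]
    have e1 : deriv F z * lam (Φ z) = Λ := by
      rw [hdF1 z hz]; field_simp
    have e2 : deriv F z ^ 3 * lam (Φ z) ^ 3 = (Λ : ℂ) ^ 3 := by
      rw [← mul_pow, e1]
    linear_combination e2 - deriv F z ^ 3 * h3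
  have wr : ∀ z ∈ Str b, Wr F q z = (Λ : ℂ) ^ 3 := by
    have d1 : DifferentiableOn ℂ (Wr F q) (Str b) := by
      have a := ((dq2.mul dF1).sub (dq1.mul dF2)).add (dq.mul (dF1.pow 3))
      exact a
    have d2 : DifferentiableOn ℂ (fun _ : ℂ => (Λ : ℂ) ^ 3) (Str b) := differentiableOn_const _
    intro z hz
    exact str_eq hb d1 d2 (fun x => wrs x (real_mem_Str hρ x)) hz
  -- zeros of `F'` are simple, `F'''` vanishes there
  have hz0 : ∀ z ∈ Str b, deriv F z = 0 →
      deriv (deriv (deriv F)) z = 0 ∧ deriv (deriv F) z ≠ 0 := by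
    intro z hzb hz
    have e1 := wr z hzb
    rw [Wr, hz] at e1
    have hΛ3 : (Λ : ℂ) ^ 3 ≠ 0 := pow_ne_zero _ (Complex.ofReal_ne_zero.2 hΛ.ne')
    have h2 : deriv (deriv F) z ≠ 0 := by
      intro h
      apply hΛ3
      rw [← e1, h]
      ring
    have h3 : deriv q z ≠ 0 := by
      intro h
      apply hΛ3
      rw [← e1, h]
      ring
    refine ⟨?_, h2⟩
    have mz := hopb.mem_nhds hzb
    have a := ((dq2.differentiableAt mz).hasDerivAt.mul (dF1.differentiableAt mz).hasDerivAt).sub
      ((dq1.differentiableAt mz).hasDerivAt.mul (dF2.differentiableAt mz).hasDerivAt) |>.add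
      ((dq.differentiableAt mz).hasDerivAt.mul ((dF1.differentiableAt mz).hasDerivAt.pow 3))
    have b' : HasDerivAt (Wr F q) 0 z := by
      refine (hasDerivAt_const z ((Λ : ℂ) ^ 3)).congr_of_eventuallyEq ?_
      filter_upwards [mz] with x hx using wr x hx
    have c := b'.unique (a : HasDerivAt (Wr F q) _ z)
    rw [hz] at c
    simp only [Pi.pow_apply, hz] at c
    have d : deriv q z * deriv (deriv (deriv F)) z = 0 := by
      push_cast at c
      norm_num at c
      rcases c with c | c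
      · exact absurd c h3
      · rw [c, mul_zero]
    exact (mul_eq_zero.1 d).resolve_left h3
  obtain ⟨Q, dQ, hQ, hQf⟩ := exists_quotOn hopb (f := deriv (deriv (deriv F))) (g := deriv F)
    dF3 dF1 hz0
  -- periods
  have Fp : ∀ z ∈ Str b, F (z + 1) = F z + 2 * Real.pi := by
    intro z hz
    have d1 : DifferentiableOn ℂ (fun z => F (z + 1)) (Str b) :=
      dF.comp ((differentiable_id.add_const 1).differentiableOn) (fun z hz => Str_add1 hz)
    refine str_eq hb (f := fun z => F (z + 1)) (g := fun z => F z + 2 * Real.pi) d1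
      (dF.add_const _) (fun x => ?_) hz
    have e1 := (E.re (x + 1)).1
    have e2 := (E.re x).1
    have e3 := T.Φp x (real_mem_Str hρ₀ x)
    push_cast at e1
    show F ((x : ℂ) + 1) = F x + 2 * Real.pi
    rw [e1, e2, e3]
  have qp : ∀ z ∈ Str b, q (z + 1) = q z := by
    intro z hz
    have d1 : DifferentiableOn ℂ (fun z => q (z + 1)) (Str b) :=
      dq.comp ((differentiable_id.add_const 1).differentiableOn) (fun z hz => Str_add1 hz)
    refine str_eq hb (f := fun z => q (z + 1)) (g := q) d1 dq (fun x => ?_) hz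
    have e1 := (E.re (x + 1)).2
    have e2 := (E.re x).2
    have e3 := T.Φp x (real_mem_Str hρ₀ x)
    push_cast at e1
    show q ((x : ℂ) + 1) = q x
    rw [e1, e2, e3, T.Hp _ (hΦκ x (real_mem_Str hρ x))]
  have F1p := deriv_per dF Fp
  have F2p := deriv_per dF1 F1p
  have F3p := deriv_per dF2 F2p
  have F4p := deriv_per dF3 F3p
  have Qp : ∀ z ∈ Str b, Q (z + 1) = Q z := by
    intro z hz
    rw [hQf, hQf, F1p z hz, F2p z hz, F3p z hz, F4p z hz]
    simp only [add_zero]
  -- reality
  have hreal : ∀ x : ℝ, (F x).im = 0 := fun x => by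
    rw [(E.re x).1, T.Φr, ofReal_im]
  have hrealq : ∀ x : ℝ, (q x).im = 0 := fun x => by
    rw [(E.re x).2, T.Φr, T.Hr, ofReal_im]
  have hconj : ∀ {f : ℂ → ℂ}, DifferentiableOn ℂ f (Str b) → (∀ x : ℝ, (f x).im = 0) →
      ∀ z ∈ Str b, f (conj z) = conj (f z) := by
    intro f hf hre z hz
    have a : DifferentiableOn ℂ (fun z => conj (f (conj z))) (Str b) := by
      intro z hz
      have := (hf.differentiableAt (hopb.mem_nhds (Str_conj hz))).conj_conj
      rw [Complex.conj_conj] at this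
      exact this.differentiableWithinAt
    have b' := str_eq hb a hf (fun x => by
      show conj (f (conj (x : ℂ))) = f x
      rw [Complex.conj_ofReal, Complex.conj_eq_iff_im.2 (hre x)]) hz
    rw [← b', Complex.conj_conj]
  have Fc := hconj dF hreal
  have qc := hconj dq hrealq
  have F1c := deriv_conj' dF Fc
  have F2c := deriv_conj' dF1 F1c
  have F3c := deriv_conj' dF2 F2c
  have F4c := deriv_conj' dF3 F3c
  have Qc : ∀ z ∈ Str b, Q (conj z) = conj (Q z) := by
    intro z hz
    rw [hQf, hQf, F1c z hz, F2c z hz, F3c z hz, F4c z hz]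
    by_cases h0 : deriv F z = 0
    · rw [h0, map_zero, if_pos rfl, if_pos rfl, map_div₀]
    · rw [if_neg h0, if_neg (by
        intro h1
        apply h0
        have h2 := congrArg conj h1
        rwa [Complex.conj_conj, map_zero] at h2), map_div₀]
  exact ⟨Q, hΛ, hb, dF, dq, dQ, wr, Fp, qp, Qp, Fc, qc, Qc, fun x => by
    rw [hdF1 x (real_mem_Str hρ x), T.Φr, T.lamr, ← Complex.ofReal_div, Complex.ofReal_re]
    exact div_pos hΛ (T.lpos _), hQ, E.nat⟩

end Vale.Agent.P097.CC
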