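import Vale.Agent.P097.H286.C.Height1
import Vale.Agent.P097.H128.Sector.Top3
import Vale.Agent.P097.H710.RowB

/-!
# P097 / case [c] / R0.3: the first height, part 2 (superharmonicity, value at `0`)
-/

set_option linter.all false

open Complex Metric Filter Topology Set
open scoped ComplexConjugate

namespace Vale.Agent.P097.CC

open Vale.Agent.P097 Vale.Agent.P097.TA Vale.Agent.P097.H202 Vale.Agent.P097.SC
open Vale.Agent.P097.H456.Fct Vale.Agent.P097.H456.Sp Vale.Agent.P097.H456.C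
open Vale.Agent.P097.H543

/-- Hartogs, top side, for functions with `f (t + 1, w) = f (t, w) + k` on `|Im t| < R w` -/
theorem hart_top {R : ℂ → ℝ} {e₁ c : ℝ} {f : ℂ × ℂ → ℂ} {k : ℂ} (hc : 0 < c)
    (hR : ∀ w : ℂ, ‖w‖ < e₁ → c ≤ R w) (hop : IsOpen (Dm R e₁)) (hf : AnalyticOnNhd ℂ f (Dm R e₁))
    (hper : ∀ t w : ℂ, (t, w) ∈ Dm R e₁ → f (t + 1, w) = f (t, w) + k) {z : ℂ} {s : ℝ} (hs : 0 < s)
    (hsub : closedBall z s ⊆ ball (0 : ℂ) e₁) {G : ℂ → ℂ} {V : Set ℂ} (hV : IsOpen V)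
    (hcV : closedBall z s ⊆ V) (hG : DifferentiableOn ℂ G V)
    (hsp : ∀ w ∈ sphere z s, (G w).re < R w) :
    ∃ g : ℂ × ℂ → ℂ, AnalyticOnNhd ℂ g {u | u.2 ∈ ball z s ∧ 0 < u.1.im ∧ u.1.im < (G u.2).re} ∧
      ∀ u ∈ Dm R e₁, 0 < u.1.im → g u = f u := by
  set Ω : Set (ℂ × ℂ) := {u | 0 < u.1.im ∧ u ∈ Dm R e₁} with hΩ
  have him : ∀ {u : ℂ × ℂ}, u ∈ Ω → |u.1.im| = u.1.im := fun {u} hu => abs_of_pos hu.1
  have hΩH : Hypo 0 Ω := by
    refine ⟨?_, fun t w h => h.1, ?_⟩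
    · exact (isOpen_lt continuous_const (Complex.continuous_im.comp continuous_fst)).inter hop
    · rintro t s w ⟨h1, h2, h3⟩ hs0 hst
      refine ⟨hs0, ?_, h3⟩
      simp only [] at h1 h2 ⊢
      rw [abs_of_pos h1] at h2
      rw [abs_of_pos hs0]
      linarith
  have hJ : JD (fun t w => f (t, w) - k * t) Ω := by
    intro u hu
    have h1 : DifferentiableAt ℂ f u := (hf u hu.2).differentiableAt
    have h2 : DifferentiableAt ℂ (fun u : ℂ × ℂ => f u - k * u.1) u :=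
      h1.sub (by fun_prop)
    exact h2.differentiableWithinAt
  have hP : Per (fun t w => f (t, w) - k * t) Ω := by
    intro x w hx
    simp only []
    rw [hper x w hx.2]
    ring
  obtain ⟨F, hF1, -, hF2⟩ := hartogs_periodic hΩH hJ hP (w₁ := z) hs (a := c / 2) (by linarith)
    (by
      intro w hw
      have hw' : ‖w‖ < e₁ := by simpa using hsub hw
      refine ⟨by simpa using hc, ?_, hw'⟩
      show |(((c / 2 : ℝ) : ℂ) * I).im| < R w
      have : (((c / 2 : ℝ) : ℂ) * I).im = c / 2 := by simp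
      rw [this, abs_of_pos (by linarith)]
      linarith [hR w hw']) (GG := G) hV hcV hG (by
      intro w hw h0
      have hw' : ‖w‖ < e₁ := by simpa using hsub (sphere_subset_closedBall hw)
      refine ⟨by simpa using h0, ?_, hw'⟩
      show |(((G w).re : ℂ) * I).im| < R w
      have : (((G w).re : ℂ) * I).im = (G w).re := by simp
      rw [this, abs_of_pos h0]
      exact hsp w hw)
  set S : Set (ℂ × ℂ) := {u | u.2 ∈ ball z s ∧ 0 < u.1.im ∧ u.1.im < (G u.2).re} with hS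
  have hSo : IsOpen S := by
    have hUb : ContinuousOn (fun p : ℂ × ℂ => p.1.im - (G p.2).re) {p | p.2 ∈ ball z s} := by
      apply ContinuousOn.sub (Complex.continuous_im.comp continuous_fst).continuousOn
      exact Complex.continuous_re.comp_continuousOn
        ((hG.continuousOn.mono (ball_subset_closedBall.trans hcV)).comp (by fun_prop) fun p hp => hp)
    have h1 := hUb.isOpen_inter_preimage (isOpen_ball.preimage continuous_snd)
      (isOpen_Iio (a := (0 : ℝ)))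
    have h2 : IsOpen {p : ℂ × ℂ | 0 < p.1.im} :=
      isOpen_lt continuous_const (Complex.continuous_im.comp continuous_fst)
    have h3 : S = ({p : ℂ × ℂ | p.2 ∈ ball z s} ∩
        (fun p : ℂ × ℂ => p.1.im - (G p.2).re) ⁻¹' Iio 0) ∩ {p : ℂ × ℂ | 0 < p.1.im} := by
      ext u
      constructor
      · rintro ⟨a, b, c⟩
        exact ⟨⟨a, by simpa using c⟩, b⟩
      · rintro ⟨⟨a, c⟩, b⟩
        exact ⟨a, b, by simpa using c⟩
    rw [h3]
    exact h1.inter h2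
  refine ⟨fun u => F u.1 u.2 + k * u.1, ?_, ?_⟩
  · have h1 : AnalyticOnNhd ℂ (fun u : ℂ × ℂ => F u.1 u.2) S := by
      apply Hol.analyticOnNhd_of_differentiableOn hSo
      exact DifferentiableOn.mono hF1 subset_union_right
    exact h1.add (analyticOnNhd_const.mul analyticOnNhd_fst)
  · rintro ⟨t, w⟩ hu h0
    have := hF2 (t, w) ⟨h0, hu⟩
    simp only [] at this ⊢
    rw [this]
    ring

/-- Hartogs, both sides -/
theorem hart_both {R : ℂ → ℝ} {e₁ c : ℝ} {f : ℂ × ℂ → ℂ} {k : ℂ} (hc : 0 < c)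
    (hR : ∀ w : ℂ, ‖w‖ < e₁ → c ≤ R w) (hop : IsOpen (Dm R e₁)) (hf : AnalyticOnNhd ℂ f (Dm R e₁))
    (hper : ∀ t w : ℂ, (t, w) ∈ Dm R e₁ → f (t + 1, w) = f (t, w) + k) {z : ℂ} {s : ℝ} (hs : 0 < s)
    (hsub : closedBall z s ⊆ ball (0 : ℂ) e₁) {G : ℂ → ℂ} {V : Set ℂ} (hV : IsOpen V)
    (hcV : closedBall z s ⊆ V) (hG : DifferentiableOn ℂ G V)
    (hsp : ∀ w ∈ sphere z s, (G w).re < R w) {y ε : ℝ} (hb : ball z ε ⊆ ball z s)
    (hy : ∀ w ∈ ball z ε, y < (G w).re) :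
    ∃ g : ℂ × ℂ → ℂ, AnalyticOnNhd ℂ g (Str y ×ˢ ball z ε) ∧
      ∀ t w : ℂ, t ∈ Str y → w ∈ ball z ε → |t.im| < R w → g (t, w) = f (t, w) := by
  have hneg : ∀ u ∈ Dm R e₁, (-u.1, u.2) ∈ Dm R e₁ := by
    rintro ⟨t, w⟩ ⟨h1, h2⟩
    refine ⟨?_, h2⟩
    show |(-t).im| < R w
    rw [neg_im, abs_neg]; exact h1
  obtain ⟨g₁, a1, b1⟩ := hart_top hc hR hop hf hper hs hsub hV hcV hG hsp
  obtain ⟨g₂, a2, b2⟩ := hart_top (f := fun u => f (-u.1, u.2)) (k := -k) hc hR hop (by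
    intro u hu
    exact (hf (-u.1, u.2) (hneg u hu)).comp_of_eq (f := fun u : ℂ × ℂ => (-u.1, u.2))
      (analyticAt_fst.neg.prod analyticAt_snd) rfl) (by
    intro t w htw
    have h1 : (-(t + 1), w) ∈ Dm R e₁ := by
      refine ⟨?_, htw.2⟩
      have h2 : |t.im| < R w := htw.1
      show |(-(t + 1)).im| < R w
      simpa using h2
    have h2 := hper (-(t + 1)) w h1
    show f (-(t + 1), w) = f (-t, w) + -k
    rw [show -(t + 1) + 1 = -t by ring] at h2
    rw [h2]; ring) hs hsub hV hcV hG hsp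
  classical
  set g : ℂ × ℂ → ℂ := fun u => if |u.1.im| < R u.2 then f u else
    if 0 < u.1.im then g₁ u else g₂ (-u.1, u.2) with hg
  have e0 : ∀ u : ℂ × ℂ, |u.1.im| < R u.2 → g u = f u := fun u hu => by
    simp only [hg]; rw [if_pos hu]
  have mem : ∀ {w : ℂ}, w ∈ ball z ε → ‖w‖ < e₁ := fun {w} hw => by
    simpa using hsub (ball_subset_closedBall (hb hw))
  have e1 : ∀ u : ℂ × ℂ, u.2 ∈ ball z ε → 0 < u.1.im → g u = g₁ u := fun u hu h0 => by
    by_cases h : |u.1.im| < R u.2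
    · rw [e0 u h, b1 u ⟨h, mem hu⟩ h0]
    · simp only [hg]; rw [if_neg h, if_pos h0]
  have e2 : ∀ u : ℂ × ℂ, u.2 ∈ ball z ε → u.1.im < 0 → g u = g₂ (-u.1, u.2) := fun u hu h0 => by
    by_cases h : |u.1.im| < R u.2
    · rw [e0 u h, b2 (-u.1, u.2) (hneg u ⟨h, mem hu⟩) (by simpa using h0)]
      simp
    · simp only [hg]; rw [if_neg h, if_neg (not_lt.2 h0.le)]
  refine ⟨g, ?_, fun t w _ _ h => e0 (t, w) h⟩
  rintro ⟨t, w⟩ ⟨ht, hw⟩
  have ht' : |t.im| < y := ht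
  have hyw := hy w hw
  have o2 : IsOpen {u : ℂ × ℂ | u.2 ∈ ball z ε} := isOpen_ball.preimage continuous_snd
  rcases lt_trichotomy t.im 0 with h | h | h
  · have h1 : AnalyticAt ℂ (fun u : ℂ × ℂ => g₂ (-u.1, u.2)) (t, w) :=
      (a2 (-t, w) ⟨hb hw, by simpa using h, by
        show (-t).im < (G w).re
        rw [neg_im]
        have := neg_abs_le t.im
        linarith⟩).comp_of_eq (f := fun u : ℂ × ℂ => (-u.1, u.2))
        (analyticAt_fst.neg.prod analyticAt_snd) rfl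
    refine h1.congr ?_
    filter_upwards [(o2.inter (isOpen_lt (Complex.continuous_im.comp continuous_fst)
      continuous_const)).mem_nhds (⟨hw, h⟩ : (t, w) ∈ {u : ℂ × ℂ | u.2 ∈ ball z ε} ∩
      {u : ℂ × ℂ | u.1.im < 0})] with u hu
    exact (e2 u hu.1 hu.2).symm
  · have hm : (t, w) ∈ Dm R e₁ := ⟨by
      show |t.im| < R w
      rw [h, abs_zero]
      linarith [hR w (mem hw)], mem hw⟩
    refine (hf _ hm).congr ?_
    filter_upwards [hop.mem_nhds hm] with u hu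
    exact (e0 u hu.1).symm
  · have h1 : AnalyticAt ℂ g₁ (t, w) := a1 (t, w) ⟨hb hw, h, by
        show t.im < (G w).re
        have := le_abs_self t.im
        linarith⟩
    refine h1.congr ?_
    filter_upwards [(o2.inter (isOpen_lt continuous_const
      (Complex.continuous_im.comp continuous_fst))).mem_nhds (⟨hw, h⟩ :
      (t, w) ∈ {u : ℂ × ℂ | u.2 ∈ ball z ε} ∩ {u : ℂ × ℂ | 0 < u.1.im})] with u hu
    exact (e1 u hu.1 hu.2).symm

section
variable {κ Λ : ℝ} {H Φ : ℂ → ℂ} {r e : ℝ} {α p : ℂ → ℂ → ℂ} {J : ℂ → ℂ} {e₁ B : ℝ}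

/-- **superharmonicity of the first height** -/
theorem Rh_sh (N : Lines κ Λ H Φ r e α p J) (hB : 0 < B) (he0 : 0 < e₁) (he : e₁ ≤ e) {z : ℂ}
    {s : ℝ} (hs : 0 < s) (hsub : closedBall z s ⊆ ball (0 : ℂ) e₁) {G : ℂ → ℂ} {V : Set ℂ}
    (hV : IsOpen V) (hcV : closedBall z s ⊆ V) (hG : DifferentiableOn ℂ G V)
    (hsp : ∀ w ∈ sphere z s, (G w).re < Rh α p r e₁ B w) : (G z).re ≤ Rh α p r e₁ B z := by
  have T := Rd_Rh N hB he0 he
  have hper := T.per N
  set c := min r B with hc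
  have hc0 : 0 < c := lt_min N.hr hB
  have hlow : ∀ w : ℂ, ‖w‖ < e₁ → c ≤ Rh α p r e₁ B w := fun w hw => Rh_low N hB he hw
  -- `Re G z < B`
  have hGB : (G z).re ≤ B := by
    have hcont : ContinuousOn (fun w => exp (G w)) (closedBall z s) :=
      (hG.continuousOn.mono hcV).cexp
    have hd : DiffContOnCl ℂ (fun w => exp (G w)) (ball z s) := by
      refine ⟨(hG.mono (ball_subset_closedBall.trans hcV)).cexp, ?_⟩
      rw [closure_ball z hs.ne']
      exact hcont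
    have h1 : ‖exp (G z)‖ ≤ Real.exp B := by
      refine Complex.norm_le_of_forall_mem_frontier_norm_le isBounded_ball hd (fun w hw => ?_)
        (subset_closure (mem_ball_self hs))
      rw [frontier_ball z hs.ne'] at hw
      rw [norm_exp]
      exact Real.exp_le_exp.2 ((hsp w hw).le.trans (Rh_le hB w))
    rw [norm_exp] at h1
    exact Real.exp_le_exp.1 h1
  refine le_of_forall_lt fun y hy => ?_
  obtain ⟨y', hy1, hy2⟩ := exists_between hy
  have hGc : ContinuousAt G z := (hG.differentiableAt (hV.mem_nhds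
    (hcV (mem_closedBall_self hs.le)))).continuousAt
  have h2 : ∀ᶠ w in 𝓝 z, y' < (G w).re :=
    (Complex.continuous_re.continuousAt.comp hGc).eventually (lt_mem_nhds hy2)
  obtain ⟨ε, hε, hεs⟩ := Metric.eventually_nhds_iff_ball.1 h2
  set ε' := min ε s with hε'
  have hε'0 : 0 < ε' := lt_min hε hs
  have hb : ball z ε' ⊆ ball z s := ball_subset_ball (min_le_right _ _)
  have hy3 : ∀ w ∈ ball z ε', y' < (G w).re := fun w hw =>
    hεs w (ball_subset_ball (min_le_left _ _) hw)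
  obtain ⟨A₂, a1, a2⟩ := hart_both hc0 hlow T.op T.aA (fun t w h => (hper t w h).1) hs hsub hV hcV
    hG hsp hb hy3
  obtain ⟨P₂, b1, b2⟩ := hart_both (k := 0) hc0 hlow T.op T.aP
    (fun t w h => by rw [(hper t w h).2, add_zero]) hs hsub hV hcV hG hsp hb hy3
  have h4 := Rh_max N hB he (w := z) (b' := y') ⟨ε', hε'0,
    (hb.trans ball_subset_closedBall).trans hsub, A₂, P₂, a1, b1,
    fun t w ht hw h => ⟨a2 t w ht hw h, b2 t w ht hw h⟩⟩
  have h5 : min y' B = y' := min_eq_left (by linarith)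
  rw [h5] at h4
  linarith

/-- **the first height satisfies the hypotheses of the cone theorem (helper222)** -/
theorem supB_Rh (N : Lines κ Λ H Φ r e α p J) (hB : 0 < B) (he0 : 0 < e₁) (he : e₁ ≤ e) :
    H222.SupB (Rh α p r e₁ B) e₁ B := by
  refine ⟨lsc_Rh hB N.hr fun w hw => Rh_pos N hB he hw, fun z hz => ?_, fun z hz => ?_, ?_⟩
  · rw [abs_of_nonneg (Rh_nonneg z)]
    exact Rh_le hB z
  · exact Rh_conj N he z
  · intro z s hs hsub G V hV hcV hG hsp
    exact Rh_sh N hB he0 he hs hsub hV hcV hG hsp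

end

/-- the extension at the label `0` from the curve -/
theorem ExS_zero {κ Λ b : ℝ} {H Φ : ℂ → ℂ} {r e : ℝ} {α p : ℂ → ℂ → ℂ} {J F q : ℂ → ℂ}
    (hE : En κ Λ b H Φ r e α p J F q) {e₁ : ℝ} (he0 : 0 < e₁) {y : ℝ} (hy : y < b) :
    ExS α p r e₁ 0 y := by
  have N : Lines κ Λ H Φ r e α p J := hE.ctx.ln
  have hb := hE.b0
  -- reduction to `0 < y`
  suffices h : ∀ y : ℝ, 0 < y → y < b → ExS α p r e₁ 0 y from
    (h (max y (b / 2)) (lt_max_of_lt_right (by linarith)) (max_lt hy (by linarith))).anti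
      (le_max_left _ _)
  clear hy y
  intro y hy0 hy
  set b' := (y + b) / 2 with hb'
  have h1 : y < b' := by rw [hb']; linarith
  have h2 : b' < b := by rw [hb']; linarith
  set ρ := min (b - b') (1 / 4) with hρ
  have hρ0 : 0 < ρ := lt_min (by linarith) (by norm_num)
  have hsub : Str b' ∪ ball (((0 : ℝ) : ℂ) + b' * I) ρ ⊆ Str b := by
    rintro z (hz | hz)
    · exact Str_mono h2.le hz
    · rw [mem_ball, dist_eq_norm] at hz
      have h3 := Complex.abs_im_le_norm (z - (((0 : ℝ) : ℂ) + b' * I))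
      have h4 : (z - (((0 : ℝ) : ℂ) + b' * I)).im = z.im - b' := by simp
      rw [h4] at h3
      have h5 : ρ ≤ b - b' := min_le_left _ _
      have h6 := abs_le.1 (h3.trans hz.le)
      have h7 : |z.im - b'| < ρ := lt_of_le_of_lt h3 hz
      have h8 := abs_lt.1 h7
      show |z.im| < b
      rw [abs_lt]
      constructor <;> linarith [h8.1, h8.2]
  obtain ⟨αh, ph, k1, k2, -⟩ := SC.secE hE.ctx (a := 0) (b := b') (ρ := ρ) (Φb := F) (qb := q)
    (by linarith) hρ0 (min_le_right _ _) (hE.dF.mono hsub) (hE.dq.mono hsub) hE.re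
  obtain ⟨r₁, hr₁, k3, k4⟩ := k1 (b' - y) (by linarith) (by linarith)
  have hOm : Str y ⊆ Om 0 b' (ρ / 2) (b' - y) := by
    intro z hz
    left
    show |z.im| < b' - (b' - y)
    have : |z.im| < y := hz
    linarith
  set ε := min (min r₁ e₁) e with hε
  have hε0 : 0 < ε := lt_min (lt_min hr₁ he0) N.he
  have hε1 : ε ≤ r₁ := (min_le_left _ _).trans (min_le_left _ _)
  have hε2 : ε ≤ e₁ := (min_le_left _ _).trans (min_le_right _ _)
  have hε3 : ε ≤ e := min_le_right _ _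
  have key : ∀ {f : ℂ → ℂ → ℂ} {g : ℂ × ℂ → ℂ}, JD f (WW 0 r e) →
      AnalyticOnNhd ℂ g (Om 0 b' (ρ / 2) (b' - y) ×ˢ ball 0 r₁) →
      (g =ᶠ[𝓝 ((0 : ℂ), (0 : ℂ))] fun u => f u.1 u.2) → Ex1 f r y ε 0 g := by
    intro f g hf hg h
    refine ⟨fun u hu => hg u ⟨hOm hu.1, ball_subset_ball hε1 hu.2⟩, fun t v ht htr hv => ?_⟩
    set m := min y r with hm
    have hm0 : 0 < m := lt_min hy0 N.hr
    have c1 : AnalyticOnNhd ℂ g (Str m ×ˢ ball 0 ε) := fun u hu =>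
      hg u ⟨hOm (Str_mono (min_le_left _ _) hu.1), ball_subset_ball hε1 hu.2⟩
    have c2 : AnalyticOnNhd ℂ (fun u : ℂ × ℂ => f u.1 u.2) (Str m ×ˢ ball 0 ε) := fun u hu =>
      (Ex1_self (w := 0) (ε := ε) N.hr hf hε3 subset_rfl).an u
        ⟨Str_mono (min_le_right _ _) hu.1, hu.2⟩
    have hpc : IsPreconnected (Str m ×ˢ ball (0 : ℂ) ε) :=
      ((convex_Str m).prod (convex_ball _ _)).isPreconnected
    exact c1.eqOn_of_preconnected_of_eventuallyEq c2 hpc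
      ⟨by simpa using real_mem_Str hm0 0, mem_ball_self hε0⟩ h
      (show (t, v) ∈ Str m ×ˢ ball (0 : ℂ) ε from ⟨show |t.im| < m from lt_min ht htr, hv⟩)
  have k5 := k2 0
  rw [ofReal_zero] at k5
  exact ⟨ε, hε0, ball_subset_ball hε2, αh, ph, key N.jα k3 k5.1, key N.jp k4 k5.2⟩

/-- no extension at the label `0` beyond the natural boundary -/
theorem not_ExS_zero {κ Λ b : ℝ} {H Φ : ℂ → ℂ} {r e : ℝ} {α p : ℂ → ℂ → ℂ} {J F q : ℂ → ℂ}
    (hE : En κ Λ b H Φ r e α p J F q) {e₁ : ℝ} {y : ℝ} (hy : b < y) : ¬ ExS α p r e₁ 0 y := by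
  rintro ⟨ε, hε, hs, A₂, P₂, h1, h2⟩
  have N : Lines κ Λ H Φ r e α p J := hE.ctx.ln
  have hb := hE.b0
  apply hE.nat
  have h0 : (0 : ℂ) ∈ ball (0 : ℂ) ε := mem_ball_self hε
  have a1 : AnalyticOnNhd ℂ (fun t => A₂ (t, 0)) (Str y) := slice_an h1.an h0
  have a2 : AnalyticOnNhd ℂ (fun t => P₂ (t, 0)) (Str y) := slice_an h2.an h0
  have e1 : ∀ z ∈ Str b, A₂ (z, 0) = F z := fun z hz =>
    H710.str_eq hb (f := fun t => A₂ (t, 0)) ((a1.mono (Str_mono hy.le)).differentiableOn) hE.dF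
      (fun x => by
        show A₂ ((x : ℂ), 0) = F x
        rw [h1.eq x 0 (real_mem_Str (hb.trans hy) x) (real_mem_Str N.hr x) h0,
          N.αzero x (real_mem_Str N.hr x), (hE.re x).1]) hz
  have e2 : ∀ z ∈ Str b, P₂ (z, 0) = q z := fun z hz =>
    H710.str_eq hb (f := fun t => P₂ (t, 0)) ((a2.mono (Str_mono hy.le)).differentiableOn) hE.dq
      (fun x => by
        show P₂ ((x : ℂ), 0) = q x
        rw [h2.eq x 0 (real_mem_Str (hb.trans hy) x) (real_mem_Str N.hr x) h0,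
          N.pzero x (real_mem_Str N.hr x), (hE.re x).2]) hz
  set ρ := min (y - b) b with hρ
  have hρ0 : 0 < ρ := lt_min (by linarith) hb
  have hball : ∀ z ∈ ball (((0 : ℝ) : ℂ) + b * I) ρ, 0 < z.im ∧ z.im < y := by
    intro z hz
    rw [mem_ball, dist_eq_norm] at hz
    have h3 := Complex.abs_im_le_norm (z - (((0 : ℝ) : ℂ) + b * I))
    have h4 : (z - (((0 : ℝ) : ℂ) + b * I)).im = z.im - b := by simp
    rw [h4] at h3
    have h7 := abs_lt.1 (lt_of_le_of_lt h3 hz)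
    have h5 : ρ ≤ y - b := min_le_left _ _
    have h6 : ρ ≤ b := min_le_right _ _
    constructor <;> linarith [h7.1, h7.2]
  have hin : ∀ z ∈ ball (((0 : ℝ) : ℂ) + b * I) ρ, z ∈ Str y := fun z hz => by
    show |z.im| < y
    rw [abs_of_pos (hball z hz).1]
    exact (hball z hz).2
  refine ⟨0, ρ, fun z => exp (I * A₂ (z, 0)), fun z => P₂ (z, 0), hρ0, ?_, ?_, ?_⟩
  · intro z hz
    exact ((analyticAt_const.mul (a1 z (hin z hz))).cexp).meromorphicAt
  · intro z hz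
    exact (a2 z (hin z hz)).meromorphicAt
  · intro z hz hzb
    have h3 : z ∈ Str b := by
      show |z.im| < b
      rw [abs_of_pos (hball z hz).1]
      exact hzb
    simp only []
    rw [e1 z h3, e2 z h3]
    exact ⟨rfl, rfl⟩

/-- **the first height at the label `0`** -/
theorem Rh_zero {κ Λ b : ℝ} {H Φ : ℂ → ℂ} {r e : ℝ} {α p : ℂ → ℂ → ℂ} {J F q : ℂ → ℂ}
    (hE : En κ Λ b H Φ r e α p J F q) {e₁ B : ℝ} (he0 : 0 < e₁) (hB : 0 < B) :
    Rh α p r e₁ B 0 = min b B := by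
  apply le_antisymm
  · refine le_min ?_ (Rh_le hB 0)
    by_contra h
    push Not at h
    obtain ⟨y, h1, -, h3⟩ := exists_of_lt hE.b0.le h
    exact not_ExS_zero hE h1 h3
  · refine le_of_forall_lt fun y hy => ?_
    obtain ⟨y', h1, h2⟩ := exists_between hy
    refine lt_of_lt_of_le h1 (le_Rh (h2.trans_le (min_le_right _ _)).le (ExS_zero hE he0 ?_))
    exact h2.trans_le (min_le_left _ _)

/-- **Row R0.3**: the first height of case [c] -/
theorem rowHeight {κ Λ b : ℝ} {H Φ : ℂ → ℂ} {r e : ℝ} {α p : ℂ → ℂ → ℂ} {J F q : ℂ → ℂ}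
    (hE : En κ Λ b H Φ r e α p J F q) {B e₁ : ℝ} (hB : 0 < B) (he0 : 0 < e₁) (he : e₁ ≤ e) :
    ∃ (R : ℂ → ℝ) (A P : ℂ × ℂ → ℂ), Rd α p R e₁ A P ∧
      (∀ w : ℂ, ‖w‖ < e₁ → min r B ≤ R w) ∧ (∀ w, R w ≤ B) ∧
      (∀ w, R (-w) = R w) ∧ (∀ w, R (conj w) = R w) ∧
      (∀ t w : ℂ, |t.im| < R w → ‖w‖ < e₁ → A (t, -w) = A (t, w) ∧ P (t, -w) = P (t, w)) ∧
      (∀ t w : ℂ, |t.im| < R w → ‖w‖ < e₁ → conj (A (conj t, conj w)) = A (t, w) ∧
        conj (P (conj t, conj w)) = P (t, w)) ∧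
      (∀ t w : ℂ, |t.im| < R w → ‖w‖ < e₁ → A (t + 1, w) = A (t, w) + 2 * Real.pi ∧
        P (t + 1, w) = P (t, w)) ∧
      (∀ t w : ℂ, |t.im| < r → ‖w‖ < e₁ → A (t, w) = α t w ∧ P (t, w) = p t w) ∧
      (∀ (w : ℂ) (b' : ℝ), ExtL R e₁ A P w b' → min b' B ≤ R w) ∧
      H222.SupB R e₁ B ∧ R 0 = min b B := by
  have N : Lines κ Λ H Φ r e α p J := hE.ctx.ln
  have T := Rd_Rh N hB he0 he
  refine ⟨Rh α p r e₁ B, gl α r e₁, gl p r e₁, T, fun w hw => Rh_low N hB he hw, Rh_le hB,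
    Rh_neg N he, Rh_conj N he, fun t w ht hw => gl_neg N hB he0 he ht hw,
    fun t w ht hw => T.conj N (Rh_conj N he) t w ⟨ht, hw⟩,
    fun t w ht hw => T.per N t w ⟨ht, hw⟩, fun t w ht hw => gl_self N he ht hw,
    fun w b' h => Rh_max N hB he h, supB_Rh N hB he0 he, Rh_zero hE he0 hB⟩

end Vale.Agent.P097.CC
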