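import Vale.Agent.P097.H286.C.RowB
import Vale.Agent.P097.H286.C.Height2
import Vale.Agent.P097.H456.C.WholeLine
import Vale.Agent.P097.H456.C.Tr

/-!
# P097 / case [c] / R0: the base (everything on positions and first height in one structure)
-/

set_option linter.all false

open Complex Metric Filter Topology Set
open scoped ComplexConjugate

namespace Vale.Agent.P097.CC

open Vale.Agent.P097 Vale.Agent.P097.TA Vale.Agent.P097.H202 Vale.Agent.P097.SC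
open Vale.Agent.P097.H456.Fct Vale.Agent.P097.H456.Sp Vale.Agent.P097.H456.C
open Vale.Agent.P097.H543

section
variable {b : ℝ} {F q : ℂ → ℂ} {R : ℂ → ℝ} {e₁ : ℝ} {A P θ : ℂ × ℂ → ℂ}

/-- upper bound of the height by the mean of `θ (t, w) - t` -/
theorem R_le_of_pos (T : PoC b F q R e₁ A P θ) (hb : 0 < b) {w : ℂ} (hw : ‖w‖ < e₁)
    (hR : |w.im| / 2 < R w) {δ : ℝ} (hδ : 0 ≤ δ) (h : ∀ x : ℝ, |(θ ((x : ℂ), w)).im| ≤ δ) :
    R w - |w.im| / 2 ≤ b + δ := by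
  by_contra hcon
  push Not at hcon
  obtain ⟨y, hy1, hy2⟩ := exists_between hcon
  have hy0 : 0 < y := by linarith
  set g : ℂ → ℂ := fun z => θ (z, w) - z with hg
  have hmem : ∀ z : ℂ, z.im ∈ uIcc 0 y → (z, w) ∈ Pd R e₁ := by
    intro z hz
    rw [uIcc_of_le hy0.le] at hz
    refine ⟨?_, hw⟩
    show |z.im| + |w.im| / 2 < R w
    rw [abs_of_nonneg hz.1]
    linarith [hz.2]
  have hgd : DifferentiableOn ℂ g {z | z.im ∈ uIcc 0 y} := by
    intro z hz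
    have h1 : AnalyticAt ℂ (fun t => θ (t, w)) z :=
      (T.an (z, w) (hmem z hz)).comp_of_eq (f := fun t : ℂ => (t, w))
        (analyticAt_id.prod analyticAt_const) rfl
    exact (h1.differentiableAt.sub differentiableAt_id).differentiableWithinAt
  have hgp : ∀ z : ℂ, z.im ∈ uIcc 0 y → g (z + 1) = g z := by
    intro z hz
    simp only [hg]
    rw [T.per z w (hmem z hz)]
    ring
  have h1 := integral_line_eq hgd hgp 0
  have hc : ∀ s ∈ uIcc 0 y, Continuous fun x : ℝ => g ((x : ℂ) + (s : ℝ) * I) := by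
    intro s hs
    have h2 : ContinuousOn g {z | z.im ∈ uIcc 0 y} := hgd.continuousOn
    refine h2.comp_continuous (by fun_prop) fun x => ?_
    have : ((x : ℂ) + (s : ℝ) * I).im = s := by simp
    show ((x : ℂ) + (s : ℝ) * I).im ∈ uIcc 0 y
    rw [this]; exact hs
  have him : ∀ s ∈ uIcc 0 y, (∫ x in (0 : ℝ)..0 + 1, g ((x : ℂ) + (s : ℝ) * I)).im =
      ∫ x in (0 : ℝ)..0 + 1, (g ((x : ℂ) + (s : ℝ) * I)).im := by
    intro s hs
    have h3 := Complex.imCLM.intervalIntegral_comp_comm (μ := MeasureTheory.volume)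
      ((hc s hs).intervalIntegrable 0 (0 + 1))
    simpa using h3.symm
  have h4 : (∫ x in (0 : ℝ)..0 + 1, (g ((x : ℂ) + ((0 : ℝ) : ℝ) * I)).im) =
      ∫ x in (0 : ℝ)..0 + 1, (g ((x : ℂ) + (y : ℝ) * I)).im := by
    rw [← him 0 left_mem_uIcc, ← him y right_mem_uIcc, h1]
  have h5 : ∫ x in (0 : ℝ)..0 + 1, (g ((x : ℂ) + (y : ℝ) * I)).im ≤
      ∫ x in (0 : ℝ)..0 + 1, (b - y) := by
    apply intervalIntegral.integral_mono_on (by norm_num)
      ((Complex.continuous_im.comp (hc y right_mem_uIcc)).intervalIntegrable _ _)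
      (continuous_const.intervalIntegrable _ _)
    intro x _
    have h6 := T.mem ((x : ℂ) + y * I, w) (hmem _ (by
      have : ((x : ℂ) + y * I).im = y := by simp
      rw [this]; exact right_mem_uIcc))
    have h7 : |(θ ((x : ℂ) + y * I, w)).im| < b := h6
    show (θ ((x : ℂ) + y * I, w) - ((x : ℂ) + y * I)).im ≤ b - y
    have h8 : ((x : ℂ) + y * I).im = y := by simp
    rw [sub_im, h8]
    linarith [(abs_lt.1 h7).2]
  have h6 : ∫ x in (0 : ℝ)..0 + 1, (-δ) ≤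
      ∫ x in (0 : ℝ)..0 + 1, (g ((x : ℂ) + ((0 : ℝ) : ℝ) * I)).im := by
    apply intervalIntegral.integral_mono_on (by norm_num)
      (continuous_const.intervalIntegrable _ _)
      ((Complex.continuous_im.comp (hc 0 left_mem_uIcc)).intervalIntegrable _ _)
    intro x _
    have h7 := (abs_le.1 (h x)).1
    show -δ ≤ (θ ((x : ℂ) + ((0 : ℝ) : ℝ) * I, w) - ((x : ℂ) + ((0 : ℝ) : ℝ) * I)).im
    have h8 : ((x : ℂ) + ((0 : ℝ) : ℝ) * I) = x := by simp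
    rw [h8, sub_im, ofReal_im]
    linarith
  rw [intervalIntegral.integral_const] at h5 h6
  simp only [zero_add, sub_zero, one_smul] at h5 h6 h4
  linarith

/-- on the real labels the height is at most `b` -/
theorem R_le_b (T : PoC b F q R e₁ A P θ) (hb : 0 < b) {u : ℝ} (hu : |u| < e₁) (hR : 0 < R u) :
    R u ≤ b := by
  have hw : ‖(u : ℂ)‖ < e₁ := by rw [norm_real, Real.norm_eq_abs]; exact hu
  have h1 := R_le_of_pos T hb hw (by rw [ofReal_im, abs_zero, zero_div]; exact hR) le_rfl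
    (fun x => by
      have h2 : ((x : ℂ), (u : ℂ)) ∈ Pd R e₁ := ⟨by
        show |(x : ℂ).im| + |(u : ℂ).im| / 2 < R u
        rw [ofReal_im, ofReal_im, abs_zero, zero_div, add_zero]; exact hR, hw⟩
      have h3 := T.cj x u h2
      rw [Complex.conj_ofReal, Complex.conj_ofReal] at h3
      rw [Complex.conj_eq_iff_im.1 h3.symm, abs_zero])
  rw [ofReal_im, abs_zero, zero_div, sub_zero, add_zero] at h1
  exact h1

/-- near the label `0` the height is at most `b + δ` -/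
theorem R_le_near (T : PoC b F q R e₁ A P θ) (hb : 0 < b) (he : 0 < e₁) {c : ℝ} (hc : 0 < c)
    (hR : ∀ w : ℂ, ‖w‖ < e₁ → c ≤ R w) {δ : ℝ} (hδ : 0 < δ) :
    ∃ e₂ > 0, e₂ ≤ e₁ ∧ ∀ w : ℂ, ‖w‖ < e₂ → R w ≤ b + δ := by
  -- a neighbourhood of `[0, 1] × {0}` on which `|Im θ| < δ / 2`
  have hm : ∀ x : ℝ, ((x : ℂ), (0 : ℂ)) ∈ Pd R e₁ := fun x => ⟨by
    show |(x : ℂ).im| + |(0 : ℂ).im| / 2 < R 0
    rw [ofReal_im, zero_im, abs_zero, zero_div, add_zero]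
    exact lt_of_lt_of_le hc (hR 0 (by simpa using he)), by simpa using he⟩
  have h1 : ∀ x : ℝ, ∀ᶠ z in 𝓝 ((x : ℂ), (0 : ℂ)), |(θ z).im| < δ / 2 := by
    intro x
    have h2 : ContinuousAt (fun z => |(θ z).im|) ((x : ℂ), (0 : ℂ)) :=
      (Complex.continuous_im.continuousAt.comp (T.an _ (hm x)).continuousAt).abs
    have h3 : |(θ ((x : ℂ), (0 : ℂ))).im| < δ / 2 := by
      rw [T.z x (hm x), ofReal_im, abs_zero]
      linarith
    exact h2.eventually (gt_mem_nhds h3)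
  have h2 : ∀ x : ℝ, ∃ ε > 0, ∀ x' : ℝ, |x' - x| < ε → ∀ w : ℂ, ‖w‖ < ε →
      |(θ ((x' : ℂ), w)).im| < δ / 2 := by
    intro x
    obtain ⟨ε, hε, h3⟩ := Metric.eventually_nhds_iff_ball.1 (h1 x)
    refine ⟨ε, hε, fun x' hx' w hw => h3 _ ?_⟩
    rw [mem_ball, Prod.dist_eq, max_lt_iff]
    constructor
    · rw [dist_eq_norm, ← ofReal_sub, norm_real, Real.norm_eq_abs]; exact hx'
    · simpa using hw
  choose ε hε h3 using h2
  obtain ⟨t, ht⟩ := (isCompact_Icc (a := (0 : ℝ)) (b := 1)).elim_nhds_subcover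
    (fun x => ball x (ε x)) (fun x _ => ball_mem_nhds x (hε x))
  obtain ⟨ht1, ht2⟩ := ht
  obtain ⟨ε₀, hε₀, hε₁⟩ : ∃ ε₀ > 0, ∀ x ∈ t, ε₀ ≤ ε x := by
    rcases t.eq_empty_or_nonempty with h | h
    · exact ⟨1, one_pos, fun x hx => by rw [h] at hx; simp at hx⟩
    · obtain ⟨x, hx, hx2⟩ := t.exists_min_image ε h
      exact ⟨ε x, hε x, fun y hy => hx2 y hy⟩
  have h4 : ∀ w : ℂ, ‖w‖ < ε₀ → ∀ x ∈ Icc (0 : ℝ) 1, |(θ ((x : ℂ), w)).im| < δ / 2 := by
    intro w hw x hx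
    obtain ⟨x', hx', hx2⟩ := mem_iUnion₂.1 (ht2 hx)
    refine h3 x' x ?_ w (lt_of_lt_of_le hw (hε₁ x' hx'))
    rw [← Real.dist_eq]; exact hx2
  set e₂ := min (min ε₀ e₁) (min (δ / 2) c) with he₂
  have k1 : e₂ ≤ ε₀ := (min_le_left _ _).trans (min_le_left _ _)
  have k2 : e₂ ≤ e₁ := (min_le_left _ _).trans (min_le_right _ _)
  have k3 : e₂ ≤ δ / 2 := (min_le_right _ _).trans (min_le_left _ _)
  have k4 : e₂ ≤ c := (min_le_right _ _).trans (min_le_right _ _)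
  refine ⟨e₂, lt_min (lt_min hε₀ he) (lt_min (by linarith) hc), k2, fun w hw => ?_⟩
  have hw1 : ‖w‖ < e₁ := lt_of_lt_of_le hw k2
  have him := Complex.abs_im_le_norm w
  have hw2 : |w.im| / 2 < R w := by
    have := hR w hw1
    have := abs_nonneg w.im
    linarith
  have hmw : ∀ z : ℂ, z.im = 0 → (z, w) ∈ Pd R e₁ := fun z hz => ⟨by
    show |z.im| + |w.im| / 2 < R w
    rw [hz, abs_zero, zero_add]; exact hw2, hw1⟩
  -- all real `x` by periodicity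
  have h5 : ∀ x : ℝ, |(θ ((x : ℂ), w)).im| ≤ δ / 2 := by
    intro x
    have h6 : ∀ (n : ℕ) (x : ℝ), (θ (((x + n : ℝ) : ℂ), w)).im = (θ ((x : ℂ), w)).im := by
      intro n
      induction n with
      | zero => intro x; simp
      | succ n ih =>
        intro x
        have h7 := T.per ((x + n : ℝ) : ℂ) w (hmw _ (ofReal_im _))
        have h8 : (((x + (n + 1 : ℕ) : ℝ)) : ℂ) = ((x + n : ℝ) : ℂ) + 1 := by push_cast; ring
        rw [h8, h7, add_im, one_im, add_zero, ih]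
    have h9 : (θ ((x : ℂ), w)).im = (θ (((Int.fract x : ℝ) : ℂ), w)).im := by
      rcases le_total 0 ⌊x⌋ with h | h
      · obtain ⟨n, hn⟩ := Int.eq_ofNat_of_zero_le h
        have h10 := h6 n (Int.fract x)
        have h11 : Int.fract x + n = x := by
          have := Int.fract_add_floor x
          rw [hn] at this
          simpa using this
        rw [h11] at h10
        exact h10
      · obtain ⟨n, hn⟩ := Int.eq_ofNat_of_zero_le (neg_nonneg.2 h)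
        have h10 := h6 n x
        have h11 : x + n = Int.fract x := by
          have h12 : (n : ℝ) = -(⌊x⌋ : ℝ) := by
            have : ((n : ℤ) : ℝ) = ((-⌊x⌋ : ℤ) : ℝ) := by rw [hn]
            push_cast at this
            exact this
          rw [h12, Int.fract]; ring
        rw [h11] at h10
        exact h10.symm
    rw [h9]
    exact (h4 w (lt_of_lt_of_le hw k1) _ ⟨Int.fract_nonneg x, (Int.fract_lt_one x).le⟩).le
  have h6 := R_le_of_pos T hb hw1 hw2 (by linarith) h5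
  linarith

end

theorem Rh_mono {α p : ℂ → ℂ → ℂ} {r e₁ e₂ B : ℝ} (hB : 0 < B) (h : e₂ ≤ e₁) (w : ℂ) :
    Rh α p r e₂ B w ≤ Rh α p r e₁ B w := by
  by_cases hne : {y | 0 < y ∧ y ≤ B ∧ ExS α p r e₂ w y}.Nonempty
  · refine csSup_le hne fun y hy => le_Rh hy.2.1 ?_
    obtain ⟨ε, hε, hs, A₂, P₂, h1, h2⟩ := hy.2.2
    exact ⟨ε, hε, hs.trans (ball_subset_ball h), A₂, P₂, h1, h2⟩
  · rw [Rh, not_nonempty_iff_eq_empty.1 hne, Real.sSup_empty]
    exact Rh_nonneg w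

/-- **the base of case [c]**: everything of block R0 -/
structure Base (κ Λ b : ℝ) (H Φ : ℂ → ℂ) (r e : ℝ) (α p : ℂ → ℂ → ℂ) (J F q Q : ℂ → ℂ) (e₁ c : ℝ)
    (R : ℂ → ℝ) (A P θ : ℂ × ℂ → ℂ) : Prop where
  en : En κ Λ b H Φ r e α p J F q
  bs : Bs Λ b F q Q
  ee : e₁ ≤ e
  ec : e₁ ≤ c
  rd : Rd α p R e₁ A P
  pc : PoC b F q R e₁ A P θ
  low : ∀ w : ℂ, ‖w‖ < e₁ → c ≤ R w
  sb : H222.SupB R e₁ (b + 1)
  Rn : ∀ w, R (-w) = R w
  Rc : ∀ w, R (conj w) = R w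
  Rb : ∀ u : ℝ, |u| < e₁ → R u ≤ b
  RB : ∀ w, R w ≤ b + 1 / 2
  R0 : R 0 = b
  ev : ∀ t w : ℂ, |t.im| < R w → ‖w‖ < e₁ → A (t, -w) = A (t, w) ∧ P (t, -w) = P (t, w)
  cj : ∀ t w : ℂ, |t.im| < R w → ‖w‖ < e₁ → conj (A (conj t, conj w)) = A (t, w) ∧
    conj (P (conj t, conj w)) = P (t, w)
  per : ∀ t w : ℂ, |t.im| < R w → ‖w‖ < e₁ → A (t + 1, w) = A (t, w) + 2 * Real.pi ∧
    P (t + 1, w) = P (t, w)
  mx : ∀ (w : ℂ) (b' : ℝ), ExtL R e₁ A P w b' → b' ≤ R w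
  nj : ∀ u : ℝ, Irrational u → |u| < e₁ → ∀ x : ℝ, ¬ JR R e₁ A P ((x : ℂ) + R u * I, (u : ℂ))

/-- **R0**: existence of the base, for all small `e₁` -/
theorem exists_base {κ Λ b : ℝ} {H Φ : ℂ → ℂ} {r e : ℝ} {α p : ℂ → ℂ → ℂ} {J F q : ℂ → ℂ}
    (hE : En κ Λ b H Φ r e α p J F q) :
    ∃ (Q : ℂ → ℂ) (e₀ c : ℝ), 0 < e₀ ∧ 0 < c ∧ ∀ e₁, 0 < e₁ → e₁ ≤ e₀ →
      ∃ (R : ℂ → ℝ) (A P θ : ℂ × ℂ → ℂ), Base κ Λ b H Φ r e α p J F q Q e₁ c R A P θ := by
  have N : Lines κ Λ H Φ r e α p J := hE.ctx.ln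
  have hb := hE.b0
  obtain ⟨Q, hB⟩ := rowB hE
  obtain ⟨e₀, he₀, he₀e, hpo⟩ := exists_poC hE hB
  obtain ⟨e₀', he₀', hwl⟩ := whole_line' hE hB
  have hBb : 0 < b + 1 := by linarith
  set c := min r (b + 1) with hc
  have hc0 : 0 < c := lt_min N.hr hBb
  -- first choice of the radius
  have T₀ := Rd_Rh N hBb he₀ he₀e
  obtain ⟨θ₀, hθ₀⟩ := hpo T₀ le_rfl (Rh_conj N he₀e) (Rh_neg N he₀e)
  obtain ⟨e₂, he₂, he₂0, hR₂⟩ := R_le_near hθ₀ hb he₀ hc0
    (fun w hw => Rh_low N hBb he₀e hw) (δ := 1 / 2) (by norm_num)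
  refine ⟨Q, min (min e₂ e₀') c, c, lt_min (lt_min he₂ he₀') hc0, hc0, ?_⟩
  intro e₁ he₁ hle
  have k1 : e₁ ≤ e₂ := hle.trans ((min_le_left _ _).trans (min_le_left _ _))
  have k2 : e₁ ≤ e₀' := hle.trans ((min_le_left _ _).trans (min_le_right _ _))
  have k3 : e₁ ≤ c := hle.trans (min_le_right _ _)
  have k4 : e₁ ≤ e₀ := k1.trans he₂0
  have k5 : e₁ ≤ e := k4.trans he₀e
  have T := Rd_Rh N hBb he₁ k5
  obtain ⟨θ, hθ⟩ := hpo T k4 (Rh_conj N k5) (Rh_neg N k5)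
  have hRB : ∀ w, Rh α p r e₁ (b + 1) w ≤ b + 1 / 2 := by
    intro w
    rcases lt_or_ge ‖w‖ e₁ with h | h
    · exact (Rh_mono hBb k4 w).trans (hR₂ w (lt_of_lt_of_le h k1))
    · have h1 : Rh α p r e₁ (b + 1) w = 0 := by
        rw [Rh]
        have : {y | 0 < y ∧ y ≤ b + 1 ∧ ExS α p r e₁ w y} = ∅ := by
          rw [eq_empty_iff_forall_notMem]
          rintro y ⟨-, -, ε, hε, hs, -⟩
          have h2 : w ∈ ball (0 : ℂ) e₁ := hs (mem_ball_self hε)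
          rw [mem_ball_zero_iff] at h2
          exact absurd h2 (not_lt.2 h)
        rw [this, Real.sSup_empty]
      rw [h1]; linarith
  have hmx : ∀ (w : ℂ) (b' : ℝ), ExtL (Rh α p r e₁ (b + 1)) e₁ (gl α r e₁) (gl p r e₁) w b' →
      b' ≤ Rh α p r e₁ (b + 1) w := by
    intro w b' h
    have h1 := Rh_max N hBb k5 h
    rcases min_le_iff.1 h1 with h2 | h2
    · exact h2
    · have := hRB w
      linarith
  refine ⟨Rh α p r e₁ (b + 1), gl α r e₁, gl p r e₁, θ, hE, hB, k5, k3, T, hθ,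
    fun w hw => Rh_low N hBb k5 hw, supB_Rh N hBb he₁ k5, Rh_neg N k5, Rh_conj N k5, ?_, hRB, ?_,
    fun t w ht hw => gl_neg N hBb he₁ k5 ht hw,
    fun t w ht hw => T.conj N (Rh_conj N k5) t w ⟨ht, hw⟩,
    fun t w ht hw => T.per N t w ⟨ht, hw⟩, hmx, ?_⟩
  · intro u hu
    exact R_le_b hθ hb hu (T.R0 u (by rw [norm_real, Real.norm_eq_abs]; exact hu))
  · rw [Rh_zero hE he₁ hBb]
    exact min_eq_left (by linarith)
  · intro u hu hue x hJR
    obtain ⟨b', hb', hext⟩ := hwl T k2 (Rh_conj N k5) hu hue hJR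
    exact absurd (hmx u b' hext) (not_le.2 hb')

end Vale.Agent.P097.CC
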