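import Vale.Agent.P097.H286.Dev1

/-! # P097 (helper286) / case [c], row R0: continuation of a position with target a strip

`coreD` : open preconnected domain, `F' ≠ 0`, data `q = G ∘ F` near one point: `F` stays in the
strip, since the boundary of the strip is natural for `G`. -/

set_option linter.all false
set_option autoImplicit false

open Set Filter Metric Topology

namespace Vale.Agent.P097.H286

variable {ι : Type*}

theorem coreD {G : ι → ℂ → ℂ} {H : ℝ} (hB : Base H G) {D : Set ℂ} (hD : IsOpen D)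
    (hDp : IsPreconnected D) {F : ℂ → ℂ} (hF : DifferentiableOn ℂ F D)
    (hF' : ∀ τ ∈ D, deriv F τ ≠ 0) {q : ι → ℂ → ℂ} (hq : ∀ i, DifferentiableOn ℂ (q i) D)
    {z₀ : ℂ} (hz₀ : z₀ ∈ D) (hS : F z₀ ∈ St H) (he : ∀ i, ∀ᶠ z in 𝓝 z₀, q i z = G i (F z)) :
    ∀ τ ∈ D, F τ ∈ St H ∧ ∀ i, q i τ = G i (F τ) := by
  classical
  set O : Set ℂ := {τ | τ ∈ D ∧ F τ ∈ St H} with hO
  have hOo : IsOpen O := hF.continuousOn.isOpen_inter_preimage hD (isOpen_St H)
  have hs0 : z₀ ∈ O := ⟨hz₀, hS⟩
  set W : Set ℂ := connectedComponentIn O z₀ with hW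
  have hWo : IsOpen W := hOo.connectedComponentIn
  have hWp : IsPreconnected W := isPreconnected_connectedComponentIn
  have hWO : W ⊆ O := connectedComponentIn_subset _ _
  have hWs : z₀ ∈ W := mem_connectedComponentIn hs0
  have hqA : ∀ i, AnalyticOnNhd ℂ (q i) W := fun i =>
    ((hq i).analyticOnNhd hD).mono fun x hx => (hWO hx).1
  have hGF : ∀ i, AnalyticOnNhd ℂ (fun τ => G i (F τ)) W := by
    intro i
    have h1 : DifferentiableOn ℂ (fun τ => G i (F τ)) O := by
      apply (hB.hol i).comp (hF.mono fun x hx => hx.1)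
      exact fun x hx => hx.2
    exact (h1.analyticOnNhd hOo).mono hWO
  have hWeq : ∀ i, EqOn (q i) (fun τ => G i (F τ)) W := fun i =>
    (hqA i).eqOn_of_preconnected_of_eventuallyEq (hGF i) hWp hWs (he i)
  -- W is everything
  have key : D ⊆ W := by
    apply hDp.subset_of_closure_inter_subset hWo
    · exact ⟨_, hs0.1, hWs⟩
    rintro τ ⟨hτc, hτb⟩
    by_cases hτS : F τ ∈ St H
    · have hτO : τ ∈ O := ⟨hτb, hτS⟩
      obtain ⟨ε, hε, hεO⟩ := Metric.isOpen_iff.1 hOo τ hτO
      obtain ⟨y, hyW, hy⟩ := Metric.mem_closure_iff.1 hτc ε hε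
      have hyb : y ∈ ball τ ε := by rw [mem_ball, dist_comm]; exact hy
      have h1 : ball τ ε ⊆ connectedComponentIn O y :=
        (convex_ball τ ε).isPreconnected.subset_connectedComponentIn hyb hεO
      have h2 : connectedComponentIn O y = W := (connectedComponentIn_eq hyW).symm
      rw [h2] at h1
      exact h1 (mem_ball_self hε)
    · exfalso
      have hFc : ContinuousAt F τ := (hF.differentiableAt (hD.mem_nhds hτb)).continuousAt
      have h1 : F τ ∈ closure (St H) := by
        have h2 : F τ ∈ closure (F '' W) :=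
          hFc.continuousWithinAt.mem_closure_image hτc
        exact closure_mono (by rintro _ ⟨x, hx, rfl⟩; exact (hWO hx).2) h2
      have h3 : |(F τ).im| ≤ H := closure_St_sub H h1
      have h4 : |(F τ).im| = H := le_antisymm h3 (not_lt.1 hτS)
      have hFa : AnalyticAt ℂ F τ := (hF.analyticOnNhd hD) τ hτb
      obtain ⟨σ, hσa, hσe, hσr, hσl⟩ := locInv hFa (hF' τ hτb)
      have h5 : ∀ᶠ x in 𝓝 (F τ), AnalyticAt ℂ σ x ∧ F (σ x) = x ∧ σ x ∈ D := by
        have h6 : ∀ᶠ x in 𝓝 (F τ), σ x ∈ D := by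
          apply hσa.continuousAt.eventually_mem
          rw [hσe]
          exact hD.mem_nhds hτb
        filter_upwards [hσa.eventually_analyticAt, hσr, h6] with x h1 h2 h3
        exact ⟨h1, h2, h3⟩
      obtain ⟨ε, hε, hεb⟩ := Metric.eventually_nhds_iff_ball.1 h5
      have h7 : ∀ᶠ z in 𝓝 τ, σ (F z) = z ∧ F z ∈ ball (F τ) ε := by
        filter_upwards [hσl, hFc.eventually_mem (ball_mem_nhds _ hε)] with z h1 h2
        exact ⟨h1, h2⟩
      obtain ⟨δ, hδ, hδb⟩ := Metric.eventually_nhds_iff_ball.1 h7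
      obtain ⟨w, hwW, hw⟩ := Metric.mem_closure_iff.1 hτc δ hδ
      have hwb : w ∈ ball τ δ := by rw [mem_ball, dist_comm]; exact hw
      obtain ⟨hw1, hw2⟩ := hδb w hwb
      set C : Set ℂ := σ '' (ball (F τ) ε ∩ St H) with hC
      have hCp : IsPreconnected C := by
        apply ((convex_ball (F τ) ε).inter (convex_St H)).isPreconnected.image
        intro x hx
        exact (hεb x hx.1).1.continuousAt.continuousWithinAt
      have hCO : C ⊆ O := by
        rintro _ ⟨x, hx, rfl⟩
        obtain ⟨_, h2, h3⟩ := hεb x hx.1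
        exact ⟨h3, by rw [h2]; exact hx.2⟩
      have hwC : w ∈ C := ⟨F w, ⟨hw2, (hWO hwW).2⟩, hw1⟩
      have hCW : C ⊆ W := by
        have h1 := hCp.subset_connectedComponentIn hwC hCO
        rwa [← connectedComponentIn_eq hwW] at h1
      refine hB.nb (F τ) h4 ε hε (fun i x => q i (σ x)) ?_ ?_
      · intro i x hx
        obtain ⟨h1, h2, h3⟩ := hεb x hx
        apply DifferentiableAt.differentiableWithinAt
        exact ((hq i).differentiableAt (hD.mem_nhds h3)).comp x h1.differentiableAt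
      · intro i x hx hxS
        have h1 : σ x ∈ W := hCW ⟨x, ⟨hx, hxS⟩, rfl⟩
        have h2 := hWeq i h1
        simp only at h2
        rw [h2, (hεb x hx).2.1]
  intro τ hτ
  have h1 : τ ∈ W := key hτ
  exact ⟨(hWO h1).2, fun i => hWeq i h1⟩

/-- the upper half plane `B < Im z` -/
def HP (B : ℝ) : Set ℂ := {z | B < z.im}

theorem isOpen_HP (B : ℝ) : IsOpen (HP B) := isOpen_lt continuous_const Complex.continuous_im

theorem convex_HP (B : ℝ) : Convex ℝ (HP B) := convex_halfSpace_im_gt B

/-- holomorphic maps of a half plane to a strip: the derivative -/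
theorem deriv_le_of_strip {B H : ℝ} {F : ℂ → ℂ} (hF : DifferentiableOn ℂ F (HP B))
    (hS : ∀ z ∈ HP B, |(F z).im| ≤ H) {z : ℂ} {r : ℝ} (hr : 0 < r) (hz : B + r < z.im) :
    ‖deriv F z‖ ≤ Real.exp (2 * H) / r := by
  have hsub : closedBall z r ⊆ HP B := by
    intro w hw
    rw [mem_closedBall, dist_eq_norm] at hw
    have h1 := Complex.abs_im_le_norm (w - z)
    rw [Complex.sub_im] at h1
    have h2 := (abs_le.1 (h1.trans hw)).1
    show B < w.im
    linarith
  set E : ℂ → ℂ := fun w => Complex.exp (Complex.I * F w) with hE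
  have hEd : DifferentiableOn ℂ E (HP B) := (hF.const_mul _).cexp
  have hEn : ∀ w ∈ HP B, ‖E w‖ ≤ Real.exp H ∧ Real.exp (-H) ≤ ‖E w‖ := by
    intro w hw
    have h1 := abs_le.1 (hS w hw)
    have h2 : ‖E w‖ = Real.exp (-(F w).im) := by
      rw [hE]; simp only [Complex.norm_exp, Complex.I_mul_re]
    rw [h2]
    exact ⟨Real.exp_le_exp.2 (by linarith), Real.exp_le_exp.2 (by linarith)⟩
  have h1 : ‖deriv E z‖ ≤ Real.exp H / r := by
    apply Complex.norm_deriv_le_of_forall_mem_sphere_norm_le hr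
    · apply DifferentiableOn.diffContOnCl
      rw [closure_ball z hr.ne']
      exact hEd.mono hsub
    · intro w hw
      exact (hEn w (hsub (sphere_subset_closedBall hw))).1
  have hzD : z ∈ HP B := hsub (mem_closedBall_self hr.le)
  have h2 : deriv E z = E z * (Complex.I * deriv F z) := by
    have h3 := (((hF.differentiableAt ((isOpen_HP B).mem_nhds hzD)).hasDerivAt.const_mul
      Complex.I).cexp).deriv
    exact h3
  rw [h2, norm_mul, norm_mul, Complex.norm_I, one_mul] at h1
  have h4 := (hEn z hzD).2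
  have h5 : Real.exp (-H) * ‖deriv F z‖ ≤ Real.exp H / r :=
    (mul_le_mul_of_nonneg_right h4 (norm_nonneg _)).trans h1
  have h6 : ‖deriv F z‖ ≤ Real.exp H * (Real.exp H / r) := by
    calc ‖deriv F z‖ = Real.exp H * (Real.exp (-H) * ‖deriv F z‖) := by
          rw [← mul_assoc, ← Real.exp_add, add_neg_cancel, Real.exp_zero, one_mul]
      _ ≤ Real.exp H * (Real.exp H / r) := by gcongr
  calc ‖deriv F z‖ ≤ Real.exp H * (Real.exp H / r) := h6
    _ = Real.exp (2 * H) / r := by
      rw [← mul_div_assoc, ← Real.exp_add]; congr 2; ring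

end Vale.Agent.P097.H286
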