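import Vale.Agent.P097.H286.C.RowLift
import Vale.Agent.P097.H456.Sp.Joint
import Vale.Agent.P097.H877.Bd.Hart2
import Vale.Agent.P097.H85.Mx

/-!
# P097 / case [c] / R0.5: positions on the continuation domains

`M` = continuation domain of two lines (open, downward closed above the height `b₀`), `B ⊆ M` the
native domain.  The position `θ` (given on `B`) extends to `M`, jointly analytic, with values in
the strip `Str b`, and the relations persist.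
-/

set_option linter.all false

open Complex Metric Filter Topology Set
open scoped ComplexConjugate

namespace Vale.Agent.P097.CC

open Vale.Agent.P097 Vale.Agent.P097.TA Vale.Agent.P097.H202 Vale.Agent.P097.SC
open Vale.Agent.P097.H456.Fct Vale.Agent.P097.H456.Sp

/-- **joint analyticity from slices**: the slices are analytic on `W` for all labels near `w₁`, the
function is jointly analytic at one point of `W × {w₁}` -/
theorem joint_of_slices {W : Set ℂ} (hW : IsOpen W) (hWc : IsPreconnected W) {w₁ : ℂ} {ε : ℝ}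
    (hε : 0 < ε) {θ : ℂ × ℂ → ℂ}
    (hsl : ∀ w ∈ ball w₁ ε, AnalyticOnNhd ℂ (fun t => θ (t, w)) W) {t₀ : ℂ} (ht₀ : t₀ ∈ W)
    (h0 : AnalyticAt ℂ θ (t₀, w₁)) : ∀ t ∈ W, AnalyticAt ℂ θ (t, w₁) := by
  set S : Set ℂ := {t | AnalyticAt ℂ θ (t, w₁)} with hS
  have hSo : IsOpen S := by
    have h1 : IsOpen {z : ℂ × ℂ | AnalyticAt ℂ θ z} := isOpen_analyticAt ℂ θ
    exact h1.preimage (by fun_prop : Continuous fun t : ℂ => (t, w₁))
  have key : W ⊆ S := by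
    apply hWc.subset_of_closure_inter_subset hSo ⟨t₀, ht₀, h0⟩
    rintro t ⟨htc, htW⟩
    obtain ⟨η₀, hη₀, hηW⟩ := Metric.isOpen_iff.1 hW t htW
    set η : ℝ := η₀ / 4 with hη
    have hη0 : 0 < η := by positivity
    obtain ⟨t₁, ht₁S, ht₁⟩ := Metric.mem_closure_iff.1 htc η hη0
    have ht₁' : dist t₁ t < η := by rw [dist_comm]; exact ht₁
    have hball : ball t₁ (3 * η) ⊆ W := by
      intro x hx
      apply hηW
      rw [mem_ball] at hx ⊢
      have := dist_triangle x t₁ t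
      rw [hη] at hx ht₁'
      linarith
    -- a polydisc around the point (t₁, w₁)
    have hev : ∀ᶠ z in 𝓝 ((t₁, w₁) : ℂ × ℂ), AnalyticAt ℂ θ z :=
      (isOpen_analyticAt ℂ θ).mem_nhds ht₁S
    obtain ⟨d, hd, hdb⟩ := Metric.eventually_nhds_iff_ball.1 hev
    set d' : ℝ := min (d) ε with hd'
    have hd'0 : 0 < d' := lt_min hd hε
    -- shifted function
    set f : ℂ × ℂ → ℂ := fun z => θ (z.1, z.2 + w₁) with hf
    have hsh : ∀ {w : ℂ} {δ : ℝ}, w ∈ ball ((0 : ℝ) : ℂ) δ → w + w₁ ∈ ball w₁ δ := by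
      intro w δ hw
      rw [mem_ball, dist_eq_norm] at hw ⊢
      simpa using hw
    have hfd : DifferentiableOn ℂ f (ball t₁ d ×ˢ ball ((0 : ℝ) : ℂ) d') := by
      rintro ⟨x, w⟩ ⟨hx, hw⟩
      have h1 : AnalyticAt ℂ θ (x, w + w₁) := hdb _ (by
        rw [mem_ball, Prod.dist_eq, max_lt_iff]
        exact ⟨hx, ball_subset_ball (min_le_left _ _) (hsh hw)⟩)
      have h2 : AnalyticAt ℂ f (x, w) :=
        h1.comp_of_eq (f := fun z : ℂ × ℂ => (z.1, z.2 + w₁))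
          (analyticAt_fst.prod (analyticAt_snd.add analyticAt_const)) rfl
      exact h2.differentiableAt.differentiableWithinAt
    obtain ⟨δ', hδ', hδ'd, G, hG, hG1, -⟩ := H877.Bd.hart (ξ₁ := t₁) (u₀ := 0) (d := d)
      (δ := d') (ρ₁ := 3 * η) hd hd'0 hfd (A := univ) (H456.Sp.dens_univ' 0)
      (g := fun u ξ => θ (ξ, (u : ℂ) + w₁)) (by
        intro u _ hu
        rw [sub_zero] at hu
        have hu' : (u : ℂ) + w₁ ∈ ball w₁ ε := by
          rw [mem_ball, dist_eq_norm, add_sub_cancel_right, norm_real, Real.norm_eq_abs]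
          exact lt_of_lt_of_le hu (min_le_right _ _)
        exact ⟨((hsl _ hu').mono hball).differentiableOn, Eventually.of_forall fun ξ => rfl⟩)
      (ρ := 2 * η) (by positivity) (by linarith)
    -- `G = f` on the larger polydisc
    have hE : ∀ x ∈ ball t₁ (2 * η), ∀ w ∈ ball ((0 : ℝ) : ℂ) δ', G (x, w) = θ (x, w + w₁) := by
      intro x hx w hw
      have hw' : w + w₁ ∈ ball w₁ ε :=
        ball_subset_ball (hδ'd.trans (min_le_right _ _)) (hsh hw)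
      have a1 : AnalyticOnNhd ℂ (fun x => G (x, w)) (ball t₁ (2 * η)) := by
        apply DifferentiableOn.analyticOnNhd _ isOpen_ball
        exact hG.comp (differentiable_id.prodMk (differentiable_const w)).differentiableOn
          (fun x hx => ⟨hx, hw⟩)
      have a2 : AnalyticOnNhd ℂ (fun x => θ (x, w + w₁)) (ball t₁ (2 * η)) :=
        (hsl _ hw').mono ((ball_subset_ball (by linarith)).trans hball)
      refine a1.eqOn_of_preconnected_of_eventuallyEq a2 (convex_ball _ _).isPreconnected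
        (mem_ball_self (by positivity)) ?_ hx
      filter_upwards [ball_mem_nhds t₁ (show 0 < min d (2 * η) from lt_min hd (by positivity))]
        with y hy
      exact hG1 y w hy hw
    have htb : t ∈ ball t₁ (2 * η) := by
      rw [mem_ball]
      linarith
    have h3 : AnalyticAt ℂ G (t, 0) :=
      Hol.analyticOnNhd_of_differentiableOn (isOpen_ball.prod isOpen_ball) hG _
        ⟨htb, by simpa using hδ'⟩
    have h4 : AnalyticAt ℂ (fun z : ℂ × ℂ => G (z.1, z.2 - w₁)) (t, w₁) :=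
      h3.comp_of_eq (f := fun z : ℂ × ℂ => (z.1, z.2 - w₁))
        (analyticAt_fst.prod (analyticAt_snd.sub analyticAt_const)) (by simp)
    refine h4.congr ?_
    have h5 : (t, w₁) ∈ ball t₁ (2 * η) ×ˢ ball w₁ δ' := ⟨htb, mem_ball_self hδ'⟩
    filter_upwards [(isOpen_ball.prod isOpen_ball).mem_nhds h5] with z hz
    have h6 : z.2 - w₁ ∈ ball ((0 : ℝ) : ℂ) δ' := by
      have := hz.2
      rw [mem_ball, dist_eq_norm] at this ⊢
      simpa using this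
    rw [hE z.1 hz.1 _ h6, sub_add_cancel]
  exact key

/-- position of the vertex of two lines on the set `M` -/
structure Psn (b : ℝ) (F q : ℂ → ℂ) (M : Set (ℂ × ℂ)) (a₁ p₁ a₂ p₂ θ : ℂ × ℂ → ℂ) : Prop where
  an : AnalyticOnNhd ℂ θ M
  mem : ∀ z ∈ M, θ z ∈ Str b
  sA : ∀ z ∈ M, a₁ z + a₂ z = 2 * F (θ z)
  sP : ∀ z ∈ M, p₁ z + p₂ z = 2 * q (θ z) * cos ((a₁ z - a₂ z) / 2)
  dP : ∀ z ∈ M, deriv F (θ z) * (p₁ z - p₂ z) = 2 * deriv q (θ z) * sin ((a₁ z - a₂ z) / 2)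

theorem an_cos' {f : ℂ → ℂ} {u : ℂ} (h : AnalyticAt ℂ f u) :
    AnalyticAt ℂ (fun t => cos (f t)) u :=
  (Complex.analyticAt_cos (x := f u)).comp_of_eq h rfl

section
variable {Λ b b₀ : ℝ} {F q Q : ℂ → ℂ} {B M : Set (ℂ × ℂ)} {a₁ p₁ a₂ p₂ θ : ℂ × ℂ → ℂ}

/-- one slice -/
theorem slice_lift (hB : Bs Λ b F q Q) {W V : Set ℂ} (hW : IsOpen W) (hWc : Convex ℝ W) {w : ℂ}
    (h1 : AnalyticOnNhd ℂ (fun t => a₁ (t, w)) W) (h2 : AnalyticOnNhd ℂ (fun t => p₁ (t, w)) W)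
    (h3 : AnalyticOnNhd ℂ (fun t => a₂ (t, w)) W) (h4 : AnalyticOnNhd ℂ (fun t => p₂ (t, w)) W)
    (hV : IsOpen V) (hVc : Convex ℝ V) (hVW : V ⊆ W) {c : ℂ} (hc : c ∈ V)
    (hθ : AnalyticOnNhd ℂ (fun t => θ (t, w)) V) (hm : ∀ t ∈ V, θ (t, w) ∈ Str b)
    (sA : ∀ t ∈ V, a₁ (t, w) + a₂ (t, w) = 2 * F (θ (t, w)))
    (sP : ∀ t ∈ V, p₁ (t, w) + p₂ (t, w) =
      2 * q (θ (t, w)) * cos ((a₁ (t, w) - a₂ (t, w)) / 2))
    (nc : ¬ ∀ᶠ t in 𝓝 c, θ (t, w) = θ (c, w))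
    (nz : ¬ ∀ᶠ t in 𝓝 c, cos ((a₁ (t, w) - a₂ (t, w)) / 2) = 0) :
    ∃ g : ℂ → ℂ, DifferentiableOn ℂ g W ∧ MapsTo g W (Str b) ∧ ∀ t ∈ V, g t = θ (t, w) := by
  have hcos : AnalyticOnNhd ℂ (fun t => cos ((a₁ (t, w) - a₂ (t, w)) / 2)) W := fun t ht =>
    an_cos' (((h1 t ht).sub (h3 t ht)).div_const)
  -- a good point of `V`
  obtain ⟨c', hc', hcc⟩ : ∃ c' ∈ V, cos ((a₁ (c', w) - a₂ (c', w)) / 2) ≠ 0 := by
    by_contra hcon
    push Not at hcon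
    exact nz (by filter_upwards [hV.mem_nhds hc] with t ht using hcon t ht)
  have hcev : ∀ᶠ t in 𝓝 c', cos ((a₁ (t, w) - a₂ (t, w)) / 2) ≠ 0 :=
    (hcos c' (hVW hc')).continuousAt.eventually_ne hcc
  have nc' : ¬ ∀ᶠ t in 𝓝 c', θ (t, w) = θ (c', w) := by
    intro hcon
    apply nc
    have e1 : ∀ t ∈ V, θ (t, w) = θ (c', w) := fun t ht =>
      hθ.eqOn_of_preconnected_of_eventuallyEq analyticOnNhd_const hVc.isPreconnected hc' hcon ht
    filter_upwards [hV.mem_nhds hc] with t ht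
    rw [e1 t ht, e1 c hc]
  have m1 : MeromorphicOn (fun t => exp (2 * I * ((a₁ (t, w) + a₂ (t, w)) / 2))) W := fun t ht =>
    ((analyticAt_const.mul (((h1 t ht).add (h3 t ht)).div_const)).cexp).meromorphicAt
  have m2 : MeromorphicOn (fun t => (p₁ (t, w) + p₂ (t, w)) /
      (2 * cos ((a₁ (t, w) - a₂ (t, w)) / 2)) *
      exp (-I * ((a₁ (t, w) + a₂ (t, w)) / 2))) W := fun t ht =>
    (((h2 t ht).add (h4 t ht)).meromorphicAt.div
      (analyticAt_const.mul (hcos t ht)).meromorphicAt).mul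
      ((analyticAt_const.mul (((h1 t ht).add (h3 t ht)).div_const)).cexp).meromorphicAt
  obtain ⟨g, dg, mg, hg, -⟩ := rowLift hB hW hWc m1 m2 (hVW hc') (hθ c' hc') (hm c' hc') nc' (by
    filter_upwards [hV.mem_nhds hc', hcev] with t ht ht2
    rw [sA t ht, sP t ht, show 2 * F (θ (t, w)) / 2 = F (θ (t, w)) by ring]
    refine ⟨rfl, ?_⟩
    congr 1
    generalize cos ((a₁ (t, w) - a₂ (t, w)) / 2) = c at ht2 ⊢
    field_simp)
  refine ⟨g, dg, mg, fun t ht => ?_⟩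
  exact ((dg.analyticOnNhd hW).mono hVW).eqOn_of_preconnected_of_eventuallyEq hθ
    hVc.isPreconnected hc' hg ht

/-- germs along a vertical segment -/
theorem germ_seg {g h : ℂ → ℂ} {x s s' : ℝ} (hss : s ≤ s')
    (hg : ∀ σ : ℝ, s ≤ σ → σ ≤ s' → AnalyticAt ℂ g ((x : ℂ) + σ * I))
    (hh : ∀ σ : ℝ, s ≤ σ → σ ≤ s' → AnalyticAt ℂ h ((x : ℂ) + σ * I))
    (h0 : g =ᶠ[𝓝 ((x : ℂ) + s * I)] h) : g =ᶠ[𝓝 ((x : ℂ) + s' * I)] h := by
  rcases hss.eq_or_lt with rfl | hlt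
  · exact h0
  set K : Set ℂ := (fun σ : ℝ => (x : ℂ) + σ * I) '' Icc s s' with hK
  have hKp : IsPreconnected K := (isPreconnected_Icc).image _ (by fun_prop)
  have a1 : AnalyticOnNhd ℂ g K := by
    rintro _ ⟨σ, hσ, rfl⟩; exact hg σ hσ.1 hσ.2
  have a2 : AnalyticOnNhd ℂ h K := by
    rintro _ ⟨σ, hσ, rfl⟩; exact hh σ hσ.1 hσ.2
  have e := a1.eqOn_of_preconnected_of_eventuallyEq a2 hKp ⟨s, ⟨le_refl _, hss⟩, rfl⟩ h0
  apply ((hg s' hss le_rfl).frequently_eq_iff_eventually_eq (hh s' hss le_rfl)).1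
  have ht : Tendsto (fun σ : ℝ => (x : ℂ) + σ * I) (𝓝[<] s') (𝓝[≠] ((x : ℂ) + s' * I)) := by
    refine tendsto_nhdsWithin_iff.2 ⟨?_, ?_⟩
    · have hc : Continuous (fun σ : ℝ => (x : ℂ) + σ * I) := by fun_prop
      exact (hc.tendsto s').mono_left nhdsWithin_le_nhds
    · filter_upwards [self_mem_nhdsWithin] with σ hσ
      intro hcon
      have h1 := congrArg Complex.im hcon
      simp at h1
      exact absurd h1 (ne_of_lt hσ)
  apply ht.frequently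
  apply Eventually.frequently
  filter_upwards [Ioo_mem_nhdsLT hlt] with σ hσ
  exact e ⟨σ, ⟨hσ.1.le, hσ.2.le⟩, rfl⟩

/-- `v` is the value at `z` of a lift along a convex set from a point vertically below `z` -/
def Lft (b₀ : ℝ) (B : Set (ℂ × ℂ)) (θ : ℂ × ℂ → ℂ) (z : ℂ × ℂ) (v : ℂ) : Prop :=
  ∃ s : ℝ, b₀ < s ∧ s ≤ z.1.im ∧ ((z.1.re : ℂ) + s * I, z.2) ∈ B ∧ ∃ (W : Set ℂ) (g : ℂ → ℂ),
    IsOpen W ∧ Convex ℝ W ∧ z.1 ∈ W ∧ (z.1.re : ℂ) + s * I ∈ W ∧ AnalyticOnNhd ℂ g W ∧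
    (g =ᶠ[𝓝 ((z.1.re : ℂ) + s * I)] fun t => θ (t, z.2)) ∧ g z.1 = v

theorem Lft.uniq_aux (hB : H85.Dn b₀ B) (hθ : AnalyticOnNhd ℂ θ B) {z : ℂ × ℂ} {s s' : ℝ}
    (hb : b₀ < s) (hss : s ≤ s') (hs' : s' ≤ z.1.im) (hm' : ((z.1.re : ℂ) + s' * I, z.2) ∈ B)
    {W W' : Set ℂ} {g g' : ℂ → ℂ} (hW : Convex ℝ W) (hW' : Convex ℝ W') (hz : z.1 ∈ W)
    (hz' : z.1 ∈ W') (hc : (z.1.re : ℂ) + s * I ∈ W) (hc' : (z.1.re : ℂ) + s' * I ∈ W')
    (hg : AnalyticOnNhd ℂ g W) (hg' : AnalyticOnNhd ℂ g' W')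
    (h : g =ᶠ[𝓝 ((z.1.re : ℂ) + s * I)] fun t => θ (t, z.2))
    (h' : g' =ᶠ[𝓝 ((z.1.re : ℂ) + s' * I)] fun t => θ (t, z.2)) : g z.1 = g' z.1 := by
  have hzre : (z.1.re : ℂ) + z.1.im * I = z.1 := Complex.re_add_im z.1
  have hseg : ∀ σ : ℝ, s ≤ σ → σ ≤ z.1.im → (z.1.re : ℂ) + σ * I ∈ W := by
    intro σ h1 h2
    rcases (h1.trans h2).eq_or_lt with h3 | h3
    · have : σ = s := le_antisymm (by linarith) h1
      rw [this]; exact hc
    · have h4 : 0 < z.1.im - s := by linarith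
      obtain ⟨a, c, ha, hc0, hac, hσe⟩ : ∃ a c : ℝ, 0 ≤ a ∧ 0 ≤ c ∧ a + c = 1 ∧
          a * s + c * z.1.im = σ :=
        ⟨(z.1.im - σ) / (z.1.im - s), (σ - s) / (z.1.im - s), div_nonneg (by linarith) h4.le,
          div_nonneg (by linarith) h4.le, by field_simp; ring, by field_simp; ring⟩
      have h5 := hW hc (by rw [hzre]; exact hz : (z.1.re : ℂ) + z.1.im * I ∈ W) ha hc0 hac
      have hac' : (a : ℂ) + c = 1 := by rw [← ofReal_add, hac, ofReal_one]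
      have h6 : a • ((z.1.re : ℂ) + s * I) + c • ((z.1.re : ℂ) + z.1.im * I) =
          (z.1.re : ℂ) + σ * I := by
        rw [Complex.real_smul, Complex.real_smul, ← hσe]
        push_cast
        linear_combination (z.1.re : ℂ) * hac'
      rw [h6] at h5
      exact h5
  have e1 : g =ᶠ[𝓝 ((z.1.re : ℂ) + s' * I)] fun t => θ (t, z.2) := by
    refine germ_seg hss (fun σ h1 h2 => hg _ (hseg σ h1 (h2.trans hs'))) (fun σ h1 h2 => ?_) h
    have h3 := hB.down _ _ σ hm' (by linarith) (by simpa using h2)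
    have h4 : ((((z.1.re : ℂ) + s' * I).re : ℂ) + σ * I, z.2) = ((z.1.re : ℂ) + σ * I, z.2) := by
      simp
    rw [h4] at h3
    exact (hθ _ h3).comp_of_eq (f := fun t : ℂ => (t, z.2)) (analyticAt_id.prod analyticAt_const)
      rfl
  have e2 : g =ᶠ[𝓝 ((z.1.re : ℂ) + s' * I)] g' := e1.trans h'.symm
  exact (hg.mono inter_subset_left).eqOn_of_preconnected_of_eventuallyEq
    (hg'.mono inter_subset_right) (hW.inter hW').isPreconnected ⟨hseg s' hss hs', hc'⟩ e2 ⟨hz, hz'⟩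

theorem Lft.uniq (hB : H85.Dn b₀ B) (hθ : AnalyticOnNhd ℂ θ B) {z : ℂ × ℂ} {v v' : ℂ}
    (h : Lft b₀ B θ z v) (h' : Lft b₀ B θ z v') : v = v' := by
  obtain ⟨s, k1, k2, k3, W, g, k4, k5, k6, k7, k8, k9, rfl⟩ := h
  obtain ⟨s', l1, l2, l3, W', g', l4, l5, l6, l7, l8, l9, rfl⟩ := h'
  rcases le_total s s' with hss | hss
  · exact Lft.uniq_aux hB hθ k1 hss l2 l3 k5 l5 k6 l6 k7 l7 k8 l8 k9 l9
  · exact (Lft.uniq_aux hB hθ l1 hss k2 k3 l5 k5 l6 k6 l7 k7 l8 k8 l9 k9).symm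

/-- the local picture: a rectangle `W` around the vertical segment, slices lifted there -/
theorem local_lift (hBs : Bs Λ b F q Q) (hM : H85.Dn b₀ M) (hB : H85.Dn b₀ B)
    (habove : ∀ t w : ℂ, (t, w) ∈ M → ∃ s : ℝ, b₀ < s ∧ s ≤ t.im ∧ ((t.re : ℂ) + s * I, w) ∈ B)
    (h1 : AnalyticOnNhd ℂ a₁ M) (h2 : AnalyticOnNhd ℂ p₁ M) (h3 : AnalyticOnNhd ℂ a₂ M)
    (h4 : AnalyticOnNhd ℂ p₂ M) (T : Psn b F q B a₁ p₁ a₂ p₂ θ)
    (nc : ∀ z ∈ B, ¬ ∀ᶠ t in 𝓝 z.1, θ (t, z.2) = θ z)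
    (nz : ∀ z ∈ B, ¬ ∀ᶠ t in 𝓝 z.1, cos ((a₁ (t, z.2) - a₂ (t, z.2)) / 2) = 0)
    {t₀ w₀ : ℂ} (hz : (t₀, w₀) ∈ M) :
    ∃ (W V : Set ℂ) (ε : ℝ) (c₀ : ℂ) (G : ℂ → ℂ → ℂ), 0 < ε ∧ IsOpen W ∧ Convex ℝ W ∧ t₀ ∈ W ∧
      IsOpen V ∧ Convex ℝ V ∧ V ⊆ W ∧ c₀ ∈ V ∧ W ×ˢ ball w₀ ε ⊆ M ∧ V ×ˢ ball w₀ ε ⊆ B ∧
      ∀ w ∈ ball w₀ ε, DifferentiableOn ℂ (G w) W ∧ MapsTo (G w) W (Str b) ∧
        (∀ t ∈ V, G w t = θ (t, w)) ∧ ∀ t ∈ W, Lft b₀ B θ (t, w) (G w t) := by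
  obtain ⟨s, hs0, hst, hsB⟩ := habove t₀ w₀ hz
  set c₀ : ℂ := (t₀.re : ℂ) + s * I with hc₀
  have hc₀re : c₀.re = t₀.re := by simp [hc₀]
  have hc₀im : c₀.im = s := by simp [hc₀]
  -- a polydisc in `B`
  obtain ⟨ρ, hρ, hρB⟩ := Metric.isOpen_iff.1 hB.op _ hsB
  -- the segment in `M`
  set K : Set (ℂ × ℂ) := (fun σ : ℝ => ((t₀.re : ℂ) + σ * I, w₀)) '' Icc s t₀.im with hK
  have hKc : IsCompact K := isCompact_Icc.image (by fun_prop)
  have hKM : K ⊆ M := by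
    rintro _ ⟨σ, hσ, rfl⟩
    exact hM.down t₀ w₀ σ hz (by linarith [hσ.1]) hσ.2
  obtain ⟨δ, hδ, hδM⟩ := hKc.exists_thickening_subset_open hM.op hKM
  set ε : ℝ := min (ρ / 2) (δ / 2) with hε
  have hε0 : 0 < ε := lt_min (by positivity) (by positivity)
  have hερ : 2 * ε ≤ ρ := by
    have := min_le_left (ρ / 2) (δ / 2)
    linarith
  have hεδ : 2 * ε ≤ δ := by
    have := min_le_right (ρ / 2) (δ / 2)
    linarith
  set W : Set ℂ := {t | |t.re - t₀.re| < ε} ∩ ({t | s - ε < t.im} ∩ {t | t.im < t₀.im + ε}) with hW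
  have hWo : IsOpen W := (isOpen_lt (by fun_prop) continuous_const).inter
    ((isOpen_lt continuous_const Complex.continuous_im).inter
      (isOpen_lt Complex.continuous_im continuous_const))
  have hWc : Convex ℝ W := by
    have e1 : Convex ℝ {t : ℂ | |t.re - t₀.re| < ε} := by
      have : {t : ℂ | |t.re - t₀.re| < ε} =
          {t : ℂ | t.re < t₀.re + ε} ∩ {t : ℂ | t₀.re - ε < t.re} := by
        ext t
        simp only [mem_setOf_eq, mem_inter_iff, abs_lt]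
        constructor
        · rintro ⟨a, b⟩; constructor <;> linarith
        · rintro ⟨a, b⟩; constructor <;> linarith
      rw [this]
      exact (convex_halfSpace_re_lt _).inter (convex_halfSpace_re_gt _)
    exact e1.inter ((convex_halfSpace_im_gt _).inter (convex_halfSpace_im_lt _))
  set V : Set ℂ := W ∩ ball c₀ (2 * ε) with hV
  have hVo : IsOpen V := hWo.inter isOpen_ball
  have hVc : Convex ℝ V := hWc.inter (convex_ball _ _)
  have ht₀W : t₀ ∈ W := by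
    refine ⟨?_, ?_, ?_⟩
    · show |t₀.re - t₀.re| < ε
      rw [sub_self, abs_zero]; exact hε0
    · show s - ε < t₀.im
      linarith
    · show t₀.im < t₀.im + ε
      linarith
  have hc₀W : c₀ ∈ W := by
    refine ⟨?_, ?_, ?_⟩
    · show |c₀.re - t₀.re| < ε
      rw [hc₀re, sub_self, abs_zero]; exact hε0
    · show s - ε < c₀.im
      rw [hc₀im]; linarith
    · show c₀.im < t₀.im + ε
      rw [hc₀im]; linarith
  have hc₀V : c₀ ∈ V := ⟨hc₀W, mem_ball_self (by linarith)⟩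
  have hWM : W ×ˢ ball w₀ ε ⊆ M := by
    rintro ⟨t, w⟩ ⟨⟨k1, k2, k3⟩, hw⟩
    apply hδM
    rw [Metric.mem_thickening_iff]
    -- nearest point on the segment
    set σ : ℝ := max s (min t.im t₀.im) with hσ
    have hσ1 : s ≤ σ := le_max_left _ _
    have hσ2 : σ ≤ t₀.im := max_le hst (min_le_right _ _)
    have hσ3 : |t.im - σ| < ε := by
      have k2' : s - ε < t.im := k2
      have k3' : t.im < t₀.im + ε := k3
      rw [abs_lt]
      rcases le_total t.im t₀.im with k | k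
      · rw [min_eq_left k] at hσ
        rcases le_total s t.im with l | l
        · rw [max_eq_right l] at hσ
          constructor <;> linarith
        · rw [max_eq_left l] at hσ
          constructor <;> linarith
      · rw [min_eq_right k, max_eq_right hst] at hσ
        constructor <;> linarith
    refine ⟨((t₀.re : ℂ) + σ * I, w₀), ⟨σ, ⟨hσ1, hσ2⟩, rfl⟩, ?_⟩
    rw [Prod.dist_eq, max_lt_iff]
    constructor
    · rw [dist_eq_norm]
      have h5 := Complex.norm_le_abs_re_add_abs_im (t - ((t₀.re : ℂ) + σ * I))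
      have h6 : (t - ((t₀.re : ℂ) + σ * I)).re = t.re - t₀.re := by simp
      have h7 : (t - ((t₀.re : ℂ) + σ * I)).im = t.im - σ := by simp
      rw [h6, h7] at h5
      have k1' : |t.re - t₀.re| < ε := k1
      show ‖t - ((t₀.re : ℂ) + σ * I)‖ < δ
      linarith
    · have : dist w w₀ < ε := hw
      show dist w w₀ < δ
      linarith
  have hVB : V ×ˢ ball w₀ ε ⊆ B := by
    rintro ⟨t, w⟩ ⟨⟨-, ht⟩, hw⟩
    apply hρB
    rw [mem_ball, Prod.dist_eq, max_lt_iff]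
    constructor
    · exact lt_of_lt_of_le ht hερ
    · have : dist w w₀ < ε := hw
      show dist w w₀ < ρ
      linarith
  have hsl : ∀ w ∈ ball w₀ ε, ∃ g : ℂ → ℂ, DifferentiableOn ℂ g W ∧ MapsTo g W (Str b) ∧
      ∀ t ∈ V, g t = θ (t, w) := by
    intro w hw
    have sl : ∀ {f : ℂ × ℂ → ℂ}, AnalyticOnNhd ℂ f M → AnalyticOnNhd ℂ (fun t => f (t, w)) W :=
      fun {f} hf t ht => (hf (t, w) (hWM ⟨ht, hw⟩)).comp_of_eq (f := fun t : ℂ => (t, w))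
        (analyticAt_id.prod analyticAt_const) rfl
    exact slice_lift hBs hWo hWc (sl h1) (sl h2) (sl h3) (sl h4) hVo hVc inter_subset_left hc₀V
      (fun t ht => (T.an (t, w) (hVB ⟨ht, hw⟩)).comp_of_eq (f := fun t : ℂ => (t, w))
        (analyticAt_id.prod analyticAt_const) rfl)
      (fun t ht => T.mem _ (hVB ⟨ht, hw⟩)) (fun t ht => T.sA _ (hVB ⟨ht, hw⟩))
      (fun t ht => T.sP _ (hVB ⟨ht, hw⟩)) (nc (c₀, w) (hVB ⟨hc₀V, hw⟩))
      (nz (c₀, w) (hVB ⟨hc₀V, hw⟩))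
  choose! G hG1 hG2 hG3 using hsl
  refine ⟨W, V, ε, c₀, G, hε0, hWo, hWc, ht₀W, hVo, hVc, inter_subset_left, hc₀V, hWM, hVB,
    fun w hw => ⟨hG1 w hw, hG2 w hw, hG3 w hw, fun t ht => ?_⟩⟩
  obtain ⟨k1, k2, k3⟩ := id ht
  have k1' : |t.re - t₀.re| < ε := k1
  have k2' : s - ε < t.im := k2
  have k3' : t.im < t₀.im + ε := k3
  have aG : AnalyticOnNhd ℂ (G w) W := (hG1 w hw).analyticOnNhd hWo
  have hfin : ∀ s' : ℝ, s - ε < s' → s' ≤ s → s' ≤ t.im → Lft b₀ B θ (t, w) (G w t) := by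
    intro s' l1 l2 l3
    have hcW : (t.re : ℂ) + s' * I ∈ W := by
      refine ⟨?_, ?_, ?_⟩
      · show |((t.re : ℂ) + s' * I).re - t₀.re| < ε
        simpa using k1'
      · show s - ε < ((t.re : ℂ) + s' * I).im
        simpa using l1
      · show ((t.re : ℂ) + s' * I).im < t₀.im + ε
        have : ((t.re : ℂ) + s' * I).im = s' := by simp
        rw [this]; linarith
    have hcb : (t.re : ℂ) + s' * I ∈ ball c₀ (2 * ε) := by
      rw [mem_ball, dist_eq_norm]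
      have h5 := Complex.norm_le_abs_re_add_abs_im ((t.re : ℂ) + s' * I - c₀)
      have h6 : ((t.re : ℂ) + s' * I - c₀).re = t.re - t₀.re := by simp [hc₀]
      have h7 : ((t.re : ℂ) + s' * I - c₀).im = s' - s := by simp [hc₀]
      rw [h6, h7] at h5
      have h8 : |s' - s| < ε := by rw [abs_lt]; constructor <;> linarith
      linarith
    have hcV : (t.re : ℂ) + s' * I ∈ V := ⟨hcW, hcb⟩
    have hcB : ((t.re : ℂ) + s' * I, w) ∈ B := hVB ⟨hcV, hw⟩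
    refine ⟨s', ?_, l3, hcB, W, G w, hWo, hWc, ht, hcW, aG, ?_, rfl⟩
    · have := hB.low _ _ hcB
      simpa using this
    · filter_upwards [hVo.mem_nhds hcV] with x hx using hG3 w hw x hx
  rcases le_total s t.im with h | h
  · exact hfin s (by linarith) le_rfl h
  · exact hfin t.im k2' h le_rfl

/-- **R0.5**: the position extends to the continuation domain -/
theorem ext_pos (hBs : Bs Λ b F q Q) (hM : H85.Dn b₀ M) (hB : H85.Dn b₀ B)
    (habove : ∀ t w : ℂ, (t, w) ∈ M → ∃ s : ℝ, b₀ < s ∧ s ≤ t.im ∧ ((t.re : ℂ) + s * I, w) ∈ B)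
    (h1 : AnalyticOnNhd ℂ a₁ M) (h2 : AnalyticOnNhd ℂ p₁ M) (h3 : AnalyticOnNhd ℂ a₂ M)
    (h4 : AnalyticOnNhd ℂ p₂ M) (T : Psn b F q B a₁ p₁ a₂ p₂ θ)
    (nc : ∀ z ∈ B, ¬ ∀ᶠ t in 𝓝 z.1, θ (t, z.2) = θ z)
    (nz : ∀ z ∈ B, ¬ ∀ᶠ t in 𝓝 z.1, cos ((a₁ (t, z.2) - a₂ (t, z.2)) / 2) = 0) :
    ∃ θ' : ℂ × ℂ → ℂ, Psn b F q M a₁ p₁ a₂ p₂ θ' ∧ ∀ z ∈ B, θ' z = θ z := by
  classical
  set θ' : ℂ × ℂ → ℂ := fun z => if h : ∃ v, Lft b₀ B θ z v then h.choose else 0 with hθ'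
  have hval : ∀ {z : ℂ × ℂ} {v : ℂ}, Lft b₀ B θ z v → θ' z = v := by
    intro z v h
    have hex : ∃ v, Lft b₀ B θ z v := ⟨v, h⟩
    simp only [hθ']
    rw [dif_pos hex]
    exact hex.choose_spec.uniq hB T.an h
  have hBv : ∀ z ∈ B, θ' z = θ z := by
    rintro ⟨t, w⟩ hz
    apply hval
    have ht : (t.re : ℂ) + t.im * I = t := Complex.re_add_im t
    obtain ⟨ρ, hρ, hρB⟩ := Metric.isOpen_iff.1 hB.op _ hz
    refine ⟨t.im, hB.low t w hz, le_rfl, by rw [ht]; exact hz, ball t ρ, fun x => θ (x, w),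
      isOpen_ball, convex_ball _ _, mem_ball_self hρ, by rw [ht]; exact mem_ball_self hρ,
      fun x hx => (T.an (x, w) (hρB ?_)).comp_of_eq (f := fun x : ℂ => (x, w))
        (analyticAt_id.prod analyticAt_const) rfl, EventuallyEq.rfl, rfl⟩
    rw [mem_ball, Prod.dist_eq, max_lt_iff]
    exact ⟨hx, by simpa using hρ⟩
  refine ⟨θ', ⟨?_, ?_, ?_, ?_, ?_⟩, hBv⟩
  · rintro ⟨t₀, w₀⟩ hz
    obtain ⟨W, V, ε, c₀, G, hε, hW, hWc, ht₀, hV, hVc, hVW, hc₀, hWM, hVB, hG⟩ :=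
      local_lift hBs hM hB habove h1 h2 h3 h4 T nc nz hz
    refine joint_of_slices hW hWc.isPreconnected hε (θ := θ') (fun w hw => ?_) (hVW hc₀) ?_ t₀ ht₀
    · obtain ⟨g1, g2, g3, g4⟩ := hG w hw
      intro t ht
      refine (g1.analyticOnNhd hW t ht).congr ?_
      filter_upwards [hW.mem_nhds ht] with x hx
      exact (hval (g4 x hx)).symm
    · have hm : (c₀, w₀) ∈ B := hVB ⟨hc₀, mem_ball_self hε⟩
      refine (T.an _ hm).congr ?_
      filter_upwards [hB.op.mem_nhds hm] with u hu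
      exact (hBv u hu).symm
  · rintro ⟨t₀, w₀⟩ hz
    obtain ⟨W, V, ε, c₀, G, hε, hW, hWc, ht₀, hV, hVc, hVW, hc₀, hWM, hVB, hG⟩ :=
      local_lift hBs hM hB habove h1 h2 h3 h4 T nc nz hz
    obtain ⟨g1, g2, g3, g4⟩ := hG w₀ (mem_ball_self hε)
    rw [hval (g4 t₀ ht₀)]
    exact g2 ht₀
  · rintro ⟨t₀, w₀⟩ hz
    obtain ⟨W, V, ε, c₀, G, hε, hW, hWc, ht₀, hV, hVc, hVW, hc₀, hWM, hVB, hG⟩ :=
      local_lift hBs hM hB habove h1 h2 h3 h4 T nc nz hz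
    obtain ⟨g1, g2, g3, g4⟩ := hG w₀ (mem_ball_self hε)
    rw [hval (g4 t₀ ht₀)]
    have sl : ∀ {f : ℂ × ℂ → ℂ}, AnalyticOnNhd ℂ f M → AnalyticOnNhd ℂ (fun t => f (t, w₀)) W :=
      fun {f} hf t ht => (hf (t, w₀) (hWM ⟨ht, mem_ball_self hε⟩)).comp_of_eq
        (f := fun t : ℂ => (t, w₀)) (analyticAt_id.prod analyticAt_const) rfl
    have aF : AnalyticOnNhd ℂ (fun t => 2 * F (G w₀ t)) W := fun t ht =>
      analyticAt_const.mul (((hBs.dF.analyticOnNhd (isOpen_Str b)) _ (g2 ht)).comp_of_eq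
        (g1.analyticOnNhd hW t ht) rfl)
    refine ((sl h1).add (sl h3)).eqOn_of_preconnected_of_eventuallyEq aF hWc.isPreconnected
      (hVW hc₀) ?_ ht₀
    filter_upwards [hV.mem_nhds hc₀] with x hx
    show a₁ (x, w₀) + a₂ (x, w₀) = 2 * F (G w₀ x)
    rw [g3 x hx]
    exact T.sA (x, w₀) (hVB ⟨hx, mem_ball_self hε⟩)
  · rintro ⟨t₀, w₀⟩ hz
    obtain ⟨W, V, ε, c₀, G, hε, hW, hWc, ht₀, hV, hVc, hVW, hc₀, hWM, hVB, hG⟩ :=
      local_lift hBs hM hB habove h1 h2 h3 h4 T nc nz hz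
    obtain ⟨g1, g2, g3, g4⟩ := hG w₀ (mem_ball_self hε)
    rw [hval (g4 t₀ ht₀)]
    have sl : ∀ {f : ℂ × ℂ → ℂ}, AnalyticOnNhd ℂ f M → AnalyticOnNhd ℂ (fun t => f (t, w₀)) W :=
      fun {f} hf t ht => (hf (t, w₀) (hWM ⟨ht, mem_ball_self hε⟩)).comp_of_eq
        (f := fun t : ℂ => (t, w₀)) (analyticAt_id.prod analyticAt_const) rfl
    have aq : AnalyticOnNhd ℂ (fun t => 2 * q (G w₀ t) *
        cos ((a₁ (t, w₀) - a₂ (t, w₀)) / 2)) W := fun t ht =>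
      (analyticAt_const.mul (((hBs.dq.analyticOnNhd (isOpen_Str b)) _ (g2 ht)).comp_of_eq
        (g1.analyticOnNhd hW t ht) rfl)).mul
        (an_cos' (((sl h1 t ht).sub (sl h3 t ht)).div_const))
    refine ((sl h2).add (sl h4)).eqOn_of_preconnected_of_eventuallyEq aq hWc.isPreconnected
      (hVW hc₀) ?_ ht₀
    filter_upwards [hV.mem_nhds hc₀] with x hx
    show p₁ (x, w₀) + p₂ (x, w₀) = 2 * q (G w₀ x) * cos ((a₁ (x, w₀) - a₂ (x, w₀)) / 2)
    rw [g3 x hx]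
    exact T.sP (x, w₀) (hVB ⟨hx, mem_ball_self hε⟩)
  · rintro ⟨t₀, w₀⟩ hz
    obtain ⟨W, V, ε, c₀, G, hε, hW, hWc, ht₀, hV, hVc, hVW, hc₀, hWM, hVB, hG⟩ :=
      local_lift hBs hM hB habove h1 h2 h3 h4 T nc nz hz
    obtain ⟨g1, g2, g3, g4⟩ := hG w₀ (mem_ball_self hε)
    rw [hval (g4 t₀ ht₀)]
    have sl : ∀ {f : ℂ × ℂ → ℂ}, AnalyticOnNhd ℂ f M → AnalyticOnNhd ℂ (fun t => f (t, w₀)) W :=
      fun {f} hf t ht => (hf (t, w₀) (hWM ⟨ht, mem_ball_self hε⟩)).comp_of_eq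
        (f := fun t : ℂ => (t, w₀)) (analyticAt_id.prod analyticAt_const) rfl
    have aF' : AnalyticOnNhd ℂ (fun t => deriv F (G w₀ t)) W := fun t ht =>
      ((hBs.dF.analyticOnNhd (isOpen_Str b)).deriv _ (g2 ht)).comp_of_eq
        (g1.analyticOnNhd hW t ht) rfl
    have aq' : AnalyticOnNhd ℂ (fun t => deriv q (G w₀ t)) W := fun t ht =>
      ((hBs.dq.analyticOnNhd (isOpen_Str b)).deriv _ (g2 ht)).comp_of_eq
        (g1.analyticOnNhd hW t ht) rfl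
    have asin : AnalyticOnNhd ℂ (fun t => sin ((a₁ (t, w₀) - a₂ (t, w₀)) / 2)) W := fun t ht =>
      (Complex.analyticAt_sin (x := (a₁ (t, w₀) - a₂ (t, w₀)) / 2)).comp_of_eq
        (((sl h1 t ht).sub (sl h3 t ht)).div_const) rfl
    refine (aF'.mul ((sl h2).sub (sl h4))).eqOn_of_preconnected_of_eventuallyEq
      (f := fun t => deriv F (G w₀ t) * (p₁ (t, w₀) - p₂ (t, w₀)))
      (g := fun t => 2 * deriv q (G w₀ t) * sin ((a₁ (t, w₀) - a₂ (t, w₀)) / 2))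
      ((analyticOnNhd_const.mul aq').mul asin) hWc.isPreconnected (hVW hc₀) ?_ ht₀
    filter_upwards [hV.mem_nhds hc₀] with x hx
    rw [g3 x hx]
    exact T.dP (x, w₀) (hVB ⟨hx, mem_ball_self hε⟩)

end

end Vale.Agent.P097.CC
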