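import Vale.Agent.P097.H456.C.End
import Vale.Agent.P097.H456.Sp.Glue
import Vale.Agent.P097.H543.Hartogs
import Vale.Agent.P097.H222.Cone6

/-!
# P097 / case [c] / R0.3: the first height, part 1 (definition, gluing, symmetries)

`Ex1 f r y ε w g` : `g` is an analytic extension of `f` (given on `|Im t| < r`) to the strip
`|Im t| < y` for the labels in `ball w ε`.  `Rh` = first height (cut at `B`).
-/

set_option linter.all false

open Complex Metric Filter Topology Set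
open scoped ComplexConjugate

namespace Vale.Agent.P097.CC

open Vale.Agent.P097 Vale.Agent.P097.TA Vale.Agent.P097.H202 Vale.Agent.P097.SC
open Vale.Agent.P097.H456.Fct Vale.Agent.P097.H456.Sp Vale.Agent.P097.H456.C

/-- `g` extends `f` to the strip `|Im t| < y` for the labels in `ball w ε` -/
structure Ex1 (f : ℂ → ℂ → ℂ) (r y ε : ℝ) (w : ℂ) (g : ℂ × ℂ → ℂ) : Prop where
  an : AnalyticOnNhd ℂ g (Str y ×ˢ ball w ε)
  eq : ∀ t v : ℂ, t ∈ Str y → t ∈ Str r → v ∈ ball w ε → g (t, v) = f t v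

theorem Str_conj' {b : ℝ} {z : ℂ} (hz : z ∈ Str b) : conj z ∈ Str b := by
  have h : |z.im| < b := hz
  show |(conj z).im| < b
  simpa using h

/-- both coordinates of the lines extend to the strip `|Im t| < y` near the label `w` -/
def ExS (α p : ℂ → ℂ → ℂ) (r e₁ : ℝ) (w : ℂ) (y : ℝ) : Prop :=
  ∃ ε > 0, ball w ε ⊆ ball 0 e₁ ∧ ∃ A₂ P₂ : ℂ × ℂ → ℂ, Ex1 α r y ε w A₂ ∧ Ex1 p r y ε w P₂

/-- the first height, cut at `B` -/
noncomputable def Rh (α p : ℂ → ℂ → ℂ) (r e₁ B : ℝ) (w : ℂ) : ℝ :=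
  sSup {y | 0 < y ∧ y ≤ B ∧ ExS α p r e₁ w y}

variable {f : ℂ → ℂ → ℂ} {r y y' ε ε' : ℝ} {w w' : ℂ} {g g' : ℂ × ℂ → ℂ}

theorem Ex1.restrict (h : Ex1 f r y ε w g) (hy : y' ≤ y) (hb : ball w' ε' ⊆ ball w ε) :
    Ex1 f r y' ε' w' g :=
  ⟨fun z hz => h.an z ⟨Str_mono hy hz.1, hb hz.2⟩,
    fun t v ht htr hv => h.eq t v (Str_mono hy ht) htr (hb hv)⟩

/-- uniqueness of the extension -/
theorem Ex1.uniq (hr : 0 < r) (h : Ex1 f r y ε w g) (h' : Ex1 f r y' ε' w' g') {t v : ℂ}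
    (ht : t ∈ Str y) (ht' : t ∈ Str y') (hv : v ∈ ball w ε) (hv' : v ∈ ball w' ε') :
    g (t, v) = g' (t, v) := by
  have hy : 0 < y := lt_of_le_of_lt (abs_nonneg _) ht
  have hy' : 0 < y' := lt_of_le_of_lt (abs_nonneg _) ht'
  set m := min y y' with hm
  have hm0 : 0 < m := lt_min hy hy'
  have a1 : AnalyticOnNhd ℂ (fun t => g (t, v)) (Str m) :=
    (slice_an h.an hv).mono (Str_mono (min_le_left _ _))
  have a2 : AnalyticOnNhd ℂ (fun t => g' (t, v)) (Str m) :=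
    (slice_an h'.an hv').mono (Str_mono (min_le_right _ _))
  have h0 : (0 : ℂ) ∈ Str m := by simpa using real_mem_Str hm0 0
  have h0r : (0 : ℂ) ∈ Str r := by simpa using real_mem_Str hr 0
  have he : (fun t => g (t, v)) =ᶠ[𝓝 0] fun t => g' (t, v) := by
    filter_upwards [(isOpen_Str m).mem_nhds h0, (isOpen_Str r).mem_nhds h0r] with x hx hxr
    rw [h.eq x v (Str_mono (min_le_left _ _) hx) hxr hv,
      h'.eq x v (Str_mono (min_le_right _ _) hx) hxr hv']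
  exact a1.eqOn_of_preconnected_of_eventuallyEq a2 (convex_Str m).isPreconnected h0 he
    (show |t.im| < m from lt_min ht ht')

/-- the condition used to glue -/
def GlC (f : ℂ → ℂ → ℂ) (r e₁ : ℝ) (z : ℂ × ℂ) (g : ℂ × ℂ → ℂ) : Prop :=
  ∃ y ε : ℝ, |z.1.im| < y ∧ 0 < ε ∧ ball z.2 ε ⊆ ball 0 e₁ ∧ Ex1 f r y ε z.2 g

open Classical in
/-- the glued function -/
noncomputable def gl (f : ℂ → ℂ → ℂ) (r e₁ : ℝ) (z : ℂ × ℂ) : ℂ :=
  if h : ∃ g, GlC f r e₁ z g then h.choose z else 0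

theorem gl_eq {e₁ : ℝ} (hr : 0 < r) (h : Ex1 f r y ε w g) (hs : ball w ε ⊆ ball 0 e₁) {t v : ℂ}
    (ht : t ∈ Str y) (hv : v ∈ ball w ε) : gl f r e₁ (t, v) = g (t, v) := by
  classical
  obtain ⟨δ, hδ, hδs⟩ := Metric.isOpen_iff.1 isOpen_ball v hv
  have hc : GlC f r e₁ (t, v) g := ⟨y, δ, ht, hδ, hδs.trans hs, h.restrict le_rfl hδs⟩
  have hex : ∃ g, GlC f r e₁ (t, v) g := ⟨g, hc⟩
  obtain ⟨y', ε', h1, h2, h3, h4⟩ := hex.choose_spec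
  rw [gl, dif_pos hex]
  exact h4.uniq hr h h1 ht (mem_ball_self h2) hv

theorem ExS.anti {α p : ℂ → ℂ → ℂ} {e₁ : ℝ} (h : ExS α p r e₁ w y) (hy : y' ≤ y) :
    ExS α p r e₁ w y' := by
  obtain ⟨ε, hε, hs, A₂, P₂, h1, h2⟩ := h
  exact ⟨ε, hε, hs, A₂, P₂, h1.restrict hy le_rfl, h2.restrict hy le_rfl⟩

theorem ExS.near {α p : ℂ → ℂ → ℂ} {e₁ : ℝ} (h : ExS α p r e₁ w y) :
    ∃ ε > 0, ∀ v ∈ ball w ε, ExS α p r e₁ v y := by
  obtain ⟨ε, hε, hs, A₂, P₂, h1, h2⟩ := h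
  refine ⟨ε, hε, fun v hv => ?_⟩
  obtain ⟨δ, hδ, hδs⟩ := Metric.isOpen_iff.1 isOpen_ball v hv
  exact ⟨δ, hδ, hδs.trans hs, A₂, P₂, h1.restrict le_rfl hδs, h2.restrict le_rfl hδs⟩

section
variable {α p : ℂ → ℂ → ℂ} {e₁ B : ℝ}

theorem Rh_bdd (w : ℂ) : BddAbove {y | 0 < y ∧ y ≤ B ∧ ExS α p r e₁ w y} :=
  ⟨B, fun _ h => h.2.1⟩

theorem Rh_le (hB : 0 < B) (w : ℂ) : Rh α p r e₁ B w ≤ B := by
  by_cases h : {y | 0 < y ∧ y ≤ B ∧ ExS α p r e₁ w y}.Nonempty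
  · exact csSup_le h fun _ h => h.2.1
  · rw [Rh, not_nonempty_iff_eq_empty.1 h, Real.sSup_empty]
    exact hB.le

theorem Rh_nonneg (w : ℂ) : 0 ≤ Rh α p r e₁ B w := by
  apply Real.sSup_nonneg
  rintro y ⟨h, -, -⟩
  exact h.le

theorem le_Rh (hB : y ≤ B) (h : ExS α p r e₁ w y) : y ≤ Rh α p r e₁ B w := by
  rcases le_or_gt y 0 with h0 | h0
  · exact h0.trans (Rh_nonneg _)
  · exact le_csSup (Rh_bdd w) ⟨h0, hB, h⟩

theorem exists_of_lt (h0 : 0 ≤ y) (hy : y < Rh α p r e₁ B w) :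
    ∃ y' > y, y' ≤ B ∧ ExS α p r e₁ w y' := by
  by_cases h : {y | 0 < y ∧ y ≤ B ∧ ExS α p r e₁ w y}.Nonempty
  · obtain ⟨y', ⟨h1, h2, h3⟩, h4⟩ := exists_lt_of_lt_csSup h hy
    exact ⟨y', h4, h2, h3⟩
  · rw [Rh, not_nonempty_iff_eq_empty.1 h, Real.sSup_empty] at hy
    exact absurd hy (not_lt.2 h0)

/-- the glued function is locally one of the extensions -/
theorem gl_ex (hr : 0 < r) {z : ℂ × ℂ} (hz : |z.1.im| < Rh α p r e₁ B z.2) :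
    ∃ y ε : ℝ, z.1 ∈ Str y ∧ 0 < ε ∧ ball z.2 ε ⊆ ball 0 e₁ ∧ ExS α p r e₁ z.2 y ∧
      Ex1 α r y ε z.2 (gl α r e₁) ∧ Ex1 p r y ε z.2 (gl p r e₁) := by
  obtain ⟨y, hy, hyB, ε, hε, hs, A₂, P₂, h1, h2⟩ := exists_of_lt (abs_nonneg _) hz
  refine ⟨y, ε, hy, hε, hs, ⟨ε, hε, hs, A₂, P₂, h1, h2⟩, ⟨?_, ?_⟩, ⟨?_, ?_⟩⟩
  · intro u hu
    refine (h1.an u hu).congr ?_
    filter_upwards [((isOpen_Str y).prod isOpen_ball).mem_nhds hu] with x hx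
    exact (gl_eq hr h1 hs hx.1 hx.2).symm
  · intro t v ht htr hv
    rw [gl_eq hr h1 hs ht hv]
    exact h1.eq t v ht htr hv
  · intro u hu
    refine (h2.an u hu).congr ?_
    filter_upwards [((isOpen_Str y).prod isOpen_ball).mem_nhds hu] with x hx
    exact (gl_eq hr h2 hs hx.1 hx.2).symm
  · intro t v ht htr hv
    rw [gl_eq hr h2 hs ht hv]
    exact h2.eq t v ht htr hv

theorem isOpen_DmRh : IsOpen (Dm (Rh α p r e₁ B) e₁) := by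
  rw [Metric.isOpen_iff]
  rintro ⟨t, w⟩ ⟨h1, h2⟩
  simp only [] at h1 h2
  obtain ⟨y, hy, hyB, hE⟩ := exists_of_lt (abs_nonneg _) h1
  obtain ⟨ε, hε, hn⟩ := hE.near
  obtain ⟨δ, hδ, hδs⟩ := Metric.isOpen_iff.1 ((isOpen_Str y).prod (isOpen_ball (x := w) (ε := ε)))
    (t, w) ⟨hy, mem_ball_self hε⟩
  obtain ⟨δ', hδ', hδs'⟩ := Metric.isOpen_iff.1 (isOpen_lt (continuous_norm.comp
    (continuous_snd (X := ℂ) (Y := ℂ))) (continuous_const (y := e₁))) (t, w) h2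
  refine ⟨min δ δ', lt_min hδ hδ', fun z hz => ⟨?_, ?_⟩⟩
  · have h3 := hδs (ball_subset_ball (min_le_left _ _) hz)
    exact lt_of_lt_of_le h3.1 (le_Rh hyB (hn _ h3.2))
  · exact hδs' (ball_subset_ball (min_le_right _ _) hz)

theorem lsc_Rh (hB : 0 < B) (hr : 0 < r)
    (hlow : ∀ w : ℂ, ‖w‖ < e₁ → 0 < Rh α p r e₁ B w) :
    LowerSemicontinuousOn (Rh α p r e₁ B) (ball 0 e₁) := by
  intro w hw y hy
  have hw' : ‖w‖ < e₁ := by simpa using hw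
  rcases lt_or_ge y 0 with h0 | h0
  · filter_upwards [self_mem_nhdsWithin] with v hv
    exact lt_of_lt_of_le h0 (Rh_nonneg _)
  · obtain ⟨y', hy', hyB, hE⟩ := exists_of_lt h0 hy
    obtain ⟨ε, hε, hn⟩ := hE.near
    filter_upwards [mem_nhdsWithin_of_mem_nhds (ball_mem_nhds w hε)] with v hv
    exact lt_of_lt_of_le hy' (le_Rh hyB (hn _ hv))

end

section
variable {κ Λ : ℝ} {H Φ : ℂ → ℂ} {e : ℝ} {α p : ℂ → ℂ → ℂ} {J : ℂ → ℂ} {e₁ B : ℝ}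

/-- the lines themselves are an extension -/
theorem Ex1_self (hr : 0 < r) {f : ℂ → ℂ → ℂ} (hf : JD f (WW 0 r e)) (he : e₁ ≤ e) {w : ℂ} {ε : ℝ}
    (hs : ball w ε ⊆ ball 0 e₁) : Ex1 f r r ε w (fun u => f u.1 u.2) := by
  refine ⟨?_, fun t v _ _ _ => rfl⟩
  have h1 : AnalyticOnNhd ℂ (fun u : ℂ × ℂ => f u.1 u.2) (WW 0 r e) :=
    Hol.analyticOnNhd_of_differentiableOn (isOpen_WW _ _ _) hf
  refine h1.mono ?_
  rintro ⟨t, v⟩ ⟨h2, h3⟩
  have h4 : v ∈ ball (0 : ℂ) e₁ := hs h3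
  have h5 : ‖v‖ < e₁ := by simpa using h4
  refine ⟨lt_of_lt_of_le h5 he, ?_⟩
  have h6 : |t.im| < r := h2
  simpa using h6

theorem Rh_low (N : Lines κ Λ H Φ r e α p J) (hB : 0 < B) (he : e₁ ≤ e) {w : ℂ}
    (hw : ‖w‖ < e₁) : min r B ≤ Rh α p r e₁ B w := by
  obtain ⟨ε, hε, hs⟩ := Metric.isOpen_iff.1 (isOpen_ball (x := (0 : ℂ)) (ε := e₁)) w
    (by simpa using hw)
  refine le_Rh (min_le_right _ _) ⟨ε, hε, hs, _, _,
    (Ex1_self N.hr N.jα he hs).restrict (min_le_left _ _) le_rfl,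
    (Ex1_self N.hr N.jp he hs).restrict (min_le_left _ _) le_rfl⟩

theorem Rh_pos (N : Lines κ Λ H Φ r e α p J) (hB : 0 < B) (he : e₁ ≤ e) {w : ℂ}
    (hw : ‖w‖ < e₁) : 0 < Rh α p r e₁ B w :=
  lt_of_lt_of_le (lt_min N.hr hB) (Rh_low N hB he hw)

/-- **the maximal domain** -/
theorem Rd_Rh (N : Lines κ Λ H Φ r e α p J) (hB : 0 < B) (he0 : 0 < e₁) (he : e₁ ≤ e) :
    Rd α p (Rh α p r e₁ B) e₁ (gl α r e₁) (gl p r e₁) := by
  refine ⟨he0, fun w hw => Rh_pos N hB he hw, isOpen_DmRh, ?_, ?_, ?_⟩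
  · rintro ⟨t, w⟩ ⟨h1, h2⟩
    obtain ⟨y, ε, hy, hε, hs, -, h3, h4⟩ := gl_ex N.hr h1
    exact h3.an _ ⟨hy, mem_ball_self hε⟩
  · rintro ⟨t, w⟩ ⟨h1, h2⟩
    obtain ⟨y, ε, hy, hε, hs, -, h3, h4⟩ := gl_ex N.hr h1
    exact h4.an _ ⟨hy, mem_ball_self hε⟩
  · intro t
    have h0 : |((t : ℂ), (0 : ℂ)).1.im| < Rh α p r e₁ B ((t : ℂ), (0 : ℂ)).2 := by
      show |(t : ℂ).im| < _
      rw [ofReal_im, abs_zero]
      exact Rh_pos N hB he (by simpa using he0)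
    obtain ⟨y, ε, hy, hε, hs, -, h3, h4⟩ := gl_ex N.hr h0
    have h5 : ((t : ℂ), (0 : ℂ)) ∈ (Str y ∩ Str r) ×ˢ ball (0 : ℂ) ε :=
      ⟨⟨hy, real_mem_Str N.hr t⟩, mem_ball_self hε⟩
    filter_upwards [(((isOpen_Str y).inter (isOpen_Str r)).prod isOpen_ball).mem_nhds h5] with u hu
    exact ⟨h3.eq u.1 u.2 hu.1.1 hu.1.2 hu.2, h4.eq u.1 u.2 hu.1.1 hu.1.2 hu.2⟩

/-- the glued functions agree with the lines -/
theorem gl_self (N : Lines κ Λ H Φ r e α p J) (he : e₁ ≤ e) {t w : ℂ} (ht : |t.im| < r)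
    (hw : ‖w‖ < e₁) : gl α r e₁ (t, w) = α t w ∧ gl p r e₁ (t, w) = p t w := by
  obtain ⟨ε, hε, hs⟩ := Metric.isOpen_iff.1 (isOpen_ball (x := (0 : ℂ)) (ε := e₁)) w
    (by simpa using hw)
  exact ⟨gl_eq N.hr (Ex1_self N.hr N.jα he hs) hs ht (mem_ball_self hε),
    gl_eq N.hr (Ex1_self N.hr N.jp he hs) hs ht (mem_ball_self hε)⟩

/-- **maximality** -/
theorem Rh_max (N : Lines κ Λ H Φ r e α p J) (hB : 0 < B) (he : e₁ ≤ e) {w : ℂ} {b' : ℝ}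
    (h : ExtL (Rh α p r e₁ B) e₁ (gl α r e₁) (gl p r e₁) w b') :
    min b' B ≤ Rh α p r e₁ B w := by
  obtain ⟨ε, hε, hs, A₂, P₂, a1, a2, h3⟩ := h
  -- the extension agrees with the lines on the smaller strip
  set m := min r B with hm
  have hm0 : 0 < m := lt_min N.hr hB
  have key : ∀ {f : ℂ → ℂ → ℂ} {g : ℂ × ℂ → ℂ}, JD f (WW 0 r e) →
      AnalyticOnNhd ℂ g (Str b' ×ˢ ball w ε) →
      (∀ t v : ℂ, t ∈ Str b' → t ∈ Str r → t ∈ Str m → v ∈ ball w ε → g (t, v) = f t v) →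
      Ex1 f r b' ε w g := by
    intro f g hf hg h
    refine ⟨hg, fun t v ht htr hv => ?_⟩
    have hb' : 0 < b' := lt_of_le_of_lt (abs_nonneg _) ht
    set m' := min b' r with hm'
    have hm'0 : 0 < m' := lt_min hb' N.hr
    have b1 : AnalyticOnNhd ℂ (fun t => g (t, v)) (Str m') :=
      (slice_an hg hv).mono (Str_mono (min_le_left _ _))
    have b2 : AnalyticOnNhd ℂ (fun t => f t v) (Str m') :=
      (slice_an (Ex1_self N.hr hf he hs).an hv).mono (Str_mono (min_le_right _ _))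
    have h0 : (0 : ℂ) ∈ Str m' := by simpa using real_mem_Str hm'0 0
    have h0m : (0 : ℂ) ∈ Str m := by simpa using real_mem_Str hm0 0
    have he : (fun t => g (t, v)) =ᶠ[𝓝 0] fun t => f t v := by
      filter_upwards [(isOpen_Str m').mem_nhds h0, (isOpen_Str m).mem_nhds h0m] with x hx hxm
      exact h x v (Str_mono (min_le_left _ _) hx) (Str_mono (min_le_right _ _) hx) hxm hv
    exact b1.eqOn_of_preconnected_of_eventuallyEq b2 (convex_Str m').isPreconnected h0 he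
      (show |t.im| < m' from lt_min ht htr)
  have hE : ExS α p r e₁ w b' := by
    refine ⟨ε, hε, hs, A₂, P₂, key N.jα a1 ?_, key N.jp a2 ?_⟩
    · intro t v ht htr htm hv
      have hv' : ‖v‖ < e₁ := by simpa using hs hv
      rw [(h3 t v ht hv (lt_of_lt_of_le htm (Rh_low N hB he hv'))).1]
      exact (gl_self N he htr hv').1
    · intro t v ht htr htm hv
      have hv' : ‖v‖ < e₁ := by simpa using hs hv
      rw [(h3 t v ht hv (lt_of_lt_of_le htm (Rh_low N hB he hv'))).2]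
      exact (gl_self N he htr hv').2
  exact le_Rh (min_le_right _ _) (hE.anti (min_le_left _ _))

/-- the height is even -/
theorem Rh_neg (N : Lines κ Λ H Φ r e α p J) (he : e₁ ≤ e) (w : ℂ) :
    Rh α p r e₁ B (-w) = Rh α p r e₁ B w := by
  have hb : ∀ (w v : ℂ) (ε : ℝ), v ∈ ball (-w) ε → -v ∈ ball w ε := by
    intro w v ε hv
    rw [mem_ball, dist_eq_norm] at hv ⊢
    rw [← norm_neg]
    rwa [show -(-v - w) = v - -w by ring]
  have h1 : ∀ {f : ℂ → ℂ → ℂ}, (∀ t w : ℂ, (t, w) ∈ WW 0 r e → f t (-w) = f t w) →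
      ∀ {w : ℂ} {y ε : ℝ} {g : ℂ × ℂ → ℂ}, ball w ε ⊆ ball 0 e₁ → Ex1 f r y ε w g →
      Ex1 f r y ε (-w) (fun u => g (u.1, -u.2)) := by
    intro f hf w y ε g hs h
    refine ⟨?_, ?_⟩
    · rintro ⟨t, v⟩ ⟨ht, hv⟩
      exact (h.an (t, -v) ⟨ht, hb w v ε hv⟩).comp_of_eq (f := fun u : ℂ × ℂ => (u.1, -u.2))
        (analyticAt_fst.prod analyticAt_snd.neg) rfl
    · intro t v ht htr hv
      have hv' := hb w v ε hv
      have h3 : ‖v‖ < e₁ := by simpa using hs hv'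
      show g (t, -v) = f t v
      rw [h.eq t (-v) ht htr hv']
      have htr' : |t.im| < r := htr
      exact hf t v ⟨lt_of_lt_of_le h3 he, by simpa using htr'⟩
  have h2 : ∀ w y, ExS α p r e₁ w y → ExS α p r e₁ (-w) y := by
    rintro w y ⟨ε, hε, hs, A₂, P₂, k1, k2⟩
    refine ⟨ε, hε, fun v hv => ?_, _, _, h1 N.αev hs k1, h1 N.pev hs k2⟩
    have := hs (hb w v ε hv)
    simpa using this
  have h3 : {y | 0 < y ∧ y ≤ B ∧ ExS α p r e₁ (-w) y} = {y | 0 < y ∧ y ≤ B ∧ ExS α p r e₁ w y} := by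
    ext y
    refine ⟨fun h => ⟨h.1, h.2.1, ?_⟩, fun h => ⟨h.1, h.2.1, h2 w y h.2.2⟩⟩
    have := h2 (-w) y h.2.2
    rwa [neg_neg] at this
  rw [Rh, h3, Rh]

/-- the height is symmetric -/
theorem Rh_conj (N : Lines κ Λ H Φ r e α p J) (he : e₁ ≤ e) (w : ℂ) :
    Rh α p r e₁ B (conj w) = Rh α p r e₁ B w := by
  have hb : ∀ (w v : ℂ) (ε : ℝ), v ∈ ball (conj w) ε → conj v ∈ ball w ε := by
    intro w v ε hv
    rw [mem_ball, dist_eq_norm] at hv ⊢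
    rw [← norm_conj]
    rwa [map_sub, Complex.conj_conj]
  have h1 : ∀ {f : ℂ → ℂ → ℂ}, (∀ t w : ℂ, (t, w) ∈ WW 0 r e → f (conj t) (conj w) =
      conj (f t w)) →
      ∀ {w : ℂ} {y ε : ℝ} {g : ℂ × ℂ → ℂ}, ball w ε ⊆ ball 0 e₁ → Ex1 f r y ε w g →
      Ex1 f r y ε (conj w) (fun u => conj (g (conj u.1, conj u.2))) := by
    intro f hf w y ε g hs h
    refine ⟨?_, ?_⟩
    · refine an_conj ((isOpen_Str y).prod isOpen_ball) h.an ((isOpen_Str y).prod isOpen_ball) ?_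
      rintro ⟨t, v⟩ ⟨ht, hv⟩
      exact ⟨Str_conj' ht, hb w v ε hv⟩
    · intro t v ht htr hv
      have hv' := hb w v ε hv
      have h3 : ‖v‖ < e₁ := by simpa using hs hv'
      show conj (g (conj t, conj v)) = f t v
      have htr' : |t.im| < r := htr
      rw [h.eq (conj t) (conj v) (Str_conj' ht) (Str_conj' htr) hv', hf t v
        ⟨lt_of_lt_of_le h3 he, by simpa using htr'⟩, Complex.conj_conj]
  have h2 : ∀ w y, ExS α p r e₁ w y → ExS α p r e₁ (conj w) y := by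
    rintro w y ⟨ε, hε, hs, A₂, P₂, k1, k2⟩
    refine ⟨ε, hε, fun v hv => ?_, _, _, h1 N.αre hs k1, h1 N.pre hs k2⟩
    have := hs (hb w v ε hv)
    simpa using this
  have h3 : {y | 0 < y ∧ y ≤ B ∧ ExS α p r e₁ (conj w) y} =
      {y | 0 < y ∧ y ≤ B ∧ ExS α p r e₁ w y} := by
    ext y
    refine ⟨fun h => ⟨h.1, h.2.1, ?_⟩, fun h => ⟨h.1, h.2.1, h2 w y h.2.2⟩⟩
    have := h2 (conj w) y h.2.2
    rwa [Complex.conj_conj] at this
  rw [Rh, h3, Rh]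

/-- the glued functions are even in the label -/
theorem gl_neg (N : Lines κ Λ H Φ r e α p J) (hB : 0 < B) (he0 : 0 < e₁) (he : e₁ ≤ e) {t w : ℂ}
    (ht : |t.im| < Rh α p r e₁ B w) (hw : ‖w‖ < e₁) :
    gl α r e₁ (t, -w) = gl α r e₁ (t, w) ∧ gl p r e₁ (t, -w) = gl p r e₁ (t, w) := by
  have T := Rd_Rh N hB he0 he
  have hneg : ∀ u ∈ Dm (Rh α p r e₁ B) e₁, (u.1, -u.2) ∈ Dm (Rh α p r e₁ B) e₁ := by
    rintro ⟨t, w⟩ ⟨h1, h2⟩
    refine ⟨?_, ?_⟩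
    · show |t.im| < Rh α p r e₁ B (-w)
      rw [Rh_neg N he]; exact h1
    · show ‖-w‖ < e₁
      rw [norm_neg]; exact h2
  have sh : ∀ {f : ℂ × ℂ → ℂ}, AnalyticOnNhd ℂ f (Dm (Rh α p r e₁ B) e₁) →
      AnalyticOnNhd ℂ (fun u : ℂ × ℂ => f (u.1, -u.2)) (Dm (Rh α p r e₁ B) e₁) := by
    intro f hf u hu
    exact (hf (u.1, -u.2) (hneg u hu)).comp_of_eq (f := fun u : ℂ × ℂ => (u.1, -u.2))
      (analyticAt_fst.prod analyticAt_snd.neg) rfl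
  have hev : ∀ᶠ u in 𝓝 ((0 : ℂ), (0 : ℂ)), |u.1.im| < r ∧ ‖u.2‖ < e₁ := by
    have h1 : IsOpen {u : ℂ × ℂ | |u.1.im| < r ∧ ‖u.2‖ < e₁} :=
      (isOpen_lt (continuous_abs.comp (Complex.continuous_im.comp continuous_fst))
        continuous_const).inter (isOpen_lt (continuous_norm.comp continuous_snd) continuous_const)
    exact h1.mem_nhds ⟨by simpa using N.hr, by simpa using he0⟩
  constructor
  · refine T.eqOn (sh T.aA) T.aA ?_ (show (t, w) ∈ Dm (Rh α p r e₁ B) e₁ from ⟨ht, hw⟩)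
    filter_upwards [hev] with u hu
    show gl α r e₁ (u.1, -u.2) = gl α r e₁ (u.1, u.2)
    rw [(gl_self N he hu.1 (by rw [norm_neg]; exact hu.2)).1, (gl_self N he hu.1 hu.2).1]
    exact N.αev u.1 u.2 ⟨lt_of_lt_of_le hu.2 he, by simpa using hu.1⟩
  · refine T.eqOn (sh T.aP) T.aP ?_ (show (t, w) ∈ Dm (Rh α p r e₁ B) e₁ from ⟨ht, hw⟩)
    filter_upwards [hev] with u hu
    show gl p r e₁ (u.1, -u.2) = gl p r e₁ (u.1, u.2)
    rw [(gl_self N he hu.1 (by rw [norm_neg]; exact hu.2)).2, (gl_self N he hu.1 hu.2).2]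
    exact N.pev u.1 u.2 ⟨lt_of_lt_of_le hu.2 he, by simpa using hu.1⟩

end

end Vale.Agent.P097.CC
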