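import Vale.Agent.P097.H286.C.Punct
import Vale.Agent.P097.H456.Edge.Mono

/-! # P097 (helper286) / case [c], row R0.1: abstract lifting theorem, meromorphic data -/

set_option linter.all false
set_option autoImplicit false

open Complex Set Filter Metric Topology

namespace Vale.Agent.P097.H286

variable {ι : Type*} [Finite ι]

/-- positions with values in the strip -/
def PC (G : ι → ℂ → ℂ) (H : ℝ) (f : ι → ℂ → ℂ) (m : ℂ → ℂ) (U : Set ℂ) (θ : ℂ → ℂ) : Prop :=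
  DifferentiableOn ℂ θ U ∧ MapsTo θ U (St H) ∧ (∃ t ∈ U, deriv θ t ≠ 0) ∧
    ∀ t ∈ U, ∀ᶠ s in 𝓝[≠] t, (∀ i, f i s = G i (θ s)) ∧ deriv θ s ^ 6 = m s

/-- a property valid in a punctured neighbourhood is valid near some point -/
theorem exists_near {P : ℂ → Prop} {x : ℂ} (h : ∀ᶠ s in 𝓝[≠] x, P s) {V : Set ℂ}
    (hV : IsOpen V) (hx : x ∈ V) (τ : ℂ) : ∃ t ∈ V, t ≠ τ ∧ ∀ᶠ s in 𝓝 t, P s := by
  have h1 : ∀ᶠ s in 𝓝[≠] x, P s ∧ s ∈ V := h.and (mem_nhdsWithin_of_mem_nhds (hV.mem_nhds hx))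
  obtain ⟨r, hr, hb⟩ := Metric.mem_nhdsWithin_iff.1 h1
  -- a point of the punctured ball different from `τ`
  have hpt : ∃ t ∈ ball x r, t ≠ x ∧ t ≠ τ := by
    have ha : x + ((r / 2 : ℝ) : ℂ) ∈ ball x r := by
      rw [mem_ball, dist_eq_norm, add_sub_cancel_left, Complex.norm_real, Real.norm_eq_abs,
        abs_of_pos (by positivity)]
      linarith
    have hb' : x + ((r / 3 : ℝ) : ℂ) ∈ ball x r := by
      rw [mem_ball, dist_eq_norm, add_sub_cancel_left, Complex.norm_real, Real.norm_eq_abs,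
        abs_of_pos (by positivity)]
      linarith
    have ha0 : x + ((r / 2 : ℝ) : ℂ) ≠ x := by
      intro h
      have : ((r / 2 : ℝ) : ℂ) = 0 := by linear_combination h
      rw [ofReal_eq_zero] at this
      linarith
    have hb0 : x + ((r / 3 : ℝ) : ℂ) ≠ x := by
      intro h
      have : ((r / 3 : ℝ) : ℂ) = 0 := by linear_combination h
      rw [ofReal_eq_zero] at this
      linarith
    by_cases hτ : x + ((r / 2 : ℝ) : ℂ) = τ
    · refine ⟨_, hb', hb0, fun h => ?_⟩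
      have h2 : ((r / 2 : ℝ) : ℂ) = ((r / 3 : ℝ) : ℂ) := by linear_combination hτ - h
      rw [ofReal_inj] at h2
      linarith
    · exact ⟨_, ha, ha0, hτ⟩
  obtain ⟨t, ht, htx, htτ⟩ := hpt
  have hin : ∀ s ∈ ball x r, s ≠ x → P s ∧ s ∈ V := fun s hs hsx => hb ⟨hs, hsx⟩
  refine ⟨t, (hin t ht htx).2, htτ, ?_⟩
  filter_upwards [isOpen_ball.mem_nhds ht, isOpen_ne.mem_nhds htx] with s h1 h2 using (hin s h1 h2).1

theorem PC.res' {G : ι → ℂ → ℂ} {H : ℝ} {f : ι → ℂ → ℂ} {m : ℂ → ℂ} {U V : Set ℂ} {θ : ℂ → ℂ}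
    (h : PC G H f m U θ) (hU : IsOpen U) (hUc : IsPreconnected U) (hV : IsOpen V)
    (hVn : V.Nonempty) (hVU : V ⊆ U) : PC G H f m V θ := by
  obtain ⟨h1, h2, ⟨t, ht, htd⟩, h3⟩ := h
  refine ⟨h1.mono hVU, h2.mono_left hVU, ?_, fun s hs => h3 s (hVU hs)⟩
  by_contra hcon
  push Not at hcon
  obtain ⟨x, hx⟩ := hVn
  have h4 := ((h1.deriv hU).analyticOnNhd hU).eqOn_zero_of_preconnected_of_eventuallyEq_zero hUc
    (hVU hx) (by filter_upwards [hV.mem_nhds hx] with s hs using hcon s hs)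
  exact htd (h4 ht)

theorem PC.congr {G : ι → ℂ → ℂ} {H : ℝ} {f : ι → ℂ → ℂ} {m : ℂ → ℂ} {U : Set ℂ} {θ θ' : ℂ → ℂ}
    (hU : IsOpen U) (h : PC G H f m U θ) (he : EqOn θ θ' U) : PC G H f m U θ' := by
  obtain ⟨h1, h2, ⟨t, ht, htd⟩, h3⟩ := h
  have hde : ∀ t ∈ U, deriv θ' t = deriv θ t := by
    intro t ht
    have : θ' =ᶠ[𝓝 t] θ := by
      filter_upwards [hU.mem_nhds ht] with s hs using (he hs).symm
    exact this.deriv_eq
  refine ⟨h1.congr fun x hx => (he hx).symm, fun x hx => by rw [← he hx]; exact h2 hx,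
    ⟨t, ht, by rw [hde t ht]; exact htd⟩, fun s hs => ?_⟩
  filter_upwards [h3 s hs, mem_nhdsWithin_of_mem_nhds (hU.mem_nhds hs)] with x hx hxU
  rw [← he hxU, hde x hxU]; exact hx

theorem cls_PC (G : ι → ℂ → ℂ) (H : ℝ) (f : ι → ℂ → ℂ) (m : ℂ → ℂ) :
    H456.Edge.Cls (PC G H f m) where
  df := fun U f h => h.1
  res := fun U V f h hU hUc hV hVc hVn hVU => h.res' hU hUc.isPreconnected hV hVn hVU
  glue := by
    rintro U V f hU hV ⟨h1, h2, ⟨t, ht, htd⟩, h3⟩ ⟨h1', h2', -, h3'⟩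
    refine ⟨?_, ?_, ⟨t, Or.inl ht, htd⟩, ?_⟩
    · rintro x (hx | hx)
      · exact (h1.differentiableAt (hU.mem_nhds hx)).differentiableWithinAt
      · exact (h1'.differentiableAt (hV.mem_nhds hx)).differentiableWithinAt
    · rintro x (hx | hx)
      · exact h2 hx
      · exact h2' hx
    · rintro x (hx | hx)
      · exact h3 x hx
      · exact h3' x hx
  congr := fun U f g hU h he => h.congr hU he
  res' := fun U V f h hU hUc hV hVn hVU => h.res' hU hUc hV hVn hVU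
  loc := by
    intro U f hU hUn hf hloc
    refine ⟨hf, fun t ht => ?_, ?_, fun t ht => ?_⟩
    · obtain ⟨V, -, hx, -, -, h2, -⟩ := hloc t ht
      exact h2 hx
    · obtain ⟨x, hx⟩ := hUn
      obtain ⟨V, -, -, hVU, -, -, ⟨t, ht, htd⟩, -⟩ := hloc x hx
      exact ⟨t, hVU ht, htd⟩
    · obtain ⟨V, -, hx, -, -, -, -, h3⟩ := hloc t ht
      exact h3 t hx

/-- **local extension** -/
theorem locExt_PC {G : ι → ℂ → ℂ} {H : ℝ} (hB : Base H G) {f : ι → ℂ → ℂ} {m : ℂ → ℂ}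
    {W : Set ℂ} (hW : IsOpen W) (hf : ∀ i, MeromorphicOn (f i) W) (hm : MeromorphicOn m W) :
    H456.Edge.LocExt (PC G H f m) W := by
  intro τ hτ
  have h1 : ∀ᶠ s in 𝓝[≠] τ, (∀ i, AnalyticAt ℂ (f i) s) ∧ AnalyticAt ℂ m s ∧ s ∈ W := by
    filter_upwards [eventually_all.2 fun i => (hf i τ hτ).eventually_analyticAt,
      (hm τ hτ).eventually_analyticAt, mem_nhdsWithin_of_mem_nhds (hW.mem_nhds hτ)] with s a b c
      using ⟨a, b, c⟩
  have h2 : (∀ᶠ s in 𝓝[≠] τ, m s = 0) ∨ ∀ᶠ s in 𝓝[≠] τ, m s ≠ 0 :=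
    (hm τ hτ).eventually_eq_zero_or_eventually_ne_zero
  -- common radius
  have h3 : ∃ ρ > 0, ball τ ρ ⊆ W ∧ (∀ s ∈ ball τ ρ, s ≠ τ → (∀ i, AnalyticAt ℂ (f i) s) ∧
      AnalyticAt ℂ m s) ∧ ((∀ s ∈ ball τ ρ, s ≠ τ → m s = 0) ∨
      ∀ s ∈ ball τ ρ, s ≠ τ → m s ≠ 0) := by
    rcases h2 with h2 | h2
    · obtain ⟨ρ, hρ, hb⟩ := Metric.mem_nhdsWithin_iff.1 (h1.and h2)
      have hb' : ∀ s ∈ ball τ ρ, s ≠ τ → ((∀ i, AnalyticAt ℂ (f i) s) ∧ AnalyticAt ℂ m s ∧ s ∈ W) ∧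
          m s = 0 := fun s hs hs' => hb ⟨hs, hs'⟩
      refine ⟨ρ, hρ, fun s hs => ?_, fun s hs hs' => ⟨(hb' s hs hs').1.1, (hb' s hs hs').1.2.1⟩,
        Or.inl fun s hs hs' => (hb' s hs hs').2⟩
      by_cases hs' : s = τ
      · rw [hs']; exact hτ
      · exact (hb' s hs hs').1.2.2
    · obtain ⟨ρ, hρ, hb⟩ := Metric.mem_nhdsWithin_iff.1 (h1.and h2)
      have hb' : ∀ s ∈ ball τ ρ, s ≠ τ → ((∀ i, AnalyticAt ℂ (f i) s) ∧ AnalyticAt ℂ m s ∧ s ∈ W) ∧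
          m s ≠ 0 := fun s hs hs' => hb ⟨hs, hs'⟩
      refine ⟨ρ, hρ, fun s hs => ?_, fun s hs hs' => ⟨(hb' s hs hs').1.1, (hb' s hs hs').1.2.1⟩,
        Or.inr fun s hs hs' => (hb' s hs hs').2⟩
      by_cases hs' : s = τ
      · rw [hs']; exact hτ
      · exact (hb' s hs hs').1.2.2
  obtain ⟨ρ, hρ, hρW, hρa, hρm⟩ := h3
  refine ⟨ρ, hρ, hρW, fun V θ hV hVc hVn hVb hθ => ?_⟩
  obtain ⟨hθd, hθS, ⟨y, hyV, hyd⟩, hθr⟩ := hθ
  -- the first alternative is impossible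
  have hyc : ∀ᶠ s in 𝓝 y, deriv θ s ≠ 0 :=
    ((hθd.deriv hV).differentiableAt (hV.mem_nhds hyV)).continuousAt.eventually_ne hyd
  obtain ⟨t₁, ht₁V, ht₁τ, ht₁⟩ := exists_near ((hθr y hyV).and
    (hyc.filter_mono nhdsWithin_le_nhds)) hV hyV τ
  have hm0 : ∀ s ∈ ball τ ρ, s ≠ τ → m s ≠ 0 := by
    rcases hρm with h | h
    · exfalso
      have h4 := ht₁.self_of_nhds
      have h5 := h t₁ (hVb ht₁V) ht₁τ
      rw [h5] at h4
      exact pow_ne_zero 6 h4.2 h4.1.2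
    · exact h
  have hpo : IsOpen (ball τ ρ \ {τ}) := isOpen_ball.sdiff isClosed_singleton
  obtain ⟨θ', hθ'd, hθ'S, hθ'e, hθ'r, hθ'm⟩ := ext_punct hB hρ (f := f)
    (fun i s hs => ((hρa s hs.1 hs.2).1 i).differentiableAt.differentiableWithinAt) (m := m)
    (fun s hs => (hρa s hs.1 hs.2).2.differentiableAt.differentiableWithinAt)
    (fun s hs => hm0 s hs.1 hs.2) (t₁ := t₁) ⟨hVb ht₁V, ht₁τ⟩ (θ := θ)
    (hθd.analyticAt (hV.mem_nhds ht₁V)) (hθS ht₁V)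
    (by filter_upwards [ht₁] with s hs using hs.1.2)
    (fun i => by filter_upwards [ht₁] with s hs using hs.1.1 i)
  refine ⟨θ', ⟨hθ'd, hθ'S, ⟨t₁, hVb ht₁V, ?_⟩, fun t ht => ?_⟩, ?_⟩
  · intro h0
    have h4 := hθ'm t₁ ⟨hVb ht₁V, ht₁τ⟩
    rw [h0] at h4
    exact hm0 t₁ (hVb ht₁V) ht₁τ (by rw [← h4]; norm_num)
  · have hneτ : ∀ᶠ s in 𝓝[≠] t, s ≠ τ := by
      by_cases h : t = τ
      · rw [h]; exact self_mem_nhdsWithin
      · exact mem_nhdsWithin_of_mem_nhds (isOpen_ne.mem_nhds h)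
    filter_upwards [hneτ, mem_nhdsWithin_of_mem_nhds (isOpen_ball.mem_nhds ht)] with s h4 h5
    exact ⟨hθ'r s ⟨h5, h4⟩, hθ'm s ⟨h5, h4⟩⟩
  · exact ((hθ'd.mono hVb).analyticOnNhd hV).eqOn_of_preconnected_of_eventuallyEq
      (hθd.analyticOnNhd hV) hVc.isPreconnected ht₁V hθ'e

/-- **lifting on convex domains, meromorphic data** -/
theorem lift_mer {G : ι → ℂ → ℂ} {H : ℝ} (hB : Base H G) {f : ι → ℂ → ℂ} {m : ℂ → ℂ}
    {W : Set ℂ} (hW : IsOpen W) (hWc : Convex ℝ W) (hf : ∀ i, MeromorphicOn (f i) W)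
    (hm : MeromorphicOn m W) {t₀ : ℂ} {θ : ℂ → ℂ} (ht₀ : t₀ ∈ W) (hθ : AnalyticAt ℂ θ t₀)
    (hS : θ t₀ ∈ St H) (hnc : ¬ ∀ᶠ t in 𝓝 t₀, θ t = θ t₀)
    (hr : ∀ᶠ t in 𝓝 t₀, (∀ i, f i t = G i (θ t)) ∧ deriv θ t ^ 6 = m t) :
    ∃ θ' : ℂ → ℂ, PC G H f m W θ' ∧ θ' =ᶠ[𝓝 t₀] θ := by
  have hall : ∀ᶠ t in 𝓝 t₀, AnalyticAt ℂ θ t ∧ t ∈ W ∧ θ t ∈ St H ∧
      ((∀ i, f i t = G i (θ t)) ∧ deriv θ t ^ 6 = m t) := by
    filter_upwards [hθ.eventually_analyticAt, hW.mem_nhds ht₀,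
      hθ.continuousAt.eventually_mem ((isOpen_St H).mem_nhds hS), hr] with t a b c d
      using ⟨a, b, c, d⟩
  obtain ⟨r, hr0, hrb⟩ := Metric.eventually_nhds_iff_ball.1 hall
  have hd : DifferentiableOn ℂ θ (ball t₀ r) := fun t ht =>
    (hrb t ht).1.differentiableAt.differentiableWithinAt
  have hn : ∃ t ∈ ball t₀ r, deriv θ t ≠ 0 := by
    by_contra hcon
    push Not at hcon
    apply hnc
    filter_upwards [isOpen_ball.mem_nhds (mem_ball_self hr0)] with t ht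
    refine H456.Edge.const_of_deriv (convex_ball t₀ r) isOpen_ball (fun z hz => ?_) ht
      (mem_ball_self hr0)
    rw [← hcon z hz]
    exact (hd.differentiableAt (isOpen_ball.mem_nhds hz)).hasDerivAt
  have hG : PC G H f m (ball t₀ r) θ := ⟨hd, fun t ht => (hrb t ht).2.2.1, hn, fun t ht => by
    filter_upwards [mem_nhdsWithin_of_mem_nhds (isOpen_ball.mem_nhds ht)] with s hs
    exact (hrb s hs).2.2.2⟩
  exact H456.Edge.mono (cls_PC G H f m) hW hWc (locExt_PC hB hW hf hm) (f₀ := θ) ht₀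
    ⟨ball t₀ r, θ, isOpen_ball, convex_ball _ _, by
      rw [segment_same]; exact singleton_subset_iff.2 (mem_ball_self hr0),
      fun t ht => (hrb t ht).2.1, hG, EventuallyEq.rfl⟩

end Vale.Agent.P097.H286
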