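import Vale.Agent.P097.H286.C.Core
import Vale.Agent.P097.H202.Prim
import Vale.Agent.P097.H456.Edge.Loc2

/-! # P097 (helper286) / case [c], row R0: continuation through an isolated point -/

set_option linter.all false
set_option autoImplicit false

open Complex Set Filter Metric Topology Function.Periodic

namespace Vale.Agent.P097.H286

variable {ι : Type*}

theorem exists_root {S : Set ℂ} (hS : IsOpen S) (hc : Convex ℝ S) {h : ℂ → ℂ}
    (hh : DifferentiableOn ℂ h S) (h0 : ∀ z ∈ S, h z ≠ 0) {z₁ : ℂ} (hz₁ : z₁ ∈ S) {c : ℂ}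
    (hcz : c ^ 6 = h z₁) :
    ∃ k : ℂ → ℂ, DifferentiableOn ℂ k S ∧ (∀ z ∈ S, k z ^ 6 = h z) ∧ k z₁ = c := by
  obtain ⟨L, hL⟩ := H202.prim_convex hS hc ((hh.deriv hS).div hh h0)
  have hd : ∀ z ∈ S, HasDerivAt (fun z => h z * exp (-L z)) 0 z := by
    intro z hz
    have h1 := (hh.differentiableAt (hS.mem_nhds hz)).hasDerivAt.mul (hL z hz).neg.cexp
    have h2 : deriv h z * exp (-L z) + h z * (exp (-L z) * -((deriv h / h) z)) = 0 := by
      have := h0 z hz
      rw [Pi.div_apply]
      field_simp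
      ring
    rw [← h2]
    exact h1
  have hconst : ∀ z ∈ S, h z * exp (-L z) = h z₁ * exp (-L z₁) := fun z hz =>
    H456.Edge.const_of_deriv hc hS hd hz hz₁
  refine ⟨fun z => c * exp ((L z - L z₁) / 6), ?_, fun z hz => ?_, ?_⟩
  · intro z hz
    exact (((hL z hz).differentiableAt.sub_const _).div_const 6).cexp.const_mul c
      |>.differentiableWithinAt
  · show (c * exp ((L z - L z₁) / 6)) ^ 6 = h z
    rw [mul_pow, hcz, ← exp_nat_mul]
    have e1 : ((6 : ℕ) : ℂ) * ((L z - L z₁) / 6) = L z + -L z₁ := by push_cast; ring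
    rw [e1, exp_add]
    have h1 := hconst z hz
    have h2 : exp (-L z) * exp (L z) = 1 := by rw [← exp_add]; simp
    linear_combination (-exp (L z)) * h1 + h z * h2
  · show c * exp ((L z₁ - L z₁) / 6) = c
    rw [sub_self, zero_div, exp_zero, mul_one]

theorem hasDerivAt_q {h : ℝ} (z : ℂ) :
    HasDerivAt (qParam h) (qParam h z * (2 * Real.pi * I / h)) z := by
  simpa only [id_eq, mul_one] using! (((hasDerivAt_id z).const_mul _).div_const _).cexp

/-- a primitive of a function on a half plane whose sixth power is `1`-periodic, with values in a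
strip, is `6`-periodic -/
theorem per6 {B H : ℝ} {F : ℂ → ℂ} (hF : DifferentiableOn ℂ F (HP B))
    (hF0 : ∀ z ∈ HP B, deriv F z ≠ 0) (hS : ∀ z ∈ HP B, |(F z).im| ≤ H)
    (h6 : ∀ z ∈ HP B, deriv F (z + 1) ^ 6 = deriv F z ^ 6) :
    ∀ z ∈ HP B, F (z + 6) = F z := by
  have hmem : ∀ z ∈ HP B, ∀ x : ℝ, z + x ∈ HP B := by
    intro z hz x
    show B < (z + x).im
    rw [add_im, ofReal_im, add_zero]; exact hz
  have hm1 : ∀ z ∈ HP B, z + 1 ∈ HP B := fun z hz => by simpa using hmem z hz 1
  have hD := isOpen_HP B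
  have dk : DifferentiableOn ℂ (deriv F) (HP B) := hF.deriv hD
  have dk1 : DifferentiableOn ℂ (fun z => deriv F (z + 1)) (HP B) :=
    dk.comp (by fun_prop) fun z hz => hm1 z hz
  have hz0 : (((B + 1 : ℝ) : ℂ) * I) ∈ HP B := by
    show B < _
    simp
  obtain ⟨ω, hω, hk⟩ := H456.Edge.six_const hD (convex_HP B) dk1 dk hF0 h6 hz0
  have hk6 : ∀ z ∈ HP B, deriv F (z + 6) = deriv F z := by
    intro z hz
    have hk' : ∀ w ∈ HP B, deriv F (w + 1) = ω * deriv F w := hk
    have a1 := hk' z hz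
    have a2 := hk' _ (hmem z hz 1)
    have a3 := hk' _ (hmem z hz 2)
    have a4 := hk' _ (hmem z hz 3)
    have a5 := hk' _ (hmem z hz 4)
    have a6 := hk' _ (hmem z hz 5)
    rw [show z + ((1 : ℝ) : ℂ) + 1 = z + 2 by push_cast; ring,
      show z + ((1 : ℝ) : ℂ) = z + 1 by push_cast; ring] at a2
    rw [show z + ((2 : ℝ) : ℂ) + 1 = z + 3 by push_cast; ring,
      show z + ((2 : ℝ) : ℂ) = z + 2 by push_cast; ring] at a3
    rw [show z + ((3 : ℝ) : ℂ) + 1 = z + 4 by push_cast; ring,
      show z + ((3 : ℝ) : ℂ) = z + 3 by push_cast; ring] at a4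
    rw [show z + ((4 : ℝ) : ℂ) + 1 = z + 5 by push_cast; ring,
      show z + ((4 : ℝ) : ℂ) = z + 4 by push_cast; ring] at a5
    rw [show z + ((5 : ℝ) : ℂ) + 1 = z + 6 by push_cast; ring,
      show z + ((5 : ℝ) : ℂ) = z + 5 by push_cast; ring] at a6
    rw [a6, a5, a4, a3, a2, a1]
    linear_combination deriv F z * hω
  -- `F (z + 6) - F z` is constant
  have hd : ∀ z ∈ HP B, HasDerivAt (fun z => F (z + 6) - F z) 0 z := by
    intro z hz
    have hz6 : z + 6 ∈ HP B := by simpa using hmem z hz 6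
    have h1 := (hF.differentiableAt (hD.mem_nhds hz6)).hasDerivAt.comp_add_const z 6
    have h2 := (hF.differentiableAt (hD.mem_nhds hz)).hasDerivAt
    have h3 := h1.sub h2
    rw [hk6 z hz, sub_self] at h3
    exact h3
  -- small
  intro z hz
  have hsmall : ∀ y : ℝ, 1 ≤ y → ‖F (z + 6) - F z‖ ≤ 6 * (Real.exp (2 * H) / y) := by
    intro y hy
    set z' : ℂ := ((B + 1 + y : ℝ) : ℂ) * I with hz'
    have hz'm : z' ∈ HP B := by
      show B < _
      simp [hz']; linarith
    have e1 : F (z + 6) - F z = F (z' + 6) - F z' :=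
      H456.Edge.const_of_deriv (convex_HP B) hD hd hz hz'm
    rw [e1]
    have hconv : Convex ℝ {w : ℂ | B + y < w.im} := convex_halfSpace_im_gt _
    have h1 : ∀ w ∈ {w : ℂ | B + y < w.im}, ‖deriv F w‖ ≤ Real.exp (2 * H) / y := by
      intro w hw
      exact deriv_le_of_strip hF hS (by linarith) hw
    have h2 := hconv.norm_image_sub_le_of_norm_deriv_le (f := F) (x := z') (y := z' + 6)
      (fun w hw => hF.differentiableAt (hD.mem_nhds (by
        show B < w.im
        have : B + y < w.im := hw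
        linarith))) h1 (by
        show B + y < _
        simp [hz']) (by
        show B + y < _
        simp [hz'])
    have h3 : ‖z' + 6 - z'‖ = 6 := by
      rw [add_sub_cancel_left]; norm_num
    rw [h3] at h2
    linarith
  have hzero : ‖F (z + 6) - F z‖ ≤ 0 := by
    apply le_of_forall_pos_le_add
    intro ε hε
    set y : ℝ := max 1 (6 * Real.exp (2 * H) / ε) with hy
    have h1 := hsmall y (le_max_left _ _)
    have h2 : 6 * Real.exp (2 * H) / ε ≤ y := le_max_right _ _
    have hy0 : 0 < y := lt_of_lt_of_le one_pos (le_max_left _ _)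
    have h3 : 6 * (Real.exp (2 * H) / y) ≤ ε := by
      rw [← mul_div_assoc, div_le_iff₀ hy0]
      rw [div_le_iff₀ hε] at h2
      linarith
    linarith
  exact sub_eq_zero.1 (norm_le_zero_iff.1 hzero)

end Vale.Agent.P097.H286
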