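import Vale.Agent.P097.H286.C.Loc

/-! # P097 (helper286) / case [c], row R0: the limit at the isolated point -/

set_option linter.all false
set_option autoImplicit false

open Complex Set Filter Metric Topology Function.Periodic

namespace Vale.Agent.P097.H286

open Classical in
/-- extension by `0` outside the half plane -/
noncomputable def cut (B : ℝ) (F : ℂ → ℂ) (z : ℂ) : ℂ := if B < z.im then F z else 0

theorem cut_eq {B : ℝ} {F : ℂ → ℂ} {z : ℂ} (hz : z ∈ HP B) : cut B F z = F z := if_pos hz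

theorem cut_per {B h : ℝ} {F : ℂ → ℂ} (hF : ∀ z ∈ HP B, F (z + h) = F z) :
    Function.Periodic (cut B F) (h : ℂ) := by
  intro z
  have e : (z + (h : ℂ)).im = z.im := by simp
  by_cases hz : B < z.im
  · have hz' : B < (z + (h : ℂ)).im := by rw [e]; exact hz
    rw [cut, cut, if_pos hz, if_pos hz']
    exact hF z hz
  · have hz' : ¬ B < (z + (h : ℂ)).im := by rw [e]; exact hz
    rw [cut, cut, if_neg hz, if_neg hz']

theorem ev_HP (B : ℝ) : ∀ᶠ z in comap Complex.im atTop, z ∈ HP B :=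
  (eventually_gt_atTop B).comap Complex.im

theorem exists_of_ev {P : ℂ → Prop} (h : ∀ᶠ z in comap Complex.im atTop, P z) :
    ∃ B : ℝ, ∀ z ∈ HP B, P z := by
  rw [eventually_comap] at h
  obtain ⟨B, hB⟩ := eventually_atTop.1 h
  exact ⟨B, fun z hz => hB z.im (le_of_lt hz) z rfl⟩

theorem cut_diff {B : ℝ} {F : ℂ → ℂ} (hF : DifferentiableOn ℂ F (HP B)) {z : ℂ}
    (hz : z ∈ HP B) : DifferentiableAt ℂ (cut B F) z := by
  apply (hF.differentiableAt ((isOpen_HP B).mem_nhds hz)).congr_of_eventuallyEq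
  filter_upwards [(isOpen_HP B).mem_nhds hz] with w hw using cut_eq hw

/-- a `6`-periodic function with values in a strip has a limit at the cusp -/
theorem lim_cusp {B H : ℝ} {F : ℂ → ℂ} (hF : DifferentiableOn ℂ F (HP B))
    (hS : ∀ z ∈ HP B, |(F z).im| ≤ H) (hp : ∀ z ∈ HP B, F (z + 6) = F z) :
    ∃ x : ℂ, Tendsto F (comap Complex.im atTop) (𝓝 x) := by
  set E : ℂ → ℂ := fun z => exp (I * F z) with hE
  have hEd : DifferentiableOn ℂ E (HP B) := (hF.const_mul _).cexp
  have hEp : ∀ z ∈ HP B, E (z + ((6 : ℝ) : ℂ)) = E z := by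
    intro z hz
    simp only [hE]
    push_cast
    rw [hp z hz]
  have hEn : ∀ w ∈ HP B, ‖E w‖ ≤ Real.exp H ∧ Real.exp (-H) ≤ ‖E w‖ := by
    intro w hw
    have h1 := abs_le.1 (hS w hw)
    have h2 : ‖E w‖ = Real.exp (-(F w).im) := by
      simp only [hE, Complex.norm_exp, Complex.I_mul_re]
    rw [h2]
    exact ⟨Real.exp_le_exp.2 (by linarith), Real.exp_le_exp.2 (by linarith)⟩
  have hper := cut_per hEp
  have hbd : BoundedAtFilter (comap Complex.im atTop) (cut B E) := by
    unfold BoundedAtFilter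
    refine Asymptotics.IsBigO.of_bound (Real.exp H) ?_
    filter_upwards [ev_HP B] with z hz
    rw [cut_eq hz]
    simpa using (hEn z hz).1
  have hhol : ∀ᶠ z in comap Complex.im atTop, DifferentiableAt ℂ (cut B E) z := by
    filter_upwards [ev_HP B] with z hz using cut_diff hEd hz
  have ht := tendsto_at_I_inf (by norm_num : (0 : ℝ) < 6) hper hhol hbd
  set Es := cuspFunction 6 (cut B E) 0 with hEs
  haveI : (comap Complex.im atTop).NeBot := by
    refine comap_neBot fun t ht => ?_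
    obtain ⟨a, ha⟩ := mem_atTop_sets.1 ht
    exact ⟨(a : ℂ) * I, by simpa using ha a le_rfl⟩
  have hEs0 : Es ≠ 0 := by
    intro h0
    have h1 : Real.exp (-H) ≤ ‖Es‖ := by
      refine ge_of_tendsto ht.norm ?_
      filter_upwards [ev_HP B] with z hz
      rw [cut_eq hz]; exact (hEn z hz).2
    rw [h0, norm_zero] at h1
    exact absurd h1 (not_le.2 (Real.exp_pos _))
  have ht1 : Tendsto (fun z => cut B E z / Es) (comap Complex.im atTop) (𝓝 1) := by
    have := ht.div_const Es
    rwa [div_self hEs0] at this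
  obtain ⟨B', hB'⟩ := exists_of_ev (ht1.eventually (isOpen_slitPlane.mem_nhds one_mem_slitPlane))
  set C : ℝ := max B B' with hC
  have hCB : HP C ⊆ HP B := fun z hz => by
    show B < z.im
    have h1 : C < z.im := hz
    exact lt_of_le_of_lt (le_max_left B B') h1
  have hCB' : HP C ⊆ HP B' := fun z hz => by
    show B' < z.im
    have h1 : C < z.im := hz
    exact lt_of_le_of_lt (le_max_right B B') h1
  have hsl : ∀ z ∈ HP C, E z / Es ∈ slitPlane := fun z hz => by
    have := hB' z (hCB' hz)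
    rwa [cut_eq (hCB hz)] at this
  have hd : ∀ z ∈ HP C, HasDerivAt (fun z => F z + I * log (E z / Es)) 0 z := by
    intro z hz
    have h1 := (hF.differentiableAt ((isOpen_HP B).mem_nhds (hCB hz))).hasDerivAt
    have h2 : HasDerivAt E (E z * (I * deriv F z)) z := (h1.const_mul I).cexp
    have h3 := h1.add (((h2.div_const Es).clog (hsl z hz)).const_mul I)
    have h4 : E z ≠ 0 := exp_ne_zero _
    have h5 : deriv F z + I * (E z * (I * deriv F z) / Es / (E z / Es)) = 0 := by
      field_simp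
      linear_combination deriv F z * I_sq
    rw [← h5]
    exact h3
  have hz0 : (((C + 1 : ℝ) : ℂ) * I) ∈ HP C := by
    show C < _
    simp
  set c : ℂ := F (((C + 1 : ℝ) : ℂ) * I) + I * log (E (((C + 1 : ℝ) : ℂ) * I) / Es) with hc
  refine ⟨c, ?_⟩
  have h6 : Tendsto (fun z => c - I * log (cut B E z / Es)) (comap Complex.im atTop)
      (𝓝 (c - I * log 1)) :=
    (((continuousAt_clog one_mem_slitPlane).tendsto.comp ht1).const_mul I).const_sub c
  rw [log_one, mul_zero, sub_zero] at h6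
  refine h6.congr' ?_
  filter_upwards [ev_HP C] with z hz
  have h7 := H456.Edge.const_of_deriv (convex_HP C) (isOpen_HP C) hd hz hz0
  rw [cut_eq (hCB hz)]
  linear_combination -h7

/-- the cusp value of a locally injective map to the strip is an interior point -/
theorem lim_mem {B H : ℝ} {F : ℂ → ℂ} (hF : DifferentiableOn ℂ F (HP B))
    (hF0 : ∀ z ∈ HP B, deriv F z ≠ 0)
    (hS : ∀ z ∈ HP B, F z ∈ St H) (hp : ∀ z ∈ HP B, F (z + 6) = F z) {x : ℂ}
    (hx : Tendsto F (comap Complex.im atTop) (𝓝 x)) : x ∈ St H := by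
  have hp' : ∀ z ∈ HP B, F (z + ((6 : ℝ) : ℂ)) = F z := fun z hz => by
    push_cast; exact hp z hz
  have hper := cut_per hp'
  have h60 : (0 : ℝ) < 6 := by norm_num
  set Θ : ℂ → ℂ := cuspFunction 6 (cut B F) with hΘ
  have hΘe : ∀ z ∈ HP B, Θ (qParam 6 z) = F z := fun z hz => by
    rw [hΘ, eq_cuspFunction h60.ne' hper, cut_eq hz]
  have hhol : ∀ᶠ z in comap Complex.im atTop, DifferentiableAt ℂ (cut B F) z := by
    filter_upwards [ev_HP B] with z hz using cut_diff hF hz
  have hx' : Tendsto (cut B F) (comap Complex.im atTop) (𝓝 x) :=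
    hx.congr' (by filter_upwards [ev_HP B] with z hz using (cut_eq hz).symm)
  have hbd : BoundedAtFilter (comap Complex.im atTop) (cut B F) := by
    unfold BoundedAtFilter
    exact hx'.isBigO_one ℝ
  have ht := tendsto_at_I_inf h60 hper hhol hbd
  haveI : (comap Complex.im atTop).NeBot := by
    refine comap_neBot fun t ht => ?_
    obtain ⟨a, ha⟩ := mem_atTop_sets.1 ht
    exact ⟨(a : ℂ) * I, by simpa using ha a le_rfl⟩
  have hΘ0 : Θ 0 = x := tendsto_nhds_unique ht hx'
  set ρ : ℝ := Real.exp (-2 * Real.pi * B / 6) with hρ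
  have hρ0 : 0 < ρ := Real.exp_pos _
  have hinv : ∀ τ ∈ ball (0 : ℂ) ρ, τ ≠ 0 → ∃ z ∈ HP B, qParam 6 z = τ := by
    intro τ hτ hτ0
    refine ⟨invQParam 6 τ, ?_, qParam_right_inv h60.ne' hτ0⟩
    have h1 := norm_qParam_lt_iff h60 B (invQParam 6 τ)
    rw [qParam_right_inv h60.ne' hτ0] at h1
    exact h1.1 (mem_ball_zero_iff.1 hτ)
  have hΘd : DifferentiableOn ℂ Θ (ball 0 ρ) := by
    intro τ hτ
    apply DifferentiableAt.differentiableWithinAt
    by_cases hτ0 : τ = 0
    · rw [hτ0]; exact differentiableAt_cuspFunction_zero h60 hper hhol hbd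
    · obtain ⟨z, hz, rfl⟩ := hinv τ hτ hτ0
      exact differentiableAt_cuspFunction h60.ne' hper (cut_diff hF hz)
  rw [← hΘ0]
  refine core2 hρ0 hΘd (fun τ hτ hτ0 => ?_) (fun τ hτ hτ0 => ?_)
  · obtain ⟨z, hz, rfl⟩ := hinv τ hτ hτ0
    intro h0
    have h1 := (hΘd.differentiableAt (isOpen_ball.mem_nhds hτ)).hasDerivAt
    have h2 := h1.comp z (hasDerivAt_q (h := 6) z)
    have h3 : F =ᶠ[𝓝 z] Θ ∘ qParam 6 := by
      filter_upwards [(isOpen_HP B).mem_nhds hz] with w hw
      exact (hΘe w hw).symm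
    apply hF0 z hz
    rw [h3.deriv_eq, h2.deriv, h0, zero_mul]
  · obtain ⟨z, hz, rfl⟩ := hinv τ hτ hτ0
    rw [hΘe z hz]
    exact hS z hz

end Vale.Agent.P097.H286
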