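import Vale.Agent.P097.H286.C.Base
import Vale.Agent.P097.H286.C.ExtPos
import Vale.Agent.P097.TC.Defs

/-!
# P097 / case [c] / POS (R0.5): the lines number `n` over an arbitrary native domain `B`, their
continuation domains, the bracket there, and the position of the vertex of the lines `n`, `n - 1`

`lz f n` = coordinate of line number `n` (same text as `H6.Ln`), `B` = any native domain
(`H6.Bn` or any other open set above `b₀` where the shear of the base is defined).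
-/

set_option linter.all false

open Complex Metric Filter Topology Set
open scoped ComplexConjugate

namespace Vale.Agent.P097.CC

open Vale.Agent.P097 Vale.Agent.P097.TA Vale.Agent.P097.H202 Vale.Agent.P097.SC
open Vale.Agent.P097.H456.Fct Vale.Agent.P097.H456.Sp Vale.Agent.P097.H456.C
open Vale.Agent.P097.H85
open Vale.Agent.P097.H830.CD (Inc Incx Inca br_eq_fderiv)

/-- a coordinate of the line number `n` (same text as `H6.Ln`) -/
def lz (f : ℂ × ℂ → ℂ) (n : ℤ) (t w : ℂ) : ℂ := f (t + n * w, w)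

/-- `B` is a native domain of the line number `n` -/
structure NatD (R : ℂ → ℝ) (e₁ b₀ : ℝ) (n : ℤ) (B : Set (ℂ × ℂ)) : Prop where
  dn : Dn b₀ B
  sub : ∀ t w : ℂ, (t, w) ∈ B → (t + n * w, w) ∈ Dm R e₁

/-- domain of vertical continuation of the line number `n` (same text as `H6.MM`) -/
def mb (b₀ : ℝ) (A P : ℂ × ℂ → ℂ) (n : ℤ) (B : Set (ℂ × ℂ)) : Set (ℂ × ℂ) :=
  Mx b₀ (lz A n) B ∩ Mx b₀ (lz P n) B

/-- continued coordinate -/
noncomputable def gz (b₀ : ℝ) (f : ℂ × ℂ → ℂ) (n : ℤ) (B : Set (ℂ × ℂ)) (z : ℂ × ℂ) : ℂ :=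
  gx b₀ (lz f n) B z.1 z.2

section lines
variable {κ Λ b : ℝ} {H Φ : ℂ → ℂ} {r e : ℝ} {α p : ℂ → ℂ → ℂ} {J F q Q : ℂ → ℂ}
  {e₁ c₀ : ℝ} {R : ℂ → ℝ} {A P θ : ℂ × ℂ → ℂ} {n : ℤ} {b₀ : ℝ} {B : Set (ℂ × ℂ)}

theorem NatD.jd (h : NatD R e₁ b₀ n B) {f : ℂ × ℂ → ℂ} (hf : AnalyticOnNhd ℂ f (Dm R e₁)) :
    JD (lz f n) B := by
  rintro ⟨t, w⟩ hz
  have h1 := h.sub t w hz
  have h2 : AnalyticAt ℂ (fun z : ℂ × ℂ => f (z.1 + n * z.2, z.2)) (t, w) :=
    (hf _ h1).comp_of_eq (f := fun z : ℂ × ℂ => (z.1 + n * z.2, z.2))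
      ((analyticAt_fst.add (analyticAt_const.mul analyticAt_snd)).prod analyticAt_snd) rfl
  exact h2.differentiableAt.differentiableWithinAt

theorem NatD.rh (h : NatD R e₁ b₀ n B) (T : Rd α p R e₁ A P) : RH b₀ (mb b₀ A P n B) :=
  (rh_Mx h.dn (h.jd T.aA)).inter (rh_Mx h.dn (h.jd T.aP))

theorem NatD.base (h : NatD R e₁ b₀ n B) (T : Rd α p R e₁ A P) : B ⊆ mb b₀ A P n B :=
  fun z hz => ⟨base_sub h.dn (h.jd T.aA) hz, base_sub h.dn (h.jd T.aP) hz⟩

theorem NatD.eq (h : NatD R e₁ b₀ n B) {f : ℂ × ℂ → ℂ} (hf : AnalyticOnNhd ℂ f (Dm R e₁))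
    {z : ℂ × ℂ} (hz : z ∈ B) : gz b₀ f n B z = f (z.1 + n * z.2, z.2) :=
  gx_eq h.dn.op (isExt_self h.dn (h.jd hf)) hz

theorem NatD.an (h : NatD R e₁ b₀ n B) (f : ℂ × ℂ → ℂ) :
    AnalyticOnNhd ℂ (gz b₀ f n B) (Mx b₀ (lz f n) B) := by
  have h1 := isExt_Mx (b := b₀) (f := lz f n) h.dn.op
  exact Hol.analyticOnNhd_of_differentiableOn h1.dn.op h1.jd

theorem NatD.anA (h : NatD R e₁ b₀ n B) : AnalyticOnNhd ℂ (gz b₀ A n B) (mb b₀ A P n B) :=
  fun z hz => h.an A z hz.1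

theorem NatD.anP (h : NatD R e₁ b₀ n B) : AnalyticOnNhd ℂ (gz b₀ P n B) (mb b₀ A P n B) :=
  fun z hz => h.an P z hz.2

/-- points of the continuation domain lie above points of the native domain -/
theorem NatD.above (h : NatD R e₁ b₀ n B) {t w : ℂ} (hz : (t, w) ∈ mb b₀ A P n B) :
    ∃ s : ℝ, b₀ < s ∧ s ≤ t.im ∧ ((t.re : ℂ) + s * I, w) ∈ B :=
  (isExt_Mx (b := b₀) (f := lz A n) h.dn.op).above t w hz.1

/-- **the bracket on the continuation domain** -/
theorem NatD.bracket (h : NatD R e₁ b₀ n B)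
    (hB : Base κ Λ b H Φ r e α p J F q Q e₁ c₀ R A P θ) {t w : ℂ}
    (hz : (t, w) ∈ mb b₀ A P n B) :
    br (fun t w => gz b₀ A n B (t, w)) (fun t w => gz b₀ P n B (t, w)) t w = J w := by
  have L := hB.en.ctx.ln
  have T := hB.rd
  have hM := h.rh T
  obtain ⟨s, hs0, hst, hsB⟩ := h.above hz
  have jA : JD (fun t w => gz b₀ A n B (t, w)) (mb b₀ A P n B) := fun z hz =>
    ((h.an A) z hz.1).differentiableAt.differentiableWithinAt
  have jP : JD (fun t w => gz b₀ P n B (t, w)) (mb b₀ A P n B) := fun z hz =>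
    ((h.an P) z hz.2).differentiableAt.differentiableWithinAt
  have hwn : ‖w‖ < e₁ := (h.sub _ _ hsB).2
  have hnorm : ∀ σ : ℝ, ((t.re : ℂ) + σ * I, w) ∈ {z : ℂ × ℂ | ‖z.2‖ < e} := fun σ =>
    lt_of_lt_of_le hwn hB.ee
  have jJ : JD (fun _ w => J w) {z : ℂ × ℂ | ‖z.2‖ < e} := by
    intro z hz
    have h1 : DifferentiableAt ℂ J z.2 := L.jJ.differentiableAt (isOpen_ball.mem_nhds (by
      rw [mem_ball_zero_iff]; exact hz))
    exact (DifferentiableAt.comp z h1 differentiableAt_snd).differentiableWithinAt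
  have oN : IsOpen {z : ℂ × ℂ | ‖z.2‖ < e} :=
    isOpen_lt (continuous_norm.comp continuous_snd) continuous_const
  refine vert_eq (g' := fun _ w => J w) hM.dn.op oN (JD_br hM.dn.op jA jP) jJ hst (fun σ h1 h2 =>
    ⟨hM.dn.down t w σ hz (by linarith) h2, hnorm σ⟩) ?_
  have hc : Continuous fun x : ℂ => (x, w) := by fun_prop
  filter_upwards [(h.dn.op.preimage hc).mem_nhds hsB] with x hx
  have hx' : (x, w) ∈ B := hx
  have e1 := dx_congr h.dn.op (f := fun t w => gz b₀ A n B (t, w))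
    (g := fun t w => A (t + n * w, w)) (fun t w hz => h.eq T.aA hz) hx'
  have e2 := de_congr h.dn.op (f := fun t w => gz b₀ A n B (t, w))
    (g := fun t w => A (t + n * w, w)) (fun t w hz => h.eq T.aA hz) hx'
  have e3 := dx_congr h.dn.op (f := fun t w => gz b₀ P n B (t, w))
    (g := fun t w => P (t + n * w, w)) (fun t w hz => h.eq T.aP hz) hx'
  have e4 := de_congr h.dn.op (f := fun t w => gz b₀ P n B (t, w))
    (g := fun t w => P (t + n * w, w)) (fun t w hz => h.eq T.aP hz) hx'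
  have hD := h.sub x w hx'
  have j1 : JD (fun t w => A (t, w)) (Dm R e₁) := fun z hz =>
    (T.aA z hz).differentiableAt.differentiableWithinAt
  have j2 : JD (fun t w => P (t, w)) (Dm R e₁) := fun z hz =>
    (T.aP z hz).differentiableAt.differentiableWithinAt
  have e5 := br_shear (s := (n : ℂ)) T.op j1 j2 hD
  have e6 := T.bracket L hB.ee hD
  show br _ _ x w = J w
  rw [br, e1, e2, e3, e4]
  rw [br] at e5
  rw [e5]
  exact e6

/-- the labels on the continuation domain are in the ball of the base -/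
theorem NatD.norm (h : NatD R e₁ b₀ n B) {t w : ℂ} (hz : (t, w) ∈ mb b₀ A P n B) : ‖w‖ < e₁ := by
  obtain ⟨s, hs0, hst, hsB⟩ := h.above hz
  exact (h.sub _ _ hsB).2

/-- the bracket does not vanish off `w = 0` -/
theorem NatD.br_ne (h : NatD R e₁ b₀ n B)
    (hB : Base κ Λ b H Φ r e α p J F q Q e₁ c₀ R A P θ) {t w : ℂ}
    (hz : (t, w) ∈ mb b₀ A P n B) (hw : w ≠ 0) :
    br (fun t w => gz b₀ A n B (t, w)) (fun t w => gz b₀ P n B (t, w)) t w ≠ 0 := by
  rw [h.bracket hB hz]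
  exact hB.en.ctx.ln.Jne w ((h.norm hz).trans_le hB.ee) hw

end lines

section pos
variable {κ Λ b : ℝ} {H Φ : ℂ → ℂ} {r e : ℝ} {α p : ℂ → ℂ → ℂ} {J F q Q : ℂ → ℂ}
  {e₁ c₀ : ℝ} {R : ℂ → ℝ} {A P θ : ℂ × ℂ → ℂ} {n : ℤ} {b₀ : ℝ} {B₁ B₂ : Set (ℂ × ℂ)}

/-- the slice of the domain of the positions is convex -/
theorem pd_slice (w : ℂ) : Convex ℝ {t : ℂ | (t, w) ∈ Pd R e₁} := by
  have h1 : {t : ℂ | (t, w) ∈ Pd R e₁} =
      {t : ℂ | |t.im| < R w - |w.im| / 2} ∩ {t : ℂ | ‖w‖ < e₁} := by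
    ext t
    constructor
    · rintro ⟨h1, h2⟩
      refine ⟨?_, h2⟩
      show |t.im| < R w - |w.im| / 2
      have h3 : |t.im| + |w.im| / 2 < R w := h1
      linarith
    · rintro ⟨h1, h2⟩
      refine ⟨?_, h2⟩
      show |t.im| + |w.im| / 2 < R w
      have h3 : |t.im| < R w - |w.im| / 2 := h1
      linarith
  rw [h1]
  refine Convex.inter ?_ ?_
  · have : {t : ℂ | |t.im| < R w - |w.im| / 2} =
        {t : ℂ | t.im < R w - |w.im| / 2} ∩ {t : ℂ | -(R w - |w.im| / 2) < t.im} := by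
      ext t
      simp only [mem_setOf_eq, mem_inter_iff, abs_lt]
      exact and_comm
    rw [this]
    exact (convex_halfSpace_im_lt _).inter (convex_halfSpace_im_gt _)
  · by_cases h : ‖w‖ < e₁
    · simp only [h, setOf_true]; exact convex_univ
    · simp only [h, setOf_false]; exact convex_empty

/-- the position is not locally constant on the slices -/
theorem pos_nc (T : PoC b F q R e₁ A P θ) {t w : ℂ} (h : (t, w) ∈ Pd R e₁) :
    ¬ ∀ᶠ x in 𝓝 t, θ (x, w) = θ (t, w) := by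
  intro hc
  have a1 : AnalyticOnNhd ℂ (fun x => θ (x, w)) {x : ℂ | (x, w) ∈ Pd R e₁} := fun x hx =>
    (T.an (x, w) hx).comp_of_eq (f := fun x : ℂ => (x, w)) (analyticAt_id.prod analyticAt_const)
      rfl
  have a2 : AnalyticOnNhd ℂ (fun _ : ℂ => θ (t, w)) {x : ℂ | (x, w) ∈ Pd R e₁} := fun x _ =>
    analyticAt_const
  have h1 : (t + 1, w) ∈ Pd R e₁ := by
    refine ⟨?_, h.2⟩
    show |(t + 1).im| + |w.im| / 2 < R w
    rw [add_im, one_im, add_zero]
    exact h.1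
  have h2 := a1.eqOn_of_preconnected_of_eventuallyEq a2 (pd_slice w).isPreconnected h hc h1
  simp only at h2
  rw [T.per t w h] at h2
  have h3 : (1 : ℂ) = 0 := by linear_combination h2
  exact one_ne_zero h3

/-- the cosine of the half difference is not locally `0` on the slices -/
theorem pos_nz (hR : Rd α p R e₁ A P) (T : PoC b F q R e₁ A P θ) {t w : ℂ}
    (h : (t, w) ∈ Pd R e₁) :
    ¬ ∀ᶠ x in 𝓝 t, cos ((A (x + w / 2, w) - A (x - w / 2, w)) / 2) = 0 := by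
  intro hc
  have h1 : ∀ x : ℂ, (x, w) ∈ Pd R e₁ →
      AnalyticAt ℂ (fun x : ℂ => A (x + w / 2, w)) x ∧
        AnalyticAt ℂ (fun x : ℂ => A (x - w / 2, w)) x := by
    intro x hx
    obtain ⟨k1, k2⟩ := Pd_half hx
    exact ⟨(hR.aA _ k1).comp_of_eq (f := fun x : ℂ => (x + w / 2, w))
      ((analyticAt_id.add analyticAt_const).prod analyticAt_const) rfl,
      (hR.aA _ k2).comp_of_eq (f := fun x : ℂ => (x - w / 2, w))
      ((analyticAt_id.sub analyticAt_const).prod analyticAt_const) rfl⟩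
  have a1 : AnalyticOnNhd ℂ (fun x => cos ((A (x + w / 2, w) - A (x - w / 2, w)) / 2))
      {x : ℂ | (x, w) ∈ Pd R e₁} := fun x hx =>
    an_cos' (((h1 x hx).1.sub (h1 x hx).2).div_const)
  have a2 : AnalyticOnNhd ℂ (fun _ : ℂ => (0 : ℂ)) {x : ℂ | (x, w) ∈ Pd R e₁} := fun x _ =>
    analyticAt_const
  have h0 : (0, w) ∈ Pd R e₁ := by
    refine ⟨?_, h.2⟩
    show |(0 : ℂ).im| + |w.im| / 2 < R w
    have h3 : |t.im| + |w.im| / 2 < R w := h.1
    rw [zero_im, abs_zero]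
    have := abs_nonneg t.im
    linarith
  have h2 := a1.eqOn_of_preconnected_of_eventuallyEq a2 (pd_slice w).isPreconnected h hc h0
  simp only [zero_add, zero_sub] at h2
  exact T.cs w h0 h2

/-- native point of two consecutive lines = point of the domain of the positions -/
theorem mem_pd (h1 : NatD R e₁ b₀ n B₁) (h2 : NatD R e₁ b₀ (n - 1) B₂) {t w : ℂ}
    (h : (t, w) ∈ B₁ ∩ B₂) : (t + ((n : ℂ) - 1 / 2) * w, w) ∈ Pd R e₁ := by
  have k1 := h1.sub t w h.1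
  have k2 := h2.sub t w h.2
  refine ⟨?_, k1.2⟩
  show |(t + ((n : ℂ) - 1 / 2) * w).im| + |w.im| / 2 < R w
  have l1 : |(t + (n : ℂ) * w).im| < R w := k1.1
  have l2 : |(t + ((n - 1 : ℤ) : ℂ) * w).im| < R w := k2.1
  have m1 : (t + (n : ℂ) * w).im = t.im + n * w.im := by simp
  have m2 : (t + ((n - 1 : ℤ) : ℂ) * w).im = t.im + (n - 1) * w.im := by
    push_cast
    simp [sub_mul]
  have m3 : (t + ((n : ℂ) - 1 / 2) * w).im = t.im + (n - 1 / 2) * w.im := by
    have : ((n : ℂ) - 1 / 2) = (((n : ℝ) - 1 / 2 : ℝ) : ℂ) := by push_cast; ring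
    rw [this, add_im, Complex.im_ofReal_mul]
  rw [m1] at l1
  rw [m2] at l2
  rw [m3]
  rw [abs_lt] at l1 l2
  rcases le_total 0 w.im with hw | hw
  · rw [abs_of_nonneg hw]
    have : |t.im + (n - 1 / 2) * w.im| < R w - w.im / 2 := by
      rw [abs_lt]; constructor <;> linarith [l1.1, l1.2, l2.1, l2.2]
    linarith
  · rw [abs_of_nonpos hw]
    have : |t.im + (n - 1 / 2) * w.im| < R w + w.im / 2 := by
      rw [abs_lt]; constructor <;> linarith [l1.1, l1.2, l2.1, l2.2]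
    linarith

/-- the position of the vertex between the lines `n` and `n - 1` (same text as `H6.Th`) -/
noncomputable def thz (θ : ℂ × ℂ → ℂ) (n : ℤ) (z : ℂ × ℂ) : ℂ :=
  θ (z.1 + ((n : ℂ) - 1 / 2) * z.2, z.2)

/-- **POS** : the position of the vertex of the lines `n` and `n - 1` continues to the common
continuation domain, with all relations -/
theorem exists_psn (hB : Base κ Λ b H Φ r e α p J F q Q e₁ c₀ R A P θ)
    (h1 : NatD R e₁ b₀ n B₁) (h2 : NatD R e₁ b₀ (n - 1) B₂) :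
    ∃ θ' : ℂ × ℂ → ℂ, Psn b F q (mb b₀ A P n B₁ ∩ mb b₀ A P (n - 1) B₂)
      (gz b₀ A n B₁) (gz b₀ P n B₁) (gz b₀ A (n - 1) B₂) (gz b₀ P (n - 1) B₂) θ' ∧
      ∀ z ∈ B₁ ∩ B₂, θ' z = thz θ n z := by
  have T := hB.rd
  have e1 : ∀ t w : ℂ, t + ((n : ℂ) - 1 / 2) * w + w / 2 = t + (n : ℂ) * w := fun t w => by ring
  have e2 : ∀ t w : ℂ, t + ((n : ℂ) - 1 / 2) * w - w / 2 = t + ((n - 1 : ℤ) : ℂ) * w :=
    fun t w => by push_cast; ring
  refine ext_pos hB.bs (M := mb b₀ A P n B₁ ∩ mb b₀ A P (n - 1) B₂) (B := B₁ ∩ B₂)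
    ((h1.rh T).inter (h2.rh T)).dn ⟨h1.dn.op.inter h2.dn.op, fun t w h => h1.dn.low t w h.1,
      fun t w y h k1 k2 => ⟨h1.dn.down t w y h.1 k1 k2, h2.dn.down t w y h.2 k1 k2⟩⟩ ?_
    (fun z hz => h1.anA (P := P) z hz.1) (fun z hz => h1.anP (A := A) z hz.1)
    (fun z hz => h2.anA (P := P) z hz.2) (fun z hz => h2.anP (A := A) z hz.2) ?_ ?_ ?_
  · rintro t w ⟨k1, k2⟩
    obtain ⟨s, l1, l2, l3⟩ := h1.above k1
    obtain ⟨s', m1, m2, m3⟩ := h2.above k2
    refine ⟨min s s', lt_min l1 m1, (min_le_left _ _).trans l2, ?_, ?_⟩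
    · have := h1.dn.down _ _ (min s s') l3 (lt_min l1 m1) (by simp)
      simpa using this
    · have := h2.dn.down _ _ (min s s') m3 (lt_min l1 m1) (by simp)
      simpa using this
  · refine ⟨?_, ?_, ?_, ?_, ?_⟩
    · rintro ⟨t, w⟩ hz
      exact (hB.pc.an _ (mem_pd h1 h2 hz)).comp_of_eq
        (f := fun z : ℂ × ℂ => (z.1 + ((n : ℂ) - 1 / 2) * z.2, z.2))
        ((analyticAt_fst.add (analyticAt_const.mul analyticAt_snd)).prod analyticAt_snd) rfl
    · rintro ⟨t, w⟩ hz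
      exact hB.pc.mem _ (mem_pd h1 h2 hz)
    · rintro ⟨t, w⟩ hz
      have k := hB.pc.sA _ _ (mem_pd h1 h2 hz)
      rw [e1, e2] at k
      rw [h1.eq T.aA hz.1, h2.eq T.aA hz.2]
      exact k
    · rintro ⟨t, w⟩ hz
      have k := hB.pc.sP _ _ (mem_pd h1 h2 hz)
      rw [e1, e2] at k
      rw [h1.eq T.aP hz.1, h2.eq T.aP hz.2, h1.eq T.aA hz.1, h2.eq T.aA hz.2]
      exact k
    · rintro ⟨t, w⟩ hz
      have k := hB.pc.dP _ _ (mem_pd h1 h2 hz)
      rw [e1, e2] at k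
      rw [h1.eq T.aP hz.1, h2.eq T.aP hz.2, h1.eq T.aA hz.1, h2.eq T.aA hz.2]
      exact k
  · rintro ⟨t, w⟩ hz hc
    have k := mem_pd h1 h2 hz
    apply pos_nc hB.pc k
    have k2 : Tendsto (fun x : ℂ => x - ((n : ℂ) - 1 / 2) * w)
        (𝓝 (t + ((n : ℂ) - 1 / 2) * w)) (𝓝 t) := by
      have : ContinuousAt (fun x : ℂ => x - ((n : ℂ) - 1 / 2) * w)
          (t + ((n : ℂ) - 1 / 2) * w) := by fun_prop
      have h3 := this.tendsto
      rwa [add_sub_cancel_right] at h3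
    filter_upwards [k2.eventually hc] with x hx
    simp only [thz] at hx
    rwa [sub_add_cancel] at hx
  · rintro ⟨t, w⟩ hz hc
    have k := mem_pd h1 h2 hz
    apply pos_nz T hB.pc k
    have k2 : Tendsto (fun x : ℂ => x - ((n : ℂ) - 1 / 2) * w)
        (𝓝 (t + ((n : ℂ) - 1 / 2) * w)) (𝓝 t) := by
      have : ContinuousAt (fun x : ℂ => x - ((n : ℂ) - 1 / 2) * w)
          (t + ((n : ℂ) - 1 / 2) * w) := by fun_prop
      have h3 := this.tendsto
      rwa [add_sub_cancel_right] at h3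
    have hcn : Continuous fun x : ℂ => (x, w) := by fun_prop
    have hop : ∀ᶠ x in 𝓝 t, (x, w) ∈ B₁ ∩ B₂ :=
      ((h1.dn.op.inter h2.dn.op).preimage hcn).mem_nhds hz
    filter_upwards [k2.eventually hc, k2.eventually hop] with x hx hx2
    rw [h1.eq T.aA hx2.1, h2.eq T.aA hx2.2] at hx
    have f1 : x - ((n : ℂ) - 1 / 2) * w + (n : ℂ) * w = x + w / 2 := by ring
    have f2 : x - ((n : ℂ) - 1 / 2) * w + ((n - 1 : ℤ) : ℂ) * w = x - w / 2 := by
      push_cast; ring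
    simp only at hx
    rw [f1, f2] at hx
    exact hx

end pos

end Vale.Agent.P097.CC
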