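import Vale.Agent.P097.H286.C.PosB

/-!
# P097 / case [c] / POS (R0.5): incidence, simple roots, reflection form, no tangency
-/

set_option linter.all false

open Complex Metric Filter Topology Set
open scoped ComplexConjugate

namespace Vale.Agent.P097.CC

open Vale.Agent.P097 Vale.Agent.P097.TA Vale.Agent.P097.H202 Vale.Agent.P097.SC
open Vale.Agent.P097.H456.Fct Vale.Agent.P097.H456.Sp Vale.Agent.P097.H456.C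
open Vale.Agent.P097.H85
open Vale.Agent.P097.H830.CD (Inc Incx Inca br_eq_fderiv)

section
variable {Λ b : ℝ} {F q Q : ℂ → ℂ} {M : Set (ℂ × ℂ)} {a₁ p₁ a₂ p₂ θ : ℂ × ℂ → ℂ} {z : ℂ × ℂ}

theorem Mi_eq (F q : ℂ → ℂ) (a p x : ℂ) : TC.Mi F q a p x = Inc F q (x, a, p) := rfl

theorem hasDerivAt_Mi {a p x : ℂ} (aF : AnalyticAt ℂ F x) (aq : AnalyticAt ℂ q x) :
    HasDerivAt (TC.Mi F q a p) (Incx F q (x, a, p)) x := by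
  have h1 := hasDerivAt_Inc' (F := F) (q := q) (x := fun s => s) (a := fun _ => a)
    (b := fun _ => p) (s := x) aF aq (hasDerivAt_id x) (hasDerivAt_const x a)
    (hasDerivAt_const x p)
  refine h1.congr_deriv ?_
  simp

theorem deriv_Mi {a p x : ℂ} (aF : AnalyticAt ℂ F x) (aq : AnalyticAt ℂ q x) :
    deriv (TC.Mi F q a p) x = Incx F q (x, a, p) := (hasDerivAt_Mi aF aq).deriv

/-- exchange of the two lines -/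
theorem Psn.symm (T : Psn b F q M a₁ p₁ a₂ p₂ θ) : Psn b F q M a₂ p₂ a₁ p₁ θ := by
  refine ⟨T.an, T.mem, fun z hz => by rw [← T.sA z hz]; ring, fun z hz => ?_, fun z hz => ?_⟩
  · have h1 : (a₂ z - a₁ z) / 2 = -((a₁ z - a₂ z) / 2) := by ring
    rw [h1, Complex.cos_neg, ← T.sP z hz]
    ring
  · have h1 : (a₂ z - a₁ z) / 2 = -((a₁ z - a₂ z) / 2) := by ring
    rw [h1, Complex.sin_neg]
    linear_combination -(T.dP z hz)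

/-- smaller domain -/
theorem Psn.mono (T : Psn b F q M a₁ p₁ a₂ p₂ θ) {M' : Set (ℂ × ℂ)} (h : M' ⊆ M) :
    Psn b F q M' a₁ p₁ a₂ p₂ θ :=
  ⟨T.an.mono h, fun z hz => T.mem z (h hz), fun z hz => T.sA z (h hz), fun z hz => T.sP z (h hz),
    fun z hz => T.dP z (h hz)⟩

/-- **the reflection form**: line 2 is the mirror image of line 1 in the normal at the vertex -/
theorem Psn.refl (T : Psn b F q M a₁ p₁ a₂ p₂ θ) (hz : z ∈ M) :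
    a₂ z = 2 * F (θ z) - a₁ z ∧ p₂ z = 2 * q (θ z) * cos (a₁ z - F (θ z)) - p₁ z := by
  have h1 := T.sA z hz
  have h2 := T.sP z hz
  have h3 : a₁ z - F (θ z) = (a₁ z - a₂ z) / 2 := by linear_combination (1 / 2 : ℂ) * h1
  constructor
  · linear_combination h1
  · rw [h3]; linear_combination h2

/-- **incidence of line 1** -/
theorem Psn.inc (T : Psn b F q M a₁ p₁ a₂ p₂ θ) (hz : z ∈ M) :
    Inc F q (θ z, a₁ z, p₁ z) = 0 := by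
  have e1 := T.sA z hz
  have e2 := T.sP z hz
  have e3 := T.dP z hz
  have e4 : a₁ z - F (θ z) = (a₁ z - a₂ z) / 2 := by linear_combination (1 / 2 : ℂ) * e1
  simp only [Inc]
  rw [e4]
  linear_combination (-1 / 2 : ℂ) * deriv F (θ z) * e2 - (1 / 2 : ℂ) * e3

theorem Psn.mi (T : Psn b F q M a₁ p₁ a₂ p₂ θ) (hz : z ∈ M) :
    TC.Mi F q (a₁ z) (p₁ z) (θ z) = 0 := T.inc hz

/-- **transversality** -/
theorem Psn.tr (hB : Bs Λ b F q Q) (T : Psn b F q M a₁ p₁ a₂ p₂ θ) (hM : IsOpen M)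
    (h1 : AnalyticOnNhd ℂ a₁ M) (h2 : AnalyticOnNhd ℂ p₁ M) (hz : z ∈ M)
    (hb : br (fun t w => a₁ (t, w)) (fun t w => p₁ (t, w)) z.1 z.2 ≠ 0) :
    Incx F q (θ z, a₁ z, p₁ z) ≠ 0 := by
  have hm := T.mem z hz
  have hW : Wr F q (θ z) ≠ 0 := by
    rw [hB.wr _ hm]
    have : (Λ : ℂ) ≠ 0 := by exact_mod_cast hB.Λ0.ne'
    exact pow_ne_zero 3 this
  refine Incx_ne' ((hB.dF.analyticOnNhd (isOpen_Str b)) _ hm)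
    ((hB.dq.analyticOnNhd (isOpen_Str b)) _ hm) (h1 z hz) (h2 z hz) (T.an z hz) ?_ hW hb
  filter_upwards [hM.mem_nhds hz] with v hv using T.inc hv

/-- **the vertex is a simple root** -/
theorem Psn.smp (hB : Bs Λ b F q Q) (T : Psn b F q M a₁ p₁ a₂ p₂ θ) (hM : IsOpen M)
    (h1 : AnalyticOnNhd ℂ a₁ M) (h2 : AnalyticOnNhd ℂ p₁ M) (hz : z ∈ M)
    (hb : br (fun t w => a₁ (t, w)) (fun t w => p₁ (t, w)) z.1 z.2 ≠ 0) :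
    deriv (TC.Mi F q (a₁ z) (p₁ z)) (θ z) ≠ 0 := by
  have hm := T.mem z hz
  rw [deriv_Mi ((hB.dF.analyticOnNhd (isOpen_Str b)) _ hm)
    ((hB.dq.analyticOnNhd (isOpen_Str b)) _ hm)]
  exact T.tr hB hM h1 h2 hz hb

/-- **no tangency** -/
theorem Psn.tg (hB : Bs Λ b F q Q) (T : Psn b F q M a₁ p₁ a₂ p₂ θ) (hM : IsOpen M)
    (h1 : AnalyticOnNhd ℂ a₁ M) (h2 : AnalyticOnNhd ℂ p₁ M) (hz : z ∈ M)
    (hb : br (fun t w => a₁ (t, w)) (fun t w => p₁ (t, w)) z.1 z.2 ≠ 0)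
    (hg : deriv F (θ z) ≠ 0) : sin ((a₁ z - a₂ z) / 2) ≠ 0 ∧ sin (a₁ z - F (θ z)) ≠ 0 := by
  have e4 : a₁ z - F (θ z) = (a₁ z - a₂ z) / 2 := by
    linear_combination (1 / 2 : ℂ) * T.sA z hz
  rw [e4]
  have : sin ((a₁ z - a₂ z) / 2) ≠ 0 := by
    intro hs
    apply T.tr hB hM h1 h2 hz hb
    have e5 := T.inc hz
    simp only [Inc] at e5
    rw [e4, hs, mul_zero, add_zero] at e5
    have e6 := (mul_eq_zero.1 e5).resolve_left hg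
    simp only [Incx]
    rw [e4, hs, e6]
    ring
  exact ⟨this, this⟩

end

/-- everything about the position of the vertex between two lines `1`, `2` on the domain `M` -/
structure PosW (Λ b : ℝ) (F q : ℂ → ℂ) (e₁ b₀ : ℝ) (M : Set (ℂ × ℂ)) (a₁ p₁ a₂ p₂ θ : ℂ × ℂ → ℂ) :
    Prop where
  ps : Psn b F q M a₁ p₁ a₂ p₂ θ
  dn : Dn b₀ M
  nw : ∀ z ∈ M, ‖z.2‖ < e₁
  /-- analyticity of the two lines -/
  aa₁ : AnalyticOnNhd ℂ a₁ M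
  ap₁ : AnalyticOnNhd ℂ p₁ M
  aa₂ : AnalyticOnNhd ℂ a₂ M
  ap₂ : AnalyticOnNhd ℂ p₂ M
  /-- incidence -/
  mi₁ : ∀ z ∈ M, TC.Mi F q (a₁ z) (p₁ z) (θ z) = 0
  mi₂ : ∀ z ∈ M, TC.Mi F q (a₂ z) (p₂ z) (θ z) = 0
  /-- simple roots -/
  sm₁ : ∀ z ∈ M, z.2 ≠ 0 → deriv (TC.Mi F q (a₁ z) (p₁ z)) (θ z) ≠ 0
  sm₂ : ∀ z ∈ M, z.2 ≠ 0 → deriv (TC.Mi F q (a₂ z) (p₂ z)) (θ z) ≠ 0
  ix₁ : ∀ z ∈ M, z.2 ≠ 0 → Incx F q (θ z, a₁ z, p₁ z) ≠ 0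
  ix₂ : ∀ z ∈ M, z.2 ≠ 0 → Incx F q (θ z, a₂ z, p₂ z) ≠ 0
  /-- no tangency -/
  tg : ∀ z ∈ M, z.2 ≠ 0 → deriv F (θ z) ≠ 0 → sin ((a₁ z - a₂ z) / 2) ≠ 0 ∧
    sin (a₁ z - F (θ z)) ≠ 0 ∧ sin (a₂ z - F (θ z)) ≠ 0
  /-- reflection form -/
  rA : ∀ z ∈ M, a₂ z = 2 * F (θ z) - a₁ z
  rP : ∀ z ∈ M, p₂ z = 2 * q (θ z) * cos (a₁ z - F (θ z)) - p₁ z
  rA' : ∀ z ∈ M, a₁ z = 2 * F (θ z) - a₂ z
  rP' : ∀ z ∈ M, p₁ z = 2 * q (θ z) * cos (a₂ z - F (θ z)) - p₂ z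

section pos
variable {κ Λ b : ℝ} {H Φ : ℂ → ℂ} {r e : ℝ} {α p : ℂ → ℂ → ℂ} {J F q Q : ℂ → ℂ}
  {e₁ c₀ : ℝ} {R : ℂ → ℝ} {A P θ : ℂ × ℂ → ℂ} {n : ℤ} {b₀ : ℝ} {B₁ B₂ : Set (ℂ × ℂ)}

/-- **POS, complete form** -/
theorem exists_posW (hB : Base κ Λ b H Φ r e α p J F q Q e₁ c₀ R A P θ)
    (h1 : NatD R e₁ b₀ n B₁) (h2 : NatD R e₁ b₀ (n - 1) B₂) :
    ∃ θ' : ℂ × ℂ → ℂ, PosW Λ b F q e₁ b₀ (mb b₀ A P n B₁ ∩ mb b₀ A P (n - 1) B₂)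
      (gz b₀ A n B₁) (gz b₀ P n B₁) (gz b₀ A (n - 1) B₂) (gz b₀ P (n - 1) B₂) θ' ∧
      ∀ z ∈ B₁ ∩ B₂, θ' z = thz θ n z := by
  obtain ⟨θ', T, hT⟩ := exists_psn hB h1 h2
  have dn := ((h1.rh (A := A) (P := P) hB.rd).inter (h2.rh (A := A) (P := P) hB.rd)).dn
  have aa₁ : AnalyticOnNhd ℂ (gz b₀ A n B₁) (mb b₀ A P n B₁ ∩ mb b₀ A P (n - 1) B₂) :=
    fun z hz => h1.anA (P := P) z hz.1
  have ap₁ : AnalyticOnNhd ℂ (gz b₀ P n B₁) (mb b₀ A P n B₁ ∩ mb b₀ A P (n - 1) B₂) :=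
    fun z hz => h1.anP (A := A) z hz.1
  have aa₂ : AnalyticOnNhd ℂ (gz b₀ A (n - 1) B₂) (mb b₀ A P n B₁ ∩ mb b₀ A P (n - 1) B₂) :=
    fun z hz => h2.anA (P := P) z hz.2
  have ap₂ : AnalyticOnNhd ℂ (gz b₀ P (n - 1) B₂) (mb b₀ A P n B₁ ∩ mb b₀ A P (n - 1) B₂) :=
    fun z hz => h2.anP (A := A) z hz.2
  have b1 : ∀ z ∈ mb b₀ A P n B₁ ∩ mb b₀ A P (n - 1) B₂, z.2 ≠ 0 →
      br (fun t w => gz b₀ A n B₁ (t, w)) (fun t w => gz b₀ P n B₁ (t, w)) z.1 z.2 ≠ 0 :=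
    fun z hz hw => h1.br_ne hB hz.1 hw
  have b2 : ∀ z ∈ mb b₀ A P n B₁ ∩ mb b₀ A P (n - 1) B₂, z.2 ≠ 0 →
      br (fun t w => gz b₀ A (n - 1) B₂ (t, w)) (fun t w => gz b₀ P (n - 1) B₂ (t, w))
        z.1 z.2 ≠ 0 := fun z hz hw => h2.br_ne hB hz.2 hw
  refine ⟨θ', ⟨T, dn, fun z hz => h1.norm hz.1, aa₁, ap₁, aa₂, ap₂, fun z hz => T.mi hz,
    fun z hz => T.symm.mi hz, fun z hz hw => T.smp hB.bs dn.op aa₁ ap₁ hz (b1 z hz hw),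
    fun z hz hw => T.symm.smp hB.bs dn.op aa₂ ap₂ hz (b2 z hz hw),
    fun z hz hw => T.tr hB.bs dn.op aa₁ ap₁ hz (b1 z hz hw),
    fun z hz hw => T.symm.tr hB.bs dn.op aa₂ ap₂ hz (b2 z hz hw), fun z hz hw hg => ?_,
    fun z hz => (T.refl hz).1, fun z hz => (T.refl hz).2, fun z hz => (T.symm.refl hz).1,
    fun z hz => (T.symm.refl hz).2⟩, hT⟩
  obtain ⟨k1, k2⟩ := T.tg hB.bs dn.op aa₁ ap₁ hz (b1 z hz hw) hg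
  obtain ⟨k3, k4⟩ := T.symm.tg hB.bs dn.op aa₂ ap₂ hz (b2 z hz hw) hg
  exact ⟨k1, k2, k4⟩

end pos

end Vale.Agent.P097.CC
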