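import Vale.Agent.P097.H6.TopR0
import Vale.Agent.P097.H286.C.PosI

/-!
# P097 / case [c] / POS (R0.5) over the literal objects of `H6/TopW.lean`
-/

set_option linter.all false

open Complex Metric Filter Topology Set
open scoped ComplexConjugate

namespace Vale.Agent.P097.H6

open Vale.Agent.P097 Vale.Agent.P097.TA Vale.Agent.P097.H202 Vale.Agent.P097.SC
open Vale.Agent.P097.H85 Vale.Agent.P097.H929 Vale.Agent.P097.H543 Vale.Agent.P097.H456.C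

variable {κ Λ b : ℝ} {H Φ : ℂ → ℂ} {r e : ℝ} {α p : ℂ → ℂ → ℂ} {J F q Q : ℂ → ℂ}
  {e₁ c₀ : ℝ} {R : ℂ → ℝ} {A P θ : ℂ × ℂ → ℂ} {n : ℤ} {ε b₀ : ℝ}

/-- the native domain of 6 is a native domain -/
theorem natD (hB : CC.Base κ Λ b H Φ r e α p J F q Q e₁ c₀ R A P θ)
    (h : |(n : ℝ)| * ε ≤ b₀) : CC.NatD R e₁ b₀ n (Bn R e₁ ε b₀ n) :=
  ⟨dn_Bn hB, fun t w ht => Bn_sub hB h ht⟩

/-- **POS**: the position of the vertex between the lines `n` and `n - 1`, continued to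
`MM n ∩ MM (n - 1)` -/
theorem exists_pos (hB : CC.Base κ Λ b H Φ r e α p J F q Q e₁ c₀ R A P θ)
    (h : |(n : ℝ)| * ε ≤ b₀) (h' : |((n - 1 : ℤ) : ℝ)| * ε ≤ b₀) :
    ∃ θ' : ℂ × ℂ → ℂ, CC.PosW Λ b F q e₁ b₀ (MM R A P e₁ ε b₀ n ∩ MM R A P e₁ ε b₀ (n - 1))
      (fun z => gx b₀ (Ln A n) (Bn R e₁ ε b₀ n) z.1 z.2)
      (fun z => gx b₀ (Ln P n) (Bn R e₁ ε b₀ n) z.1 z.2)
      (fun z => gx b₀ (Ln A (n - 1)) (Bn R e₁ ε b₀ (n - 1)) z.1 z.2)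
      (fun z => gx b₀ (Ln P (n - 1)) (Bn R e₁ ε b₀ (n - 1)) z.1 z.2) θ' ∧
      ∀ z ∈ Bn R e₁ ε b₀ n ∩ Bn R e₁ ε b₀ (n - 1), θ' z = Th θ n z :=
  CC.exists_posW hB (natD hB h) (natD hB h')

/-- the bracket on `MM n` -/
theorem MM_bracket (hB : CC.Base κ Λ b H Φ r e α p J F q Q e₁ c₀ R A P θ)
    (h : |(n : ℝ)| * ε ≤ b₀) {t w : ℂ} (hz : (t, w) ∈ MM R A P e₁ ε b₀ n) :
    br (gx b₀ (Ln A n) (Bn R e₁ ε b₀ n)) (gx b₀ (Ln P n) (Bn R e₁ ε b₀ n)) t w = J w :=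
  (natD hB h).bracket hB hz

theorem MM_br_ne (hB : CC.Base κ Λ b H Φ r e α p J F q Q e₁ c₀ R A P θ)
    (h : |(n : ℝ)| * ε ≤ b₀) {t w : ℂ} (hz : (t, w) ∈ MM R A P e₁ ε b₀ n) (hw : w ≠ 0) :
    br (gx b₀ (Ln A n) (Bn R e₁ ε b₀ n)) (gx b₀ (Ln P n) (Bn R e₁ ε b₀ n)) t w ≠ 0 :=
  (natD hB h).br_ne hB hz hw

/-- **POS in the world** -/
theorem GW.pos {m : ℝ} {Ψ : ℂ → ℂ} {S : Set ℝ} {Pt : ℝ → ℂ} {c k : ℝ → ℝ} {y₁ y₂ s s' : ℝ}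
    (hB : CC.Base κ Λ b H Φ r e α p J F q Q e₁ c₀ R A P θ)
    (G : GW R A P e₁ n ε b₀ m Ψ S Pt c k y₁ y₂ s s') :
    ∃ θ' : ℂ × ℂ → ℂ, CC.PosW Λ b F q e₁ b₀ (MM R A P e₁ ε b₀ n ∩ MM R A P e₁ ε b₀ (n - 1))
      (fun z => gx b₀ (Ln A n) (Bn R e₁ ε b₀ n) z.1 z.2)
      (fun z => gx b₀ (Ln P n) (Bn R e₁ ε b₀ n) z.1 z.2)
      (fun z => gx b₀ (Ln A (n - 1)) (Bn R e₁ ε b₀ (n - 1)) z.1 z.2)
      (fun z => gx b₀ (Ln P (n - 1)) (Bn R e₁ ε b₀ (n - 1)) z.1 z.2) θ' ∧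
      ∀ z ∈ Bn R e₁ ε b₀ n ∩ Bn R e₁ ε b₀ (n - 1), θ' z = Th θ n z :=
  exists_pos hB (G.rh hB).1.1 (G.rh hB).1.2

end Vale.Agent.P097.H6
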