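import Vale.Agent.P097.H286.C.Loc2

/-! # P097 (helper286) / case [c], row R0: continuation of a position through an isolated point -/

set_option linter.all false
set_option autoImplicit false

open Complex Set Filter Metric Topology Function.Periodic

namespace Vale.Agent.P097.H286

variable {ι : Type*}

theorem ext_punct {G : ι → ℂ → ℂ} {H : ℝ} (hB : Base H G) {τ : ℂ} {ρ : ℝ} (hρ : 0 < ρ)
    {f : ι → ℂ → ℂ} (hf : ∀ i, DifferentiableOn ℂ (f i) (ball τ ρ \ {τ})) {m : ℂ → ℂ}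
    (hm : DifferentiableOn ℂ m (ball τ ρ \ {τ})) (hm0 : ∀ t ∈ ball τ ρ \ {τ}, m t ≠ 0)
    {t₁ : ℂ} (ht₁ : t₁ ∈ ball τ ρ \ {τ}) {θ : ℂ → ℂ} (hθ : AnalyticAt ℂ θ t₁)
    (hS : θ t₁ ∈ St H) (h6 : ∀ᶠ t in 𝓝 t₁, deriv θ t ^ 6 = m t)
    (hr : ∀ i, ∀ᶠ t in 𝓝 t₁, f i t = G i (θ t)) :
    ∃ θ' : ℂ → ℂ, DifferentiableOn ℂ θ' (ball τ ρ) ∧ MapsTo θ' (ball τ ρ) (St H) ∧
      θ' =ᶠ[𝓝 t₁] θ ∧ (∀ t ∈ ball τ ρ \ {τ}, ∀ i, f i t = G i (θ' t)) ∧
      ∀ t ∈ ball τ ρ \ {τ}, deriv θ' t ^ 6 = m t := by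
  have h10 : (0 : ℝ) < 1 := one_pos
  have hpo : IsOpen (ball τ ρ \ {τ}) := isOpen_ball.sdiff isClosed_singleton
  set A : ℂ := 2 * Real.pi * I / ((1 : ℝ) : ℂ) with hA
  have hA0 : A ≠ 0 := div_ne_zero two_pi_I_ne_zero (by norm_num)
  set B : ℝ := -Real.log ρ / (2 * Real.pi) with hBd
  have hBρ : Real.exp (-2 * Real.pi * B / 1) = ρ := by
    have hpi : Real.pi ≠ 0 := Real.pi_ne_zero
    have : -2 * Real.pi * B / 1 = Real.log ρ := by
      rw [hBd]; field_simp
    rw [this, Real.exp_log hρ]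
  set Q : ℂ → ℂ := fun z => τ + qParam 1 z with hQ
  have hQd : ∀ z, HasDerivAt Q (qParam 1 z * A) z := fun z => (hasDerivAt_q (h := 1) z).const_add τ
  have hQ0 : ∀ z, qParam 1 z * A ≠ 0 := fun z => mul_ne_zero (qParam_ne_zero z) hA0
  have hQm : ∀ z ∈ HP B, Q z ∈ ball τ ρ \ {τ} := by
    intro z hz
    refine ⟨?_, ?_⟩
    · rw [mem_ball, dist_eq_norm]
      show ‖τ + qParam 1 z - τ‖ < ρ
      rw [add_sub_cancel_left, ← hBρ]
      exact (norm_qParam_lt_iff h10 B z).2 hz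
    · intro h
      have h1 : τ + qParam 1 z = τ := h
      exact qParam_ne_zero (h := 1) z (by linear_combination h1)
  have hQi : ∀ t ∈ ball τ ρ \ {τ}, ∃ z ∈ HP B, Q z = t := by
    intro t ht
    have ht0 : t - τ ≠ 0 := sub_ne_zero.2 ht.2
    refine ⟨invQParam 1 (t - τ), ?_, ?_⟩
    · have h1 := norm_qParam_lt_iff h10 B (invQParam 1 (t - τ))
      rw [qParam_right_inv h10.ne' ht0, hBρ] at h1
      exact h1.1 (by rw [← dist_eq_norm]; exact ht.1)
    · show τ + qParam 1 (invQParam 1 (t - τ)) = t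
      rw [qParam_right_inv h10.ne' ht0]; ring
  have hQp : ∀ z, qParam 1 (z + 1) = qParam 1 z := by
    intro z
    unfold qParam
    have : 2 * (Real.pi : ℂ) * I * (z + 1) / ((1 : ℝ) : ℂ) =
        2 * (Real.pi : ℂ) * I * z / ((1 : ℝ) : ℂ) + 2 * Real.pi * I := by push_cast; ring
    rw [this, exp_add, exp_two_pi_mul_I, mul_one]
  have hD := isOpen_HP B
  have hDc := convex_HP B
  have hQD : Differentiable ℂ Q := fun z => (hQd z).differentiableAt
  -- the sixth power
  set h : ℂ → ℂ := fun z => (qParam 1 z * A) ^ 6 * m (Q z) with hh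
  have hhd : DifferentiableOn ℂ h (HP B) := by
    have h1 : DifferentiableOn ℂ (fun z => m (Q z)) (HP B) :=
      hm.comp hQD.differentiableOn fun z hz => hQm z hz
    have h2 : Differentiable ℂ (fun z => (qParam 1 z * A) ^ 6) :=
      (differentiable_qParam.mul_const A).pow 6
    exact h2.differentiableOn.mul h1
  have hh0 : ∀ z ∈ HP B, h z ≠ 0 := fun z hz =>
    mul_ne_zero (pow_ne_zero _ (hQ0 z)) (hm0 _ (hQm z hz))
  obtain ⟨z₁, hz₁, hQz₁⟩ := hQi t₁ ht₁
  have hθm : deriv θ t₁ ^ 6 = m t₁ := h6.self_of_nhds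
  obtain ⟨k, hk, hk6, hk1⟩ := exists_root hD hDc hhd hh0 hz₁
    (c := deriv θ t₁ * (qParam 1 z₁ * A)) (by
      simp only [hh]
      rw [hQz₁, mul_pow, hθm]; ring)
  have hk0 : ∀ z ∈ HP B, k z ≠ 0 := by
    intro z hz h0
    have := hk6 z hz
    rw [h0] at this
    exact hh0 z hz (by rw [← this]; norm_num)
  obtain ⟨F₀, hF₀⟩ := H202.prim_convex hD hDc hk
  set F : ℂ → ℂ := fun z => F₀ z - F₀ z₁ + θ t₁ with hF
  have hFd : ∀ z ∈ HP B, HasDerivAt F (k z) z := fun z hz => ((hF₀ z hz).sub_const _).add_const _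
  have hFD : DifferentiableOn ℂ F (HP B) := fun z hz => (hFd z hz).differentiableAt.differentiableWithinAt
  have hF1 : F z₁ = θ t₁ := by simp [hF]
  have hF' : ∀ z ∈ HP B, deriv F z ≠ 0 := fun z hz => by rw [(hFd z hz).deriv]; exact hk0 z hz
  -- near `z₁`
  have hev : ∀ᶠ z in 𝓝 z₁, z ∈ HP B ∧ AnalyticAt ℂ θ (Q z) ∧ deriv θ (Q z) ^ 6 = m (Q z) := by
    have hc : Tendsto Q (𝓝 z₁) (𝓝 t₁) := by
      rw [← hQz₁]; exact (hQD z₁).continuousAt
    filter_upwards [hD.mem_nhds hz₁, hc.eventually hθ.eventually_analyticAt, hc.eventually h6] with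
      z a b c using ⟨a, b, c⟩
  obtain ⟨δ, hδ, hb⟩ := Metric.eventually_nhds_iff_ball.1 hev
  have hbH : ball z₁ δ ⊆ HP B := fun z hz => (hb z hz).1
  have hθQ : ∀ z ∈ ball z₁ δ, HasDerivAt (fun z => θ (Q z)) (deriv θ (Q z) * (qParam 1 z * A)) z :=
    fun z hz => (hb z hz).2.1.differentiableAt.hasDerivAt.comp z (hQd z)
  have hKd : DifferentiableOn ℂ (fun z => deriv θ (Q z) * (qParam 1 z * A)) (ball z₁ δ) := by
    intro z hz
    apply DifferentiableAt.differentiableWithinAt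
    have h1 : DifferentiableAt ℂ (fun z => deriv θ (Q z)) z :=
      DifferentiableAt.comp z (hb z hz).2.1.deriv.differentiableAt (hQD z)
    exact h1.mul ((differentiable_qParam z).mul_const A)
  obtain ⟨ω, hω, hKk⟩ := H456.Edge.six_const isOpen_ball (convex_ball z₁ δ) hKd (hk.mono hbH)
    (fun z hz => hk0 z (hbH hz)) (fun z hz => by
      rw [hk6 z (hbH hz)]
      simp only [hh]
      rw [mul_pow, (hb z hz).2.2]; ring) (mem_ball_self hδ)
  have hω1 : ω = 1 := by
    have h1 := hKk z₁ (mem_ball_self hδ)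
    rw [hQz₁, ← hk1] at h1
    have h2 : (ω - 1) * k z₁ = 0 := by linear_combination -h1
    rcases mul_eq_zero.1 h2 with h3 | h3
    · exact sub_eq_zero.1 h3
    · exact absurd h3 (hk0 z₁ hz₁)
  have hFθ : ∀ z ∈ ball z₁ δ, F z = θ (Q z) := by
    intro z hz
    have h1 : ∀ w ∈ ball z₁ δ, HasDerivAt (fun w => F w - θ (Q w)) 0 w := by
      intro w hw
      have h2 := (hFd w (hbH hw)).sub (hθQ w hw)
      have h3 := hKk w hw
      rw [hω1, one_mul] at h3
      rw [h3, sub_self] at h2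
      exact h2
    have h2 := H456.Edge.const_of_deriv (convex_ball z₁ δ) isOpen_ball h1 hz (mem_ball_self hδ)
    rw [hF1, hQz₁, sub_self] at h2
    exact sub_eq_zero.1 h2
  -- the strip
  have hmain := coreD hB hD hDc.isPreconnected hFD hF' (q := fun i z => f i (Q z))
    (fun i => (hf i).comp hQD.differentiableOn fun z hz => hQm z hz) hz₁ (by rw [hF1]; exact hS)
    (fun i => by
      have hc : Tendsto Q (𝓝 z₁) (𝓝 t₁) := by
        rw [← hQz₁]; exact (hQD z₁).continuousAt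
      filter_upwards [hc.eventually (hr i), isOpen_ball.mem_nhds (mem_ball_self hδ)] with z h1 h2
      rw [h1, hFθ z h2])
  have hSle : ∀ z ∈ HP B, |(F z).im| ≤ H := fun z hz => le_of_lt (hmain z hz).1
  have hm1 : ∀ z ∈ HP B, z + 1 ∈ HP B := fun z hz => by
    show B < (z + 1).im
    rw [add_im, one_im, add_zero]; exact hz
  have hp6 := per6 hFD hF' hSle (fun z hz => by
    rw [(hFd z hz).deriv, (hFd _ (hm1 z hz)).deriv, hk6 z hz, hk6 _ (hm1 z hz)]
    simp only [hh, hQ]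
    rw [hQp])
  obtain ⟨x, hx⟩ := lim_cusp hFD hSle hp6
  have hxS := lim_mem hFD hF' (fun z hz => (hmain z hz).1) hp6 hx
  -- period one
  obtain ⟨i₀, hi₀⟩ := hB.imm x hxS
  have hGa : AnalyticAt ℂ (G i₀) x := ((hB.hol i₀).analyticOnNhd (isOpen_St H)) _ hxS
  obtain ⟨κ, hκa, hκe, hκr, hκl⟩ := locInv hGa hi₀
  haveI : (comap Complex.im atTop).NeBot := by
    refine comap_neBot fun t ht => ?_
    obtain ⟨a, ha⟩ := mem_atTop_sets.1 ht
    exact ⟨(a : ℂ) * I, by simpa using ha a le_rfl⟩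
  obtain ⟨B', hB'⟩ := exists_of_ev (hx.eventually hκl)
  have hp1' : ∀ z ∈ HP (max B B'), F (z + 1) = F z := by
    intro z hz
    have hzB : z ∈ HP B := by
      show B < z.im
      have h1 : max B B' < z.im := hz
      exact lt_of_le_of_lt (le_max_left B B') h1
    have hzB' : z ∈ HP B' := by
      show B' < z.im
      have h1 : max B B' < z.im := hz
      exact lt_of_le_of_lt (le_max_right B B') h1
    have hzB1 : z + 1 ∈ HP B' := by
      show B' < (z + 1).im
      rw [add_im, one_im, add_zero]; exact hzB'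
    rw [← hB' z hzB', ← hB' _ hzB1, ← (hmain z hzB).2 i₀, ← (hmain _ (hm1 z hzB)).2 i₀]
    simp only [hQ]
    rw [hQp]
  have hp1 : ∀ z ∈ HP B, F (z + ((1 : ℝ) : ℂ)) = F z := by
    intro z hz
    have h1 : AnalyticOnNhd ℂ (fun z => F (z + 1)) (HP B) := by
      apply DifferentiableOn.analyticOnNhd _ hD
      exact hFD.comp (by fun_prop) fun z hz => hm1 z hz
    have hz0 : (((max B B' + 1 : ℝ) : ℂ) * I) ∈ HP (max B B') := by
      show max B B' < _
      simp
    have hz0B : (((max B B' + 1 : ℝ) : ℂ) * I) ∈ HP B := by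
      show B < _
      have h2 : max B B' < ((((max B B' + 1 : ℝ) : ℂ) * I)).im := hz0
      exact lt_of_le_of_lt (le_max_left B B') h2
    have h2 := h1.eqOn_of_preconnected_of_eventuallyEq (hFD.analyticOnNhd hD) hDc.isPreconnected
      hz0B (by filter_upwards [(isOpen_HP _).mem_nhds hz0] with w hw using hp1' w hw)
    push_cast
    exact h2 hz
  have hper := cut_per hp1
  have hhol : ∀ᶠ z in comap Complex.im atTop, DifferentiableAt ℂ (cut B F) z := by
    filter_upwards [ev_HP B] with z hz using cut_diff hFD hz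
  have hx' : Tendsto (cut B F) (comap Complex.im atTop) (𝓝 x) :=
    hx.congr' (by filter_upwards [ev_HP B] with z hz using (cut_eq hz).symm)
  have hbd : BoundedAtFilter (comap Complex.im atTop) (cut B F) := by
    unfold BoundedAtFilter
    exact hx'.isBigO_one ℝ
  set Θ : ℂ → ℂ := cuspFunction 1 (cut B F) with hΘ
  have hΘ0 : Θ 0 = x := tendsto_nhds_unique (tendsto_at_I_inf h10 hper hhol hbd) hx'
  have hΘe : ∀ z ∈ HP B, Θ (qParam 1 z) = F z := fun z hz => by
    rw [hΘ, eq_cuspFunction h10.ne' hper, cut_eq hz]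
  set θ' : ℂ → ℂ := fun t => Θ (t - τ) with hθ'
  have hθ'e : ∀ z ∈ HP B, θ' (Q z) = F z := fun z hz => by
    have : Q z - τ = qParam 1 z := by simp [hQ]
    simp only [hθ']
    rw [this, hΘe z hz]
  have hθ'd : ∀ t ∈ ball τ ρ, DifferentiableAt ℂ θ' t := by
    intro t ht
    have hsub : DifferentiableAt ℂ (fun t : ℂ => t - τ) t := by fun_prop
    by_cases ht0 : t = τ
    · have h1 : DifferentiableAt ℂ Θ (t - τ) := by
        rw [ht0, sub_self]; exact differentiableAt_cuspFunction_zero h10 hper hhol hbd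
      exact DifferentiableAt.comp t h1 hsub
    · obtain ⟨z, hz, rfl⟩ := hQi t ⟨ht, ht0⟩
      have h1 : DifferentiableAt ℂ Θ (Q z - τ) := by
        have : Q z - τ = qParam 1 z := by simp [hQ]
        rw [this]
        exact differentiableAt_cuspFunction h10.ne' hper (cut_diff hFD hz)
      exact DifferentiableAt.comp _ h1 hsub
  refine ⟨θ', fun t ht => (hθ'd t ht).differentiableWithinAt, fun t ht => ?_, ?_, ?_, ?_⟩
  · by_cases ht0 : t = τ
    · have : θ' t = x := by simp only [hθ']; rw [ht0, sub_self, hΘ0]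
      rw [this]; exact hxS
    · obtain ⟨z, hz, rfl⟩ := hQi t ⟨ht, ht0⟩
      rw [hθ'e z hz]; exact (hmain z hz).1
  · have hstrict : HasStrictDerivAt Q (qParam 1 z₁ * A) z₁ := by
      have h1 : AnalyticAt ℂ Q z₁ := hQD.analyticAt z₁
      have h2 := h1.hasStrictDerivAt
      rwa [(hQd z₁).deriv] at h2
    have hmap := hstrict.map_nhds_eq (hQ0 z₁)
    rw [← hQz₁, ← hmap]
    show ∀ᶠ t in map Q (𝓝 z₁), θ' t = θ t
    rw [eventually_map]
    filter_upwards [isOpen_ball.mem_nhds (mem_ball_self hδ)] with z hz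
    rw [hθ'e z (hbH hz), hFθ z hz]
  · intro t ht i
    obtain ⟨z, hz, rfl⟩ := hQi t ht
    rw [hθ'e z hz]; exact (hmain z hz).2 i
  · intro t ht
    obtain ⟨z, hz, rfl⟩ := hQi t ht
    have h1 := ((hθ'd _ (hQm z hz).1).hasDerivAt.comp z (hQd z))
    have h2 : F =ᶠ[𝓝 z] θ' ∘ Q := by
      filter_upwards [hD.mem_nhds hz] with w hw using (hθ'e w hw).symm
    have h3 : k z = deriv θ' (Q z) * (qParam 1 z * A) := by
      rw [← (hFd z hz).deriv, h2.deriv_eq, h1.deriv]
    have h4 := hk6 z hz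
    simp only [hh] at h4
    rw [h3, mul_pow] at h4
    have h5 : (qParam 1 z * A) ^ 6 ≠ 0 := pow_ne_zero _ (hQ0 z)
    exact mul_right_cancel₀ h5 (by linear_combination h4)

end Vale.Agent.P097.H286
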