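import Vale.Agent.P097.H286.C.Lift
import Vale.Agent.P097.H286.C.Defs

/-! # P097 (helper286) / case [c]: Row Lift -/

set_option linter.all false

open Complex Metric Filter Topology Set
open scoped ComplexConjugate

namespace Vale.Agent.P097.CC

open Vale.Agent.P097 Vale.Agent.P097.TA Vale.Agent.P097.H202 Vale.Agent.P097.SC
open Vale.Agent.P097.H286

/-- holomorphic logarithm on convex open sets -/
theorem exists_lg {S : Set ℂ} (hS : IsOpen S) (hc : Convex ℝ S) {h : ℂ → ℂ}
    (hh : DifferentiableOn ℂ h S) (h0 : ∀ z ∈ S, h z ≠ 0) :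
    ∃ L : ℂ → ℂ, DifferentiableOn ℂ L S ∧ ∀ z ∈ S, exp (L z) = h z := by
  rcases S.eq_empty_or_nonempty with rfl | ⟨z₁, hz₁⟩
  · exact ⟨0, by simp, by simp⟩
  obtain ⟨L, hL⟩ := H202.prim_convex hS hc ((hh.deriv hS).div hh h0)
  have hd : ∀ z ∈ S, HasDerivAt (fun z => h z * exp (-L z)) 0 z := by
    intro z hz
    have h1 := (hh.differentiableAt (hS.mem_nhds hz)).hasDerivAt.mul (hL z hz).neg.cexp
    have h2 : deriv h z * exp (-L z) + h z * (exp (-L z) * -((deriv h / h) z)) = 0 := by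
      have := h0 z hz
      rw [Pi.div_apply]
      field_simp
      ring
    rw [← h2]
    exact h1
  have hconst : ∀ z ∈ S, h z * exp (-L z) = h z₁ * exp (-L z₁) := fun z hz =>
    H456.Edge.const_of_deriv hc hS hd hz hz₁
  have hk0 : h z₁ * exp (-L z₁) ≠ 0 := mul_ne_zero (h0 z₁ hz₁) (exp_ne_zero _)
  refine ⟨fun z => L z + log (h z₁ * exp (-L z₁)), ?_, fun z hz => ?_⟩
  · exact fun z hz => ((hL z hz).differentiableAt.add_const _).differentiableWithinAt
  · show exp (L z + log (h z₁ * exp (-L z₁))) = h z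
    rw [exp_add, exp_log hk0, ← hconst z hz]
    have h2 : exp (-L z) * exp (L z) = 1 := by rw [← exp_add]; simp
    linear_combination h z * h2

theorem str_eq_St (b : ℝ) : Str b = St b := rfl

/-- the immersion of the strip -/
noncomputable def Gm (F q : ℂ → ℂ) : Bool → ℂ → ℂ
  | true => fun z => exp (2 * I * F z)
  | false => fun z => q z * exp (-I * F z)

variable {Λ b : ℝ} {F q Q : ℂ → ℂ}

/-- extension of `exp (i F)` and `q` across a point of the boundary -/
theorem Bs.loc_ext (B : Bs Λ b F q Q) {x : ℂ} (hx : |x.im| = b) {ε : ℝ} (hε : 0 < ε)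
    {A : Bool → ℂ → ℂ} (hA : ∀ i, DifferentiableOn ℂ (A i) (ball x ε))
    (hAG : ∀ i, ∀ z ∈ ball x ε, z ∈ St b → A i z = Gm F q i z) :
    ∃ (x' : ℂ) (ρ : ℝ) (Z' q' : ℂ → ℂ), x'.im = x.im ∧ 0 < ρ ∧ ρ ≤ b ∧
      DifferentiableOn ℂ Z' (ball x' ρ) ∧ DifferentiableOn ℂ q' (ball x' ρ) ∧
      (∀ z ∈ ball x' ρ, Z' z ≠ 0) ∧
      ∀ z ∈ ball x' ρ, z ∈ St b → Z' z = exp (I * F z) ∧ q' z = q z := by
  have hb := B.b0
  -- points of the strip near `x`
  have hin : ∀ r > 0, ∃ z ∈ ball x r, z ∈ St b := by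
    intro r hr
    set s : ℝ := min (r / (2 * b)) 1 with hs
    have hs0 : 0 < s := by positivity
    have hs1 : s ≤ 1 := min_le_right _ _
    refine ⟨x - ((s * x.im : ℝ) : ℂ) * I, ?_, ?_⟩
    · rw [mem_ball, dist_eq_norm]
      have : x - ((s * x.im : ℝ) : ℂ) * I - x = -(((s * x.im : ℝ) : ℂ) * I) := by ring
      rw [this, norm_neg, norm_mul, Complex.norm_I, mul_one, Complex.norm_real, Real.norm_eq_abs,
        abs_mul, hx, abs_of_pos hs0]
      have h1 : s ≤ r / (2 * b) := min_le_left _ _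
      calc s * b ≤ r / (2 * b) * b := by gcongr
        _ = r / 2 := by field_simp
        _ < r := by linarith
    · show |(x - ((s * x.im : ℝ) : ℂ) * I).im| < b
      have : (x - ((s * x.im : ℝ) : ℂ) * I).im = (1 - s) * x.im := by simp; ring
      rw [this, abs_mul, hx, abs_of_nonneg (by linarith)]
      nlinarith
  have hxA : AnalyticAt ℂ (A true) x :=
    (hA true).analyticAt (isOpen_ball.mem_nhds (mem_ball_self hε))
  have hne : ∀ᶠ z in 𝓝[≠] x, A true z ≠ 0 := by
    rcases hxA.eventually_eq_zero_or_eventually_ne_zero with h | h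
    · exfalso
      obtain ⟨r, hr, hrb⟩ := Metric.eventually_nhds_iff_ball.1
        (h.and (isOpen_ball.mem_nhds (mem_ball_self hε)))
      obtain ⟨z, hz, hzS⟩ := hin r hr
      have h1 := (hrb z hz).1
      rw [hAG true z (hrb z hz).2 hzS] at h1
      exact exp_ne_zero _ h1
    · exact h
  obtain ⟨r₀, hr₀, hrb⟩ := Metric.mem_nhdsWithin_iff.1
    (hne.and (mem_nhdsWithin_of_mem_nhds (isOpen_ball.mem_nhds (mem_ball_self hε))))
  set r : ℝ := min r₀ b with hr
  have hr0 : 0 < r := lt_min hr₀ hb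
  set x' : ℂ := x + ((r / 2 : ℝ) : ℂ) with hx'
  have hdist : dist x' x = r / 2 := by
    rw [dist_eq_norm, hx', add_sub_cancel_left, Complex.norm_real, Real.norm_eq_abs,
      abs_of_pos (by positivity)]
  have hsub : ∀ z ∈ ball x' (r / 2), z ∈ ball x ε ∧ A true z ≠ 0 := by
    intro z hz
    have h1 : dist z x < r := by
      have := dist_triangle z x' x
      rw [mem_ball] at hz
      linarith
    have h2 : z ≠ x := by
      rintro rfl
      rw [mem_ball, dist_comm] at hz
      linarith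
    have h3 := hrb ⟨(mem_ball.2 (h1.trans_le (min_le_left _ _)) : z ∈ ball x r₀), h2⟩
    exact ⟨h3.2, h3.1⟩
  obtain ⟨L, hL, hLe⟩ := exists_lg isOpen_ball (convex_ball x' (r / 2))
    ((hA true).mono fun z hz => (hsub z hz).1) (fun z hz => (hsub z hz).2)
  have him : x'.im = x.im := by simp [hx']
  -- constancy of `L - 2 i F`
  have hVo : IsOpen (ball x' (r / 2) ∩ St b) := isOpen_ball.inter (isOpen_St b)
  have hVc : Convex ℝ (ball x' (r / 2) ∩ St b) := (convex_ball _ _).inter (convex_St b)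
  have hFd : ∀ z ∈ St b, DifferentiableAt ℂ F z := fun z hz =>
    B.dF.differentiableAt ((isOpen_St b).mem_nhds hz)
  have hd : ∀ z ∈ ball x' (r / 2) ∩ St b, HasDerivAt (fun z => L z - 2 * I * F z) 0 z := by
    intro z hz
    have h1 : HasDerivAt L (deriv L z) z :=
      (hL.differentiableAt (isOpen_ball.mem_nhds hz.1)).hasDerivAt
    have h2 := (hFd z hz.2).hasDerivAt.const_mul (2 * I)
    have h3 := h1.sub h2
    have h4 := h3.cexp
    have h5 : (fun z => exp (L z - 2 * I * F z)) =ᶠ[𝓝 z] fun _ => 1 := by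
      filter_upwards [hVo.mem_nhds hz] with w hw
      rw [exp_sub, hLe w hw.1, hAG true w (hsub w hw.1).1 hw.2]
      show exp (2 * I * F w) / exp (2 * I * F w) = 1
      exact div_self (exp_ne_zero _)
    have h6 := h4.unique ((hasDerivAt_const z (1 : ℂ)).congr_of_eventuallyEq h5)
    rcases mul_eq_zero.1 h6 with h7 | h7
    · exact absurd h7 (exp_ne_zero _)
    · rw [← h7]; exact h3
  obtain ⟨c, hc⟩ : ∃ c, ∀ z ∈ ball x' (r / 2) ∩ St b, L z - 2 * I * F z = c := by
    rcases (ball x' (r / 2) ∩ St b).eq_empty_or_nonempty with h | ⟨z₀, hz₀⟩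
    · exact ⟨0, fun z hz => by rw [h] at hz; exact absurd hz (notMem_empty z)⟩
    · exact ⟨_, fun z hz => H456.Edge.const_of_deriv hVc hVo hd hz hz₀⟩
  have hZd : DifferentiableOn ℂ (fun z => exp ((L z - c) / 2)) (ball x' (r / 2)) :=
    ((hL.sub_const c).div_const 2).cexp
  refine ⟨x', r / 2, fun z => exp ((L z - c) / 2), fun z => A false z * exp ((L z - c) / 2),
    him, by positivity, ?_, hZd, ?_, fun z _ => exp_ne_zero _, fun z hz hzS => ?_⟩
  · have : r ≤ b := min_le_right _ _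
    linarith
  · exact ((hA false).mono fun z hz => (hsub z hz).1).mul hZd
  · have h1 : (L z - c) / 2 = I * F z := by
      have := hc z ⟨hz, hzS⟩
      linear_combination this / 2
    show exp ((L z - c) / 2) = exp (I * F z) ∧ A false z * exp ((L z - c) / 2) = q z
    rw [h1, hAG false z (hsub z hz).1 hzS]
    refine ⟨rfl, ?_⟩
    show q z * exp (-I * F z) * exp (I * F z) = q z
    rw [mul_assoc, ← exp_add, neg_mul, neg_add_cancel, exp_zero, mul_one]

/-- the natural boundary, both lines -/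
theorem Bs.base (B : Bs Λ b F q Q) : Base b (Gm F q) where
  hol := by
    rintro (_ | _)
    · exact B.dq.mul (B.dF.const_mul _).cexp
    · exact (B.dF.const_mul _).cexp
  imm := by
    intro z hz
    have hF := (B.dF.differentiableAt ((isOpen_St b).mem_nhds hz)).hasDerivAt
    have hq := (B.dq.differentiableAt ((isOpen_St b).mem_nhds hz)).hasDerivAt
    by_cases h0 : deriv F z = 0
    · refine ⟨false, ?_⟩
      have h1 : HasDerivAt (Gm F q false) (deriv q z * exp (-I * F z) +
          q z * (exp (-I * F z) * (-I * deriv F z))) z := hq.mul (hF.const_mul (-I)).cexp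
      rw [h1.deriv, h0, mul_zero, mul_zero, mul_zero, add_zero]
      have h2 := B.wr z hz
      unfold Wr at h2
      rw [h0] at h2
      refine mul_ne_zero ?_ (exp_ne_zero _)
      intro h3
      rw [h3] at h2
      have h4 : (Λ : ℂ) ^ 3 = 0 := by rw [← h2]; ring
      exact pow_ne_zero 3 (ofReal_ne_zero.2 B.Λ0.ne') h4
    · refine ⟨true, ?_⟩
      have h1 : HasDerivAt (Gm F q true) (exp (2 * I * F z) * (2 * I * deriv F z)) z :=
        (hF.const_mul (2 * I)).cexp
      rw [h1.deriv]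
      exact mul_ne_zero (exp_ne_zero _) (mul_ne_zero (mul_ne_zero two_ne_zero I_ne_zero) h0)
  nb := by
    intro x hx ε hε A hA hAG
    obtain ⟨x', ρ, Z', q', him, hρ, hρb, hZ, hq, hZ0, hZq⟩ := B.loc_ext hx hε hA
      (fun i z hz hzS => hAG i z hz hzS)
    apply B.nat
    have hb := B.b0
    rcases abs_choice x.im with h | h
    · -- top line
      have hxb : x'.im = b := by rw [him, ← hx, h]
      have hc : ((x'.re : ℂ) + b * I) = x' := by
        rw [← hxb]; exact Complex.re_add_im x'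
      refine ⟨x'.re, ρ, Z', q', hρ, ?_, ?_, ?_⟩
      · rw [hc]; exact (hZ.analyticOnNhd isOpen_ball).meromorphicOn
      · rw [hc]; exact (hq.analyticOnNhd isOpen_ball).meromorphicOn
      · rw [hc]
        intro z hz hzb
        refine hZq z hz ?_
        show |z.im| < b
        rw [abs_lt]
        refine ⟨?_, hzb⟩
        rw [mem_ball, dist_eq_norm] at hz
        have h1 := (abs_le.1 (Complex.abs_im_le_norm (z - x'))).1
        rw [Complex.sub_im, hxb] at h1
        linarith
    · -- bottom line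
      have hxb : x'.im = -b := by rw [him, ← hx, h]; ring
      have hc : ((x'.re : ℂ) + b * I) = conj x' := by
        apply Complex.ext
        · simp
        · simp [hxb]
      have hcb : ∀ z ∈ ball (conj x') ρ, conj z ∈ ball x' ρ := by
        intro z hz
        rw [mem_ball, dist_eq_norm] at hz ⊢
        have h1 : conj z - x' = conj (z - conj x') := by rw [map_sub, Complex.conj_conj]
        rw [h1, Complex.norm_conj]; exact hz
      refine ⟨x'.re, ρ, fun z => (conj (Z' (conj z)))⁻¹, fun z => conj (q' (conj z)), hρ, ?_, ?_, ?_⟩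
      · rw [hc]
        refine (DifferentiableOn.analyticOnNhd ?_ isOpen_ball).meromorphicOn
        intro z hz
        apply DifferentiableAt.differentiableWithinAt
        have h1 := hcb z hz
        have h2 : DifferentiableAt ℂ Z' (conj z) := hZ.differentiableAt (isOpen_ball.mem_nhds h1)
        have h3 : DifferentiableAt ℂ (fun z => conj (Z' (conj z))) z := by
          have := h2.conj_conj
          rwa [Complex.conj_conj] at this
        exact h3.inv ((map_ne_zero _).2 (hZ0 _ h1))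
      · rw [hc]
        refine (DifferentiableOn.analyticOnNhd ?_ isOpen_ball).meromorphicOn
        intro z hz
        apply DifferentiableAt.differentiableWithinAt
        have h1 := hcb z hz
        have h2 : DifferentiableAt ℂ q' (conj z) := hq.differentiableAt (isOpen_ball.mem_nhds h1)
        have := h2.conj_conj
        rwa [Complex.conj_conj] at this
      · rw [hc]
        intro z hz hzb
        have h1 := hcb z hz
        have h0 : z ∈ Str b := by
          show |z.im| < b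
          rw [abs_lt]
          refine ⟨?_, hzb⟩
          rw [mem_ball, dist_eq_norm] at hz
          have h3 := (abs_le.1 (Complex.abs_im_le_norm (z - conj x'))).1
          rw [Complex.sub_im, Complex.conj_im, hxb] at h3
          linarith
        have h2 : conj z ∈ St b := by
          show |(conj z).im| < b
          rw [Complex.conj_im, abs_neg]; exact h0
        obtain ⟨h3, h4⟩ := hZq _ h1 h2
        show (conj (Z' (conj z)))⁻¹ = exp (I * F z) ∧ conj (q' (conj z)) = q z
        rw [h3, h4, B.Fc z h0, B.qc z h0, Complex.conj_conj]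
        refine ⟨?_, rfl⟩
        rw [← Complex.exp_conj, map_mul, Complex.conj_conj, Complex.conj_I, ← exp_neg]
        congr 1
        ring

/-- chain rule for `Wr` -/
theorem Wr_compC {b : ℝ} {F q θ : ℂ → ℂ} (dF : DifferentiableOn ℂ F (Str b))
    (dq : DifferentiableOn ℂ q (Str b)) {V : Set ℂ} (hV : IsOpen V)
    (hθ : DifferentiableOn ℂ θ V) (hm : MapsTo θ V (Str b)) {t : ℂ} (ht : t ∈ V) :
    SC.Wr (fun t => F (θ t)) (fun t => q (θ t)) t = SC.Wr F q (θ t) * deriv θ t ^ 3 := by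
  have hθt : ∀ s ∈ V, HasDerivAt θ (deriv θ s) s := fun s hs =>
    (hθ.differentiableAt (hV.mem_nhds hs)).hasDerivAt
  have hSo := isOpen_Str b
  have key : ∀ f : ℂ → ℂ, DifferentiableOn ℂ f (Str b) → (∀ s ∈ V, deriv (fun t => f (θ t)) s =
      deriv f (θ s) * deriv θ s) ∧ deriv (deriv (fun t => f (θ t))) t =
      deriv (deriv f) (θ t) * deriv θ t ^ 2 + deriv f (θ t) * deriv (deriv θ) t := by
    intro f hf
    have h1 : ∀ s ∈ V, deriv (fun t => f (θ t)) s = deriv f (θ s) * deriv θ s := fun s hs =>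
      ((hf.differentiableAt (hSo.mem_nhds (hm hs))).hasDerivAt.comp s (hθt s hs)).deriv
    refine ⟨h1, ?_⟩
    have h2 : deriv (fun t => f (θ t)) =ᶠ[𝓝 t] fun s => deriv f (θ s) * deriv θ s := by
      filter_upwards [hV.mem_nhds ht] with s hs using h1 s hs
    rw [h2.deriv_eq]
    have h3 : HasDerivAt (deriv f) (deriv (deriv f) (θ t)) (θ t) :=
      ((hf.deriv hSo).differentiableAt (hSo.mem_nhds (hm ht))).hasDerivAt
    have h4 : HasDerivAt (deriv θ) (deriv (deriv θ) t) t :=
      ((hθ.deriv hV).differentiableAt (hV.mem_nhds ht)).hasDerivAt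
    have h5 := ((h3.comp t (hθt t ht)).mul h4).deriv
    have h6 : deriv (fun s => deriv f (θ s) * deriv θ s) t =
        deriv (deriv f) (θ t) * deriv θ t * deriv θ t + deriv f (θ t) * deriv (deriv θ) t := h5
    rw [h6]; ring
  obtain ⟨p1, p2⟩ := key F dF
  obtain ⟨q1, q2⟩ := key q dq
  unfold SC.Wr
  rw [p2, q2, p1 t ht, q1 t ht]
  ring

/-- derivative of the angle along a position -/
noncomputable def Ps (f₁ : ℂ → ℂ) (t : ℂ) : ℂ := deriv f₁ t / (2 * I * f₁ t)

/-- `exp (-i F(θ)) * Wr` -/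
noncomputable def Xs (f₁ f₂ : ℂ → ℂ) (t : ℂ) : ℂ :=
  deriv (deriv f₂) t * Ps f₁ t - deriv f₂ t * deriv (Ps f₁) t + 2 * I * Ps f₁ t ^ 2 * deriv f₂ t

/-- `θ' ^ 6` -/
noncomputable def Ms (c : ℂ) (f₁ f₂ : ℂ → ℂ) (t : ℂ) : ℂ := f₁ t * Xs f₁ f₂ t ^ 2 / c ^ 2

theorem mero_Ps {f₁ : ℂ → ℂ} {t : ℂ} (h : MeromorphicAt f₁ t) : MeromorphicAt (Ps f₁) t :=
  h.deriv.div ((MeromorphicAt.const (2 * I) t).mul h)

theorem mero_Ms {c : ℂ} {f₁ f₂ : ℂ → ℂ} {t : ℂ} (h₁ : MeromorphicAt f₁ t)
    (h₂ : MeromorphicAt f₂ t) : MeromorphicAt (Ms c f₁ f₂) t := by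
  have hp := mero_Ps h₁
  have hx : MeromorphicAt (Xs f₁ f₂) t :=
    ((h₂.deriv.deriv.mul hp).sub (h₂.deriv.mul hp.deriv)).add
      (((MeromorphicAt.const (2 * I) t).mul (hp.pow 2)).mul h₂.deriv)
  exact (h₁.mul (hx.pow 2)).div (MeromorphicAt.const (c ^ 2) t)

/-- **the sixth power** of the derivative of a position -/
theorem Ms_eq {c : ℂ} (hc : c ≠ 0) {θ f₁ f₂ : ℂ → ℂ} (dF : DifferentiableOn ℂ F (Str b))
    (dq : DifferentiableOn ℂ q (Str b)) (wr : ∀ z ∈ Str b, Wr F q z = c) {V : Set ℂ}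
    (hV : IsOpen V) (hθ : DifferentiableOn ℂ θ V) (hm : MapsTo θ V (Str b))
    (r : ∀ t ∈ V, f₁ t = exp (2 * I * F (θ t)) ∧ f₂ t = q (θ t) * exp (-I * F (θ t))) :
    ∀ t ∈ V, deriv θ t ^ 6 = Ms c f₁ f₂ t := by
  set φ : ℂ → ℂ := fun t => F (θ t) with hφ
  set p : ℂ → ℂ := fun t => q (θ t) with hp
  have dφ : DifferentiableOn ℂ φ V := dF.comp hθ hm
  have dp : DifferentiableOn ℂ p V := dq.comp hθ hm
  have hφt : ∀ s ∈ V, HasDerivAt φ (deriv φ s) s := fun s hs =>
    (dφ.differentiableAt (hV.mem_nhds hs)).hasDerivAt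
  have hpt : ∀ s ∈ V, HasDerivAt p (deriv p s) s := fun s hs =>
    (dp.differentiableAt (hV.mem_nhds hs)).hasDerivAt
  have hφt' : ∀ s ∈ V, HasDerivAt (deriv φ) (deriv (deriv φ) s) s := fun s hs =>
    ((dφ.deriv hV).differentiableAt (hV.mem_nhds hs)).hasDerivAt
  have hpt' : ∀ s ∈ V, HasDerivAt (deriv p) (deriv (deriv p) s) s := fun s hs =>
    ((dp.deriv hV).differentiableAt (hV.mem_nhds hs)).hasDerivAt
  have e1 : ∀ t ∈ V, f₁ =ᶠ[𝓝 t] fun s => exp (2 * I * φ s) := fun t ht => by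
    filter_upwards [hV.mem_nhds ht] with s hs using (r s hs).1
  have e2 : ∀ t ∈ V, f₂ =ᶠ[𝓝 t] fun s => p s * exp (-I * φ s) := fun t ht => by
    filter_upwards [hV.mem_nhds ht] with s hs using (r s hs).2
  have hP : ∀ t ∈ V, Ps f₁ t = deriv φ t := by
    intro t ht
    have h1 : HasDerivAt (fun s => exp (2 * I * φ s)) (exp (2 * I * φ t) * (2 * I * deriv φ t)) t :=
      ((hφt t ht).const_mul (2 * I)).cexp
    unfold Ps
    rw [(e1 t ht).deriv_eq, h1.deriv, (e1 t ht).self_of_nhds]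
    have h2 : exp (2 * I * φ t) ≠ 0 := exp_ne_zero _
    have h3 : (2 * I : ℂ) ≠ 0 := mul_ne_zero two_ne_zero I_ne_zero
    field_simp
  have hP' : ∀ t ∈ V, deriv (Ps f₁) t = deriv (deriv φ) t := by
    intro t ht
    have h1 : Ps f₁ =ᶠ[𝓝 t] deriv φ := by
      filter_upwards [hV.mem_nhds ht] with s hs using hP s hs
    exact h1.deriv_eq
  have h21 : ∀ t ∈ V, deriv f₂ t = (deriv p t - I * deriv φ t * p t) * exp (-I * φ t) := by
    intro t ht
    have h1 : HasDerivAt (fun s => p s * exp (-I * φ s))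
        (deriv p t * exp (-I * φ t) + p t * (exp (-I * φ t) * (-I * deriv φ t))) t :=
      (hpt t ht).mul ((hφt t ht).const_mul (-I)).cexp
    rw [(e2 t ht).deriv_eq, h1.deriv]
    ring
  have h22 : ∀ t ∈ V, deriv (deriv f₂) t = (deriv (deriv p) t - 2 * I * deriv φ t * deriv p t -
      I * deriv (deriv φ) t * p t - deriv φ t ^ 2 * p t) * exp (-I * φ t) := by
    intro t ht
    have h1 : deriv f₂ =ᶠ[𝓝 t] fun s => (deriv p s - I * deriv φ s * p s) * exp (-I * φ s) := by
      filter_upwards [hV.mem_nhds ht] with s hs using h21 s hs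
    have h2 : HasDerivAt (fun s => (deriv p s - I * deriv φ s * p s) * exp (-I * φ s))
        ((deriv (deriv p) t - (I * deriv (deriv φ) t * p t + I * deriv φ t * deriv p t)) *
          exp (-I * φ t) + (deriv p t - I * deriv φ t * p t) * (exp (-I * φ t) * (-I * deriv φ t)))
        t :=
      ((hpt' t ht).sub (((hφt' t ht).const_mul I).mul (hpt t ht))).mul
        ((hφt t ht).const_mul (-I)).cexp
    rw [h1.deriv_eq, h2.deriv]
    linear_combination (p t * deriv φ t ^ 2 * exp (-I * φ t)) * I_sq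
  intro t ht
  have hWr := Wr_compC dF dq hV hθ hm ht
  rw [wr _ (hm ht)] at hWr
  unfold SC.Wr at hWr
  have hX : Xs f₁ f₂ t = exp (-I * φ t) * (c * deriv θ t ^ 3) := by
    unfold Xs
    rw [hP t ht, hP' t ht, h21 t ht, h22 t ht, ← hWr]
    change _ = exp (-I * φ t) * (deriv (deriv p) t * deriv φ t - deriv p t * deriv (deriv φ) t +
      p t * deriv φ t ^ 3)
    linear_combination (-2 * p t * deriv φ t ^ 3 * exp (-I * φ t)) * I_sq
  unfold Ms
  rw [hX, (e1 t ht).self_of_nhds]
  have h3 : exp (2 * I * φ t) * exp (-I * φ t) ^ 2 = 1 := by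
    rw [← exp_nat_mul, ← exp_add]
    have : 2 * I * φ t + ((2 : ℕ) : ℂ) * (-I * φ t) = 0 := by push_cast; ring
    rw [this, exp_zero]
  rw [eq_div_iff (pow_ne_zero 2 hc)]
  linear_combination (-(c ^ 2 * deriv θ t ^ 6)) * h3

/-- **Row Lift** of case [c] -/
theorem rowLift : RowLift := by
  intro Λ b F q Q B W hW hWc f₁ f₂ m₁ m₂ t₀ θ ht₀ hθ hS hnc hrel
  have hBase := B.base
  set c : ℂ := (Λ : ℂ) ^ 3 with hc
  have hc0 : c ≠ 0 := pow_ne_zero 3 (ofReal_ne_zero.2 B.Λ0.ne')
  set f : Bool → ℂ → ℂ := fun i => if i then f₁ else f₂ with hf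
  have hfm : ∀ i, MeromorphicOn (f i) W := by
    rintro (_ | _)
    · exact m₂
    · exact m₁
  have hmm : MeromorphicOn (Ms c f₁ f₂) W := fun t ht => mero_Ms (m₁ t ht) (m₂ t ht)
  have hall : ∀ᶠ t in 𝓝 t₀, AnalyticAt ℂ θ t ∧ θ t ∈ Str b ∧
      (f₁ t = exp (2 * I * F (θ t)) ∧ f₂ t = q (θ t) * exp (-I * F (θ t))) := by
    filter_upwards [hθ.eventually_analyticAt, hθ.continuousAt.eventually_mem
      ((isOpen_Str b).mem_nhds hS), hrel] with t a b c using ⟨a, b, c⟩
  obtain ⟨r, hr0, hrb⟩ := Metric.eventually_nhds_iff_ball.1 hall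
  have h6 := Ms_eq (b := b) (θ := θ) hc0 B.dF B.dq B.wr isOpen_ball (V := ball t₀ r)
    (fun t ht => (hrb t ht).1.differentiableAt.differentiableWithinAt)
    (fun t ht => (hrb t ht).2.1) (fun t ht => (hrb t ht).2.2)
  obtain ⟨θ', ⟨h1, h2, h3, h4⟩, h5⟩ := lift_mer hBase (f := f) (m := Ms c f₁ f₂) hW hWc hfm hmm
    ht₀ hθ hS hnc (by
      filter_upwards [isOpen_ball.mem_nhds (mem_ball_self hr0)] with t ht
      refine ⟨?_, h6 t ht⟩
      rintro (_ | _)
      · exact (hrb t ht).2.2.2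
      · exact (hrb t ht).2.2.1)
  refine ⟨θ', h1, h2, h5, fun t ht => ?_⟩
  filter_upwards [h4 t ht] with s hs
  exact ⟨hs.1 true, hs.1 false⟩

end Vale.Agent.P097.CC
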